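import Vale.Agent.P146.Defs

/-! # P146: facts on the smoothed two-point function, and the variance representation -/

namespace Vale.Agent.P146

open MeasureTheory ProbabilityTheory Matrix

namespace BfAux

theorem flp_sq {n : ℕ} (i : Fin n) (e : Edge n) : flp i e ^ 2 = 1 := by
  unfold flp
  split_ifs <;> norm_num

theorem int_flip (h_flip : S_flip) {n : ℕ} (i : Fin n) {f : (Edge n → ℝ) → ℝ}
    (hf : Continuous f) : ∫ y, f (flp i * y) ∂gam (Edge n) = ∫ y, f y ∂gam (Edge n) :=
  (h_flip (Edge n) (flp i) (flp_sq i)).hasLaw.integral_comp hf.aestronglyMeasurable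

theorem bf_flip (h_M : S_M) (h_Mc1 : S_Mc1) (h_flip : S_flip) {n : ℕ} (β τ : ℝ) {i j : Fin n}
    (h : j ≠ i) (z : Edge n → ℝ) : Bf β τ i j (flp i * z) = -Bf β τ i j z := by
  have c1 : Continuous fun y => M β i j (nz (fun _ => τ) (flp i * z) y) :=
    ((h_Mc1 n β).1 i j).eg.cont.comp
      ((continuous_nz fun _ => τ).comp (continuous_const.prodMk continuous_id))
  unfold Bf T
  rw [← int_flip h_flip i c1, ← integral_neg]
  refine integral_congr_ae (Filter.Eventually.of_forall fun y => ?_)
  have e1 : nz (fun _ => τ) (flp i * z) (flp i * y) = flp i * nz (fun _ => τ) z y := by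
    funext e
    simp only [nz, Pi.mul_apply]
    ring
  show M β i j (nz (fun _ => τ) (flp i * z) (flp i * y)) = -M β i j (nz (fun _ => τ) z y)
  rw [e1, (h_M n β).2.2.2.2.1 i j _ h]

end BfAux

theorem bfacts (h_M : S_M) (h_Mc1 : S_Mc1) (h_flip : S_flip) : S_B := by
  intro n β τ h0 h1
  obtain ⟨m1, m2, m3, m4, -, -⟩ := h_M n β
  have eg : ∀ i j : Fin n, EG (M β i j) := fun i j => ((h_Mc1 n β).1 i j).eg
  have b2 : ∀ i j : Fin n, Bf β τ i j = Bf β τ j i := fun i j => by unfold Bf; rw [m2]
  have b3 : ∀ (i : Fin n) x, Bf β τ i i x = 1 := fun i x => by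
    unfold Bf
    rw [show M β i i = fun _ => 1 from funext (m3 i), T_const]
  refine ⟨fun i j x => abs_T_le (m1 i j) _ x, b2, b3, fun x => ?_, fun i j x => ?_⟩
  · refine PosSemidef.of_dotProduct_mulVec_nonneg ?_ fun v => ?_
    · ext i j
      simp only [Bm, conjTranspose_apply, of_apply, star_trivial, b2 i j]
    · have e1 : T (fun _ => τ) (fun g => ∑ i, ∑ j, v i * v j * M β i j g) x =
          ∑ i, ∑ j, v i * v j * Bf β τ i j x := by
        rw [T_sum _ (fun i _ => EG.sum _ fun j _ => (eg i j).const_mul _) (u01_const h0 h1)]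
        refine Finset.sum_congr rfl fun i _ => ?_
        rw [T_sum _ (fun j _ => (eg i j).const_mul _) (u01_const h0 h1)]
        exact Finset.sum_congr rfl fun j _ => T_const_mul _ _ _ _
      have e2 : 0 ≤ T (fun _ => τ) (fun g => ∑ i, ∑ j, v i * v j * M β i j g) x :=
        integral_nonneg fun y => m4 v _
      rw [e1] at e2
      refine e2.trans (le_of_eq ?_)
      simp only [dotProduct, mulVec, Bm, of_apply, star_trivial, Finset.mul_sum]
      exact Finset.sum_congr rfl fun i _ => Finset.sum_congr rfl fun j _ => by ring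
  · split_ifs with h
    · rw [← h, show Bf β τ i i = fun _ => 1 from funext (b3 i), T_const]
    · have c1 : Continuous fun y => Bf β τ i j (nz (off (row i)) x y) :=
        ((eg i j).T (u01_const h0 h1)).cont.comp
          ((continuous_nz _).comp (continuous_const.prodMk continuous_id))
      have e1 := BfAux.int_flip h_flip i c1
      have e2 : ∀ y, nz (off (row i)) x (flp i * y) = flp i * nz (off (row i)) x y := fun y => by
        funext e
        simp only [nz_off, Pi.mul_apply, flp]
        split_ifs <;> ring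
      simp only [e2, BfAux.bf_flip h_M h_Mc1 h_flip β τ (Ne.symm h), integral_neg] at e1
      unfold T
      linarith

theorem var (h_interp : S_interp) (h_covmono : S_covmono) (h_covcont : S_covcont)
    (h_comb : S_comb) (h_M : S_M) (h_Mc1 : S_Mc1) : S_var := by
  intro n β hn
  obtain ⟨c1, c2⟩ := h_Mc1 n β
  have eg : ∀ i j : Fin n, EG (M β i j) := fun i j => (c1 i j).eg
  have p1 : ContinuousOn (Phi n β) (Set.Icc 0 1) :=
    continuousOn_finsetSum _ fun i _ => continuousOn_finsetSum _ fun j _ =>
      h_covcont _ _ _ (eg i j) (eg i j)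
  have p2 : ∀ r, 0 ≤ r → r ≤ 1 → ∀ i j : Fin n,
      0 ≤ cov r (M β i j) (M β i j) ∧ cov r (M β i j) (M β i j) ≤ 1 := fun r h0 h1 i j => by
    obtain ⟨a1, a2⟩ := h_covmono _ r 1 _ h0 h1 le_rfl (eg i j)
    refine ⟨a1, a2.trans ?_⟩
    rw [cov_one]
    refine (integral_mono ((eg i j).mul (eg i j)).intg (integrable_const 1) fun x => ?_).trans ?_
    · exact abs_le_one_iff_mul_self_le_one.1 ((h_M n β).1 i j x)
    · simp
  refine ⟨p1, fun r h0 h1 => ⟨Finset.sum_nonneg fun i _ => Finset.sum_nonneg fun j _ =>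
    (p2 r h0 h1 i j).1, ?_⟩, ?_⟩
  · refine (Finset.sum_le_sum fun i _ => Finset.sum_le_sum fun j _ => (p2 r h0 h1 i j).2).trans ?_
    simp [sq]
  · have m2 : MemLp (freeEnergy n β) 2 (gam (Edge n)) :=
      (memLp_two_iff_integrable_sq c2.eg.cont.aestronglyMeasurable).2 c2.eg.sq.intg
    have v1 : variance (freeEnergy n β) (disorder n) = cov 1 (freeEnergy n β) (freeEnergy n β) -
        (∫ x, freeEnergy n β x ∂gam (Edge n)) * ∫ x, freeEnergy n β x ∂gam (Edge n) := by
      rw [cov_one]
      have := variance_eq_sub m2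
      simp only [sq, Pi.mul_apply] at this
      exact this
    have hc : β / √(n : ℝ) * (β / √(n : ℝ)) = β ^ 2 / n := by
      rw [div_mul_div_comm, Real.mul_self_sqrt (Nat.cast_nonneg n), sq]
    rw [v1, h_interp _ _ _ _ _ 1 c2 c2 zero_le_one le_rfl, ← intervalIntegral.integral_const_mul]
    simp only [cov_const_mul, hc, ← Finset.mul_sum]
    refine intervalIntegral.integral_mono_on zero_le_one
      (ContinuousOn.intervalIntegrable_of_Icc zero_le_one (continuousOn_const.mul
        (continuousOn_finsetSum _ fun e _ => h_covcont _ _ _ (eg _ _) (eg _ _))))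
      (ContinuousOn.intervalIntegrable_of_Icc zero_le_one (continuousOn_const.mul p1))
      fun r hr => mul_le_mul_of_nonneg_left ?_ (by positivity)
    exact (h_comb n).2.2 (fun i j => cov r (M β i j) (M β i j)) fun i j => (p2 r hr.1 hr.2 i j).1

end Vale.Agent.P146
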