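import Vale.Agent.P146.Defs

/-! # P146: closure properties of the class `C1` -/

namespace Vale.Agent.P146

open MeasureTheory ProbabilityTheory

namespace C1Aux

variable {ι : Type} [Fintype ι]

/-- The gradient as a linear form. -/
noncomputable abbrev pr (e : ι) : (ι → ℝ) →L[ℝ] ℝ :=
  ContinuousLinearMap.proj (R := ℝ) (φ := fun _ : ι => ℝ) e

theorem norm_pr (e : ι) : ‖(pr e : (ι → ℝ) →L[ℝ] ℝ)‖ ≤ 1 :=
  ContinuousLinearMap.opNorm_le_bound _ zero_le_one fun x => by
    simpa using norm_le_pi_norm x e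

theorem der_nz_left (τ : ℝ) (x y : ι → ℝ) :
    HasFDerivAt (fun x : ι → ℝ => nz (fun _ => τ) x y)
      (τ • ContinuousLinearMap.id ℝ (ι → ℝ)) x := by
  have h : (fun x : ι → ℝ => nz (fun _ => τ) x y) =
      fun x => τ • x + fun e => √(1 - τ ^ 2) * y e := by
    funext x e
    simp [nz]
  rw [h]
  exact ((hasFDerivAt_id x).const_smul τ).add_const _

end C1Aux

open C1Aux

theorem c1mul : S_c1mul := by
  intro ι _ f g D D' hf hg
  refine ⟨hf.eg.mul hg.eg, fun e => ((hf.egD e).mul hg.eg).add (hf.eg.mul (hg.egD e)), fun x => ?_⟩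
  refine ((hf.der x).mul (hg.der x)).congr_fderiv ?_
  ext v
  simp only [ContinuousLinearMap.add_apply, ContinuousLinearMap.smul_apply,
    ContinuousLinearMap.sum_apply, smul_eq_mul, Finset.mul_sum, ← Finset.sum_add_distrib]
  exact Finset.sum_congr rfl fun e _ => by ring

theorem c1lin : S_c1lin := by
  intro ι α _ s u c F D h
  refine ⟨(EG.sum s fun a ha => (h a ha).eg.const_mul _).sub (EG.const c),
    fun e => EG.sum s fun a ha => ((h a ha).egD e).const_mul _, fun x => ?_⟩
  refine ((HasFDerivAt.fun_sum fun a ha => ((h a ha).der x).const_mul (u a)).sub_const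
    c).congr_fderiv ?_
  ext v
  simp only [ContinuousLinearMap.smul_apply, ContinuousLinearMap.sum_apply, smul_eq_mul,
    Finset.mul_sum, Finset.sum_mul]
  rw [Finset.sum_comm]
  exact Finset.sum_congr rfl fun e _ => Finset.sum_congr rfl fun a _ => by ring

theorem c1mix : S_c1mix := by
  intro ι _ _ f D I x hf
  refine ⟨(hf.eg.nz (u01_off I)).sec_right x,
    fun e => EG.ite _ (((hf.egD e).nz (u01_off I)).sec_right x) (EG.const 0), fun y => ?_⟩
  have h1 : HasFDerivAt (fun y : ι → ℝ => nz (off I) x y)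
      (ContinuousLinearMap.pi fun e => if e ∈ I then pr e else 0) y := by
    refine hasFDerivAt_pi.2 fun e => ?_
    simp only [nz_off]
    split_ifs
    · exact (pr e).hasFDerivAt
    · exact hasFDerivAt_const _ _
  refine ((hf.der _).comp y h1).congr_fderiv ?_
  ext v
  simp only [ContinuousLinearMap.comp_apply, ContinuousLinearMap.smul_apply,
    ContinuousLinearMap.sum_apply, smul_eq_mul, ContinuousLinearMap.proj_apply,
    ContinuousLinearMap.pi_apply]
  refine Finset.sum_congr rfl fun e _ => ?_
  split_ifs <;> simp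

theorem c1T : S_c1T := by
  intro ι _ f D τ hf h0 h1
  have hu : U01 fun _ : ι => τ := u01_const h0 h1
  refine ⟨hf.eg.T hu, fun e => ((hf.egD e).T hu).const_mul τ, fun x0 => ?_⟩
  have hS : EG fun x => ∑ e, |D e x| := EG.sum _ fun e _ => (hf.egD e).abs
  obtain ⟨_, C, c, hC, hc, hb⟩ := hS
  have hint : ∀ e, Integrable (fun y => D e (nz (fun _ => τ) x0 y)) (gam ι) := fun e =>
    (((hf.egD e).nz hu).sec_right x0).intg
  have key := hasFDerivAt_integral_of_dominated_of_fderiv_le (μ := gam ι)
    (F := fun x y => f (nz (fun _ => τ) x y))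
    (F' := fun x y => ∑ e, (τ * D e (nz (fun _ => τ) x y)) • pr e) (x₀ := x0)
    (bound := fun y => C * Real.exp (c * (‖x0‖ + 1)) * Real.exp (c * ‖y‖))
    (Metric.ball_mem_nhds x0 zero_lt_one)
    (Filter.Eventually.of_forall fun x =>
      ((hf.eg.nz hu).sec_right x).cont.aestronglyMeasurable)
    ((hf.eg.nz hu).sec_right x0).intg
    (Continuous.aestronglyMeasurable (continuous_finsetSum _ fun e _ =>
      (continuous_const.mul (((hf.egD e).nz hu).sec_right x0).cont).smul continuous_const))
    (ae_of_all _ fun y x hx => ?_) (((nice_gam ι).ex c).const_mul _)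
    (ae_of_all _ fun y x _ => ?_)
  · refine key.congr_fderiv ?_
    rw [integral_finsetSum _ fun e _ => ((hint e).const_mul τ).smul_const _]
    refine Finset.sum_congr rfl fun e _ => ?_
    rw [integral_smul_const, integral_const_mul]
    rfl
  · have h2 : ‖∑ e, (τ * D e (nz (fun _ => τ) x y)) • (pr e : (ι → ℝ) →L[ℝ] ℝ)‖ ≤
        ∑ e, |D e (nz (fun _ => τ) x y)| := by
      refine (norm_sum_le _ _).trans (Finset.sum_le_sum fun e _ => ?_)
      rw [norm_smul, norm_mul, Real.norm_of_nonneg h0, Real.norm_eq_abs]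
      calc τ * |D e (nz (fun _ => τ) x y)| * ‖(pr e : (ι → ℝ) →L[ℝ] ℝ)‖
          ≤ 1 * |D e (nz (fun _ => τ) x y)| * 1 := by
            gcongr
            exact norm_pr e
        _ = _ := by ring
    refine h2.trans ((le_abs_self _).trans ((hb _).trans ?_))
    rw [mul_assoc, ← Real.exp_add, ← mul_add]
    have h3 : ‖x‖ ≤ ‖x0‖ + 1 := by
      have h4 := norm_sub_norm_le x x0
      rw [mem_ball_iff_norm] at hx
      linarith
    have h5 := norm_nz hu x y
    gcongr
    linarith
  · refine ((hf.der _).comp x (der_nz_left τ x y)).congr_fderiv ?_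
    ext v
    simp only [ContinuousLinearMap.comp_apply, ContinuousLinearMap.smul_apply,
      ContinuousLinearMap.sum_apply, smul_eq_mul, ContinuousLinearMap.proj_apply,
      ContinuousLinearMap.id_apply, Pi.smul_apply]
    exact Finset.sum_congr rfl fun e _ => by ring

end Vale.Agent.P146
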