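import Vale.Agent.P146.Defs

/-! # P146: the final calculus step -/

namespace Vale.Agent.P146

open MeasureTheory

namespace CalcAux

theorem num {v w ρ δ F : ℝ} (hv : 1 ≤ v) (hw : 0 < w) (hw1 : w ≤ 1) (hvw : 1 ≤ v * w)
    (h1 : ρ ≤ 1) (hδ : δ = 1 - ρ) (hδw : w ^ 4 / 2 ≤ δ) (hF : 0 ≤ F)
    (h : F ≤ v ^ 20 + ρ * (F + 4 * (v ^ 15 / w) * v ^ 20
      + (v ^ 20 / (v ^ 15 / w) ^ 3 + 1 / (2 * (v ^ 15 / w) ^ 2)) * (16 * (v ^ 20) ^ 3 / δ))) :
    F ≤ 106 * v ^ 35 / w ^ 5 := by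
  have v0 : 0 < v := by linarith
  have d0 : 0 < δ := lt_of_lt_of_le (by positivity) hδw
  obtain ⟨X, hX⟩ : ∃ X, X = 4 * (v ^ 15 / w) * v ^ 20
      + (v ^ 20 / (v ^ 15 / w) ^ 3 + 1 / (2 * (v ^ 15 / w) ^ 2)) * (16 * (v ^ 20) ^ 3 / δ) :=
    ⟨_, rfl⟩
  have X0 : 0 ≤ X := by rw [hX]; positivity
  rw [add_assoc F, ← hX] at h
  have a1 : 16 * (v ^ 20) ^ 3 / δ ≤ 16 * (v ^ 20) ^ 3 / (w ^ 4 / 2) :=
    div_le_div_of_nonneg_left (by positivity) (by positivity) hδw
  have a2 : X ≤ 36 * (v ^ 35 / w) + 16 * (v ^ 30 / w ^ 2) := by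
    rw [hX]
    refine (add_le_add le_rfl (mul_le_mul_of_nonneg_left a1 (by positivity))).trans (le_of_eq ?_)
    field_simp
    ring
  have a3 : v ^ 20 ≤ v ^ 35 / w := by
    rw [le_div_iff₀ hw]
    exact (mul_le_of_le_one_right (by positivity) hw1).trans (pow_le_pow_right₀ hv (by norm_num))
  have a4 : v ^ 30 / w ^ 2 ≤ v ^ 35 / w := by
    rw [div_le_div_iff₀ (by positivity) hw]
    calc v ^ 30 * w ≤ v ^ 34 * w * (v * w) :=
          (mul_le_mul_of_nonneg_right (pow_le_pow_right₀ hv (by norm_num)) hw.le).trans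
            (le_mul_of_one_le_right (by positivity) hvw)
      _ = v ^ 35 * w ^ 2 := by ring
  have a5 : δ * F ≤ 53 * (v ^ 35 / w) := by
    have := mul_le_of_le_one_left X0 h1
    rw [hδ]
    nlinarith
  have a6 := (mul_le_mul_of_nonneg_right hδw hF).trans a5
  rw [← mul_div_assoc, le_div_iff₀ hw] at a6
  rw [le_div_iff₀ (by positivity)]
  linarith

end CalcAux

theorem calc_main : S_calc := by
  refine ⟨425, by norm_num, fun N Φ hN hc hb h => ?_⟩
  have N0 : 0 < N := by linarith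
  obtain ⟨v, hv⟩ : ∃ v : ℝ, v = N ^ (1 / 20 : ℝ) := ⟨_, rfl⟩
  have v1 : 1 ≤ v := by rw [hv]; exact Real.one_le_rpow hN (by norm_num)
  have v0 : 0 < v := by linarith
  have e1 : v ^ 20 = N := by
    rw [hv, ← Real.rpow_natCast, ← Real.rpow_mul N0.le]
    norm_num
  have e2 : N ^ (9 / 5 : ℝ) = v ^ 36 := by
    rw [hv, ← Real.rpow_natCast, ← Real.rpow_mul N0.le]
    norm_num
  obtain ⟨t, ht⟩ : ∃ t : ℝ, t = (v ^ 4)⁻¹ := ⟨_, rfl⟩
  have t0 : 0 < t := by rw [ht]; positivity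
  have t1 : t ≤ 1 := by rw [ht]; exact inv_le_one_of_one_le₀ (one_le_pow₀ v1)
  have e3 : t ^ (-1 / 4 : ℝ) = v := by
    rw [ht, ← Real.rpow_natCast, ← Real.rpow_neg v0.le, ← Real.rpow_mul v0.le]
    norm_num
  have key : ∀ r ∈ Set.Icc 0 (1 - t), Φ r ≤ 106 * v ^ 35 * (1 - r) ^ (-5 / 4 : ℝ) := by
    intro r hr
    obtain ⟨r0, r1⟩ := hr
    have s0 : 0 < 1 - r := by linarith
    obtain ⟨w, hw⟩ : ∃ w : ℝ, w = (1 - r) ^ (1 / 4 : ℝ) := ⟨_, rfl⟩
    have w0 : 0 < w := by rw [hw]; exact Real.rpow_pos_of_pos s0 _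
    have w4 : w ^ 4 = 1 - r := by
      rw [hw, ← Real.rpow_natCast, ← Real.rpow_mul s0.le]
      norm_num
    have w5 : (1 - r) ^ (-5 / 4 : ℝ) = (w ^ 5)⁻¹ := by
      rw [hw, ← Real.rpow_natCast, ← Real.rpow_mul s0.le, ← Real.rpow_neg s0.le]
      norm_num
    have w1 : w ≤ 1 := by rw [hw]; exact Real.rpow_le_one s0.le (by linarith) (by norm_num)
    have vw : 1 ≤ v * w := by
      refine le_of_pow_le_pow_left₀ (n := 4) (by norm_num) (by positivity) ?_
      have a1 : v ^ 4 * t = 1 := by rw [ht]; exact mul_inv_cancel₀ (by positivity)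
      rw [one_pow, mul_pow, w4, ← a1]
      exact mul_le_mul_of_nonneg_left (by linarith) (by positivity)
    have q0 := Real.sqrt_nonneg r
    have q1 : √r < 1 := by rw [Real.sqrt_lt' one_pos]; linarith
    have q2 := Real.mul_self_sqrt r0
    have q3 := Real.sq_sqrt q0
    have q4 : √(√r) < 1 := by rw [Real.sqrt_lt' one_pos]; linarith
    have h1 := h (√(√r)) (√r) (v ^ 15 / w) (Real.sqrt_nonneg _) q4 q0 q1.le (by positivity)
    rw [q3, q2, ← e1] at h1
    rw [w5, ← div_eq_mul_inv]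
    exact CalcAux.num v1 w0 w1 vw q1.le rfl (by nlinarith) (hb r r0 (by linarith)).1 h1
  have i1 : IntervalIntegrable Φ volume 0 (1 - t) := (hc.mono (by
    rw [Set.uIcc_of_le (by linarith)]
    exact Set.Icc_subset_Icc_right (by linarith))).intervalIntegrable
  have i2 : IntervalIntegrable Φ volume (1 - t) 1 := (hc.mono (by
    rw [Set.uIcc_of_le (by linarith)]
    exact Set.Icc_subset_Icc_left (by linarith))).intervalIntegrable
  have i3 : IntervalIntegrable (fun r : ℝ => 106 * v ^ 35 * (1 - r) ^ (-5 / 4 : ℝ)) volume 0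
      (1 - t) := by
    refine ContinuousOn.intervalIntegrable (continuousOn_const.mul
      ((continuousOn_const.sub continuousOn_id).rpow_const fun r hr => Or.inl ?_))
    rw [Set.uIcc_of_le (by linarith)] at hr
    exact ne_of_gt (show 0 < 1 - r by linarith [hr.2])
  have b1 := intervalIntegral.integral_mono_on (by linarith) i1 i3 key
  have b2 := intervalIntegral.integral_mono_on (by linarith) i2
    (intervalIntegrable_const (c := N ^ 2)) fun r hr => (hb r (by linarith [hr.1]) hr.2).2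
  rw [intervalIntegral.integral_const_mul,
    intervalIntegral.integral_comp_sub_left (fun s : ℝ => s ^ (-5 / 4 : ℝ)) 1, sub_sub_cancel,
    sub_zero, integral_rpow (Or.inr ⟨by norm_num, by
      rw [Set.uIcc_of_le t1]
      exact fun h0 => absurd h0.1 (not_le.2 t0)⟩), Real.one_rpow,
    show (-5 / 4 + 1 : ℝ) = -1 / 4 by norm_num, e3] at b1
  rw [intervalIntegral.integral_const, sub_sub_cancel, smul_eq_mul] at b2
  have e4 : t * N ^ 2 = v ^ 36 := by
    rw [ht, ← e1]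
    field_simp
  rw [← intervalIntegral.integral_add_adjacent_intervals i1 i2, e2]
  have e5 : 0 < v ^ 35 := by positivity
  have e6 : v ^ 36 = v ^ 35 * v := by ring
  nlinarith

end Vale.Agent.P146
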