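import Vale.Agent.P146.Defs

/-! # P146: properties of the correlated covariance -/

namespace Vale.Agent.P146

open MeasureTheory ProbabilityTheory

namespace CovAux

variable {ι : Type} [Fintype ι]

theorem cov_sqrt (h_covT : S_covT) {u : ℝ} (h0 : 0 ≤ u) (h1 : u ≤ 1) {f h : (ι → ℝ) → ℝ}
    (hf : EG f) (hh : EG h) :
    cov u f h = ∫ x, T (fun _ => √u) f x * T (fun _ => √u) h x ∂gam ι := by
  have := h_covT ι 1 (√u) f h zero_le_one le_rfl (Real.sqrt_nonneg _) (Real.sqrt_le_one.2 h1) hf hh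
  rw [Real.sq_sqrt h0, one_mul, cov_one] at this
  exact this

theorem cov_sq (h_covT : S_covT) {u : ℝ} (h0 : 0 ≤ u) (h1 : u ≤ 1) {f : (ι → ℝ) → ℝ}
    (hf : EG f) : cov u f f = ∫ x, T (fun _ => √u) f x ^ 2 ∂gam ι := by
  rw [cov_sqrt h_covT h0 h1 hf hf]
  simp only [pow_two]

end CovAux

theorem covT (h_adj : S_adj) (h_semi : S_semi) : S_covT := by
  intro ι _ ρ τ f h h0 h1 h2 h3 hf hh
  have hρ : U01 fun _ : ι => ρ := u01_const h0 h1
  have hτ : U01 fun _ : ι => τ := u01_const h2 h3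
  unfold cov
  rw [← h_adj ι (fun _ => τ) f _ hτ hf ((hh.T hτ).T hρ), h_semi ι _ _ _ hρ hτ hh,
    h_semi ι _ _ _ hτ (hρ.mul hτ) hh]
  have : ((fun _ : ι => τ) * ((fun _ : ι => ρ) * fun _ : ι => τ)) = fun _ => ρ * τ ^ 2 := by
    funext e
    simp only [Pi.mul_apply]
    ring
  rw [this]

theorem covmono (h_covT : S_covT) (h_semi : S_semi) (h_contr : S_contr) : S_covmono := by
  intro ι _ r s f h0 hrs h1 hf
  have hs0 : 0 ≤ s := h0.trans hrs
  rw [CovAux.cov_sq h_covT h0 (hrs.trans h1) hf, CovAux.cov_sq h_covT hs0 h1 hf]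
  refine ⟨integral_nonneg fun x => sq_nonneg _, ?_⟩
  have hs : U01 fun _ : ι => √s := u01_const (Real.sqrt_nonneg _) (Real.sqrt_le_one.2 h1)
  obtain ⟨t, ht0, ht1, ht⟩ : ∃ t : ℝ, 0 ≤ t ∧ t ≤ 1 ∧ t * √s = √r := by
    by_cases h : √s = 0
    · have hr : √r = 0 := le_antisymm (h ▸ Real.sqrt_le_sqrt hrs) (Real.sqrt_nonneg _)
      exact ⟨0, le_rfl, zero_le_one, by rw [hr, zero_mul]⟩
    · exact ⟨√r / √s, by positivity,
        div_le_one_of_le₀ (Real.sqrt_le_sqrt hrs) (Real.sqrt_nonneg _), by field_simp⟩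
  have ht' : U01 fun _ : ι => t := u01_const ht0 ht1
  have e : T (fun _ : ι => √r) f = T (fun _ => t) (T (fun _ => √s) f) := by
    rw [h_semi ι _ _ _ ht' hs hf]
    congr 1
    funext e
    exact ht.symm
  rw [e]
  exact (h_contr ι _ _ ht' (hf.T hs)).2

theorem covamgm (h_covT : S_covT) (h_contr : S_contr) : S_covamgm := by
  intro ι _ ρ u f h h0 h1 h2 h3 hf hh
  have hρ : U01 fun _ : ι => ρ := u01_const h0 h1
  have hu : U01 fun _ : ι => √u := u01_const (Real.sqrt_nonneg _) (Real.sqrt_le_one.2 h3)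
  have e := h_covT ι ρ (√u) f h h0 h1 (Real.sqrt_nonneg _) (Real.sqrt_le_one.2 h3) hf hh
  rw [Real.sq_sqrt h2] at e
  rw [e, CovAux.cov_sq h_covT h2 h3 hf, CovAux.cov_sq h_covT h2 h3 hh]
  have hF := hf.T hu
  have hH := hh.T hu
  have hc := (h_contr ι _ _ hρ hH).2
  have hle : 2 * cov ρ (T (fun _ => √u) f) (T (fun _ => √u) h) ≤
      ∫ x, T (fun _ => √u) f x ^ 2 ∂gam ι +
        ∫ x, T (fun _ => ρ) (T (fun _ => √u) h) x ^ 2 ∂gam ι := by
    rw [cov, ← integral_const_mul, ← integral_add hF.sq.intg (hH.T hρ).sq.intg]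
    refine integral_mono ((hF.mul (hH.T hρ)).const_mul 2).intg (hF.sq.add (hH.T hρ).sq).intg
      fun x => ?_
    have := sq_nonneg (T (fun _ => √u) f x - T (fun _ => ρ) (T (fun _ => √u) h) x)
    simp only
    nlinarith
  linarith

theorem covcont : S_covcont := by
  intro ι _ f h hf hh
  refine ContinuousOn.congr (f := fun r : ℝ =>
    ∫ p, f p.1 * h (nz (fun _ => r) p.1 p.2) ∂(gam ι).prod (gam ι)) ?_
    fun r hr => cov_eq_prod hr.1 hr.2 hf hh
  obtain ⟨hc, C, c, hC, hc0, hb⟩ := id hh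
  have hE : EG fun p : (ι → ℝ) × (ι → ℝ) => C * Real.exp (c * (‖p.1‖ + ‖p.2‖)) := by
    refine ⟨by fun_prop, C, 2 * c, hC, by positivity, fun p => ?_⟩
    rw [abs_of_nonneg (by positivity)]
    refine mul_le_mul_of_nonneg_left (Real.exp_le_exp.2 ?_) hC
    nlinarith [norm_fst_le p, norm_snd_le p]
  refine continuousOn_of_dominated
    (bound := fun p : (ι → ℝ) × (ι → ℝ) => |f p.1| * (C * Real.exp (c * (‖p.1‖ + ‖p.2‖))))
    (fun r hr => (hf.fst.mul (hh.nz (u01_const hr.1 hr.2))).cont.aestronglyMeasurable)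
    (fun r hr => ae_of_all _ fun p => ?_) (hf.fst.abs.mul hE).intg2 (ae_of_all _ fun p => ?_)
  · rw [Real.norm_eq_abs, abs_mul]
    refine mul_le_mul_of_nonneg_left ((hb _).trans ?_) (abs_nonneg _)
    exact mul_le_mul_of_nonneg_left (Real.exp_le_exp.2
      (mul_le_mul_of_nonneg_left (norm_nz (u01_const hr.1 hr.2) _ _) hc0)) hC
  · refine Continuous.continuousOn (continuous_const.mul (hc.comp ?_))
    unfold nz
    fun_prop

end Vale.Agent.P146
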