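import Vale.Agent.P146.Defs

/-! # P146: the row-resampled square is close to the square -/

namespace Vale.Agent.P146

open MeasureTheory ProbabilityTheory Matrix

namespace DeltaAux

variable {n : ℕ} {β τ : ℝ}

theorem entry (h_B : S_B) (h0 : 0 ≤ τ) (h1 : τ ≤ 1) (x : Edge n → ℝ) (j k : Fin n) :
    (Km β τ x - Bm β τ x * Bm β τ x) j k =
      ∑ i, (T (off (row i)) (fun z => Bf β τ i j z * Bf β τ i k z) x -
        Bf β τ i j x * Bf β τ i k x) := by
  rw [Finset.sum_sub_distrib, Matrix.sub_apply, Matrix.mul_apply]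
  simp only [Km, Bm, Matrix.of_apply]
  congr 1
  exact Finset.sum_congr rfl fun i _ => by rw [(h_B n β τ h0 h1).2.1 j i]

theorem smooth_le (h_smooth : S_smooth) (h_M : S_M) (h_Mc1 : S_Mc1) (h0 : 0 ≤ τ) (h1 : τ < 1)
    (i j : Fin n) :
    ∑ e, ∫ x, (τ * T (fun _ => τ) (DM β i j e) x) ^ 2 ∂gam (Edge n) ≤ 1 / (1 - τ ^ 2) := by
  have hc := (h_Mc1 n β).1 i j
  have hp : 0 < 1 - τ ^ 2 := by nlinarith
  have a := h_smooth _ _ _ τ hc h0 h1.le
  have b : ∫ x, M β i j x ^ 2 ∂gam (Edge n) ≤ 1 := by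
    have : ∫ x, M β i j x ^ 2 ∂gam (Edge n) ≤ ∫ _x, (1 : ℝ) ∂gam (Edge n) :=
      integral_mono hc.eg.sq.intg (integrable_const _) fun x =>
        (sq_le_one_iff_abs_le_one _).2 ((h_M n β).1 i j x)
    simpa using this
  have c : ∑ e, ∫ x, (τ * T (fun _ => τ) (DM β i j e) x) ^ 2 ∂gam (Edge n) ≤
      ∑ e, ∫ x, T (fun _ => τ) (DM β i j e) x ^ 2 ∂gam (Edge n) := by
    refine Finset.sum_le_sum fun e _ => ?_
    simp only [mul_pow]
    rw [integral_const_mul]
    exact mul_le_of_le_one_left (integral_nonneg fun _ => sq_nonneg _) (by nlinarith)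
  rw [le_div_iff₀ hp]
  nlinarith

end DeltaAux

open DeltaAux

theorem delta (h_es : S_es) (h_poin : S_poin) (h_smooth : S_smooth) (h_contr : S_contr)
    (h_comb : S_comb) (h_M : S_M) (h_Mc1 : S_Mc1) (h_B : S_B) (h_c1T : S_c1T)
    (h_c1mul : S_c1mul) : S_delta := by
  intro n β τ h0 h1
  have hp : 0 < 1 - τ ^ 2 := by nlinarith
  have hc : ∀ i j : Fin n, C1 (Bf β τ i j) fun e x => τ * T (fun _ => τ) (DM β i j e) x :=
    fun i j => h_c1T _ _ _ τ ((h_Mc1 n β).1 i j) h0 h1.le
  have hY : ∀ i j k : Fin n, EG fun z => Bf β τ i j z * Bf β τ i k z :=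
    fun i j k => (hc i j).eg.mul (hc i k).eg
  have hE : ∀ i j k : Fin n, EG fun x => T (off (row i))
      (fun z => Bf β τ i j z * Bf β τ i k z) x - Bf β τ i j x * Bf β τ i k x :=
    fun i j k => ((hY i j k).T (u01_off _)).sub (hY i j k)
  have hS : ∀ j k : Fin n, EG fun x => ∑ i, (T (off (row i))
      (fun z => Bf β τ i j z * Bf β τ i k z) x - Bf β τ i j x * Bf β τ i k x) :=
    fun j k => EG.sum _ fun i _ => hE i j k
  have hB := (h_B n β τ h0 h1.le).1
  have key : ∀ j k : Fin n, ∫ x, (∑ i, (T (off (row i))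
      (fun z => Bf β τ i j z * Bf β τ i k z) x - Bf β τ i j x * Bf β τ i k x)) ^ 2
        ∂gam (Edge n) ≤ 8 * n / (1 - τ ^ 2) := by
    intro j k
    refine (h_es _ _ (fun i z => Bf β τ i j z * Bf β τ i k z) row fun i => hY i j k).trans ?_
    have one : ∀ i : Fin n, ∑ i', ∫ x, (Bf β τ i j x * Bf β τ i k x -
        T (off (row i')) (fun z => Bf β τ i j z * Bf β τ i k z) x) ^ 2 ∂gam (Edge n) ≤
        8 / (1 - τ ^ 2) := by
      intro i
      have hm := h_c1mul _ _ _ _ _ (hc i j) (hc i k)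
      refine (Finset.sum_le_sum fun i' _ => h_poin _ _ _ (row i') hm).trans ?_
      rw [(h_comb n).2.1]
      have two : ∀ e, ∫ x, (τ * T (fun _ => τ) (DM β i j e) x * Bf β τ i k x +
          Bf β τ i j x * (τ * T (fun _ => τ) (DM β i k e) x)) ^ 2 ∂gam (Edge n) ≤
          2 * ∫ x, (τ * T (fun _ => τ) (DM β i j e) x) ^ 2 ∂gam (Edge n) +
          2 * ∫ x, (τ * T (fun _ => τ) (DM β i k e) x) ^ 2 ∂gam (Edge n) := by
        intro e
        have i1 := (((hc i j).egD e).sq.const_mul 2).intg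
        have i2 := (((hc i k).egD e).sq.const_mul 2).intg
        rw [← integral_const_mul, ← integral_const_mul, ← integral_add i1 i2]
        refine integral_mono (hm.egD e).sq.intg (i1.add i2) fun x => ?_
        have b1 := (sq_le_one_iff_abs_le_one _).2 (hB i j x)
        have b2 := (sq_le_one_iff_abs_le_one _).2 (hB i k x)
        dsimp only
        generalize τ * T (fun _ => τ) (DM β i j e) x = u
        generalize τ * T (fun _ => τ) (DM β i k e) x = v
        generalize Bf β τ i j x = a at b1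
        generalize Bf β τ i k x = b at b2
        nlinarith [sq_nonneg (u * b - a * v), mul_le_of_le_one_right (sq_nonneg u) b2,
          mul_le_of_le_one_right (sq_nonneg v) b1]
      have three := Finset.sum_le_sum fun e (_ : e ∈ Finset.univ) => two e
      rw [Finset.sum_add_distrib, ← Finset.mul_sum, ← Finset.mul_sum] at three
      have s1 := smooth_le (β := β) h_smooth h_M h_Mc1 h0 h1 i j
      have s2 := smooth_le (β := β) h_smooth h_M h_Mc1 h0 h1 i k
      have e8 : 8 / (1 - τ ^ 2) = 8 * (1 / (1 - τ ^ 2)) := by ring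
      rw [e8]
      linarith
    refine (Finset.sum_le_sum fun i _ => one i).trans (le_of_eq ?_)
    rw [Finset.sum_const, Finset.card_univ, Fintype.card_fin, nsmul_eq_mul]
    ring
  simp only [fro, Matrix.trace, Matrix.diag, entry h_B h0 h1.le]
  refine ⟨EG.sum _ fun j _ => EG.sum _ fun k _ => (hS j k).sq, EG.sum _ fun j _ => hS j j, ?_, ?_⟩
  · rw [integral_finsetSum _ fun j _ => (EG.sum _ fun k _ => (hS j k).sq).intg]
    have : ∀ j : Fin n, ∫ x, ∑ k, (∑ i, (T (off (row i))
        (fun z => Bf β τ i j z * Bf β τ i k z) x - Bf β τ i j x * Bf β τ i k x)) ^ 2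
          ∂gam (Edge n) ≤ n * (8 * n / (1 - τ ^ 2)) := by
      intro j
      rw [integral_finsetSum _ fun k _ => (hS j k).sq.intg]
      refine (Finset.sum_le_sum fun k _ => key j k).trans (le_of_eq ?_)
      rw [Finset.sum_const, Finset.card_univ, Fintype.card_fin, nsmul_eq_mul]
    refine (Finset.sum_le_sum fun j _ => this j).trans (le_of_eq ?_)
    rw [Finset.sum_const, Finset.card_univ, Fintype.card_fin, nsmul_eq_mul]
    ring
  · rw [integral_finsetSum _ fun j _ => (hS j j).intg]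
    refine Finset.sum_eq_zero fun j _ => ?_
    rw [integral_finsetSum _ fun i _ => (hE i j j).intg]
    refine Finset.sum_eq_zero fun i _ => ?_
    rw [integral_sub ((hY i j j).T (u01_off _)).intg (hY i j j).intg,
      (h_contr _ _ _ (u01_off _) (hY i j j)).1, sub_self]

end Vale.Agent.P146
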