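import Vale.Agent.P146.Defs

/-! # P146: an Efron-Stein type bound and the resampling identity -/

namespace Vale.Agent.P146

open MeasureTheory ProbabilityTheory

namespace ESAux

variable {ι : Type} [Fintype ι]

theorem expand {f g u v : (ι → ℝ) → ℝ} (hf : EG f) (hg : EG g) (hu : EG u) (hv : EG v) :
    ∫ x, (f x - g x) * (u x - v x) ∂gam ι =
      ∫ x, f x * u x ∂gam ι - ∫ x, f x * v x ∂gam ι - ∫ x, g x * u x ∂gam ι
        + ∫ x, g x * v x ∂gam ι := by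
  rw [← integral_sub (hf.mul hu).intg (hf.mul hv).intg,
    ← integral_sub ((hf.mul hu).sub (hf.mul hv)).intg (hg.mul hu).intg,
    ← integral_add (((hf.mul hu).sub (hf.mul hv)).sub (hg.mul hu)).intg (hg.mul hv).intg]
  exact integral_congr_ae (ae_of_all _ fun x => by ring)

theorem swap (h_adj : S_adj) (h_semi : S_semi) {a b : ι → ℝ} (ha : U01 a) (hb : U01 b)
    {Y Z : (ι → ℝ) → ℝ} (hY : EG Y) (hZ : EG Z) :
    ∫ x, (T a Y x - Y x) * (T b Z x - Z x) ∂gam ι =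
      ∫ x, (Y x - T b Y x) * (Z x - T a Z x) ∂gam ι := by
  rw [expand (hY.T ha) hY (hZ.T hb) hZ, expand hY (hY.T hb) hZ (hZ.T ha),
    ← h_adj ι a Y _ ha hY (hZ.T hb), ← h_adj ι b Y _ hb hY (hZ.T ha),
    h_semi ι a b Z ha hb hZ, h_semi ι b a Z hb ha hZ, mul_comm b a,
    h_adj ι a Y Z ha hY hZ, h_adj ι b Y Z hb hY hZ]
  ring

theorem half {f g : (ι → ℝ) → ℝ} (hf : EG f) (hg : EG g) :
    ∫ x, f x * g x ∂gam ι ≤ (∫ x, f x ^ 2 ∂gam ι) / 2 + (∫ x, g x ^ 2 ∂gam ι) / 2 := by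
  rw [← add_div, ← integral_add hf.sq.intg hg.sq.intg, ← integral_div]
  refine integral_mono (hf.mul hg).intg ((hf.sq.add hg.sq).intg.div_const 2) fun x => ?_
  nlinarith [sq_nonneg (f x - g x)]

theorem int_nz (h_nz : S_nz) {a : ι → ℝ} (ha : U01 a) {φ : (ι → ℝ) → ℝ} (hφ : EG φ) :
    ∫ x, ∫ y, φ (nz a x y) ∂gam ι ∂gam ι = ∫ u, φ u ∂gam ι := by
  have h := h_nz ι a ha
  rw [← integral_prod _ (hφ.nz ha).intg2]
  conv_rhs => rw [← h.map_eq]
  rw [integral_map h.measurable.aemeasurable hφ.cont.aestronglyMeasurable]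

omit [Fintype ι] in
theorem nz_nz [DecidableEq ι] (I : Finset ι) (ρ : ℝ) (x y z w : ι → ℝ) :
    nz (off I) (nz (fun _ => ρ) x z) (nz (fun _ => ρ) y w) =
      nz (fun _ => ρ) (nz (off I) x y) (nz (off I) z w) := by
  funext e
  rw [nz_off]
  conv_rhs => rw [nz, nz_off, nz_off]
  split_ifs <;> rfl

theorem eg4 {a b : ι → ℝ} (ha : U01 a) (hb : U01 b) {f h : (ι → ℝ) → ℝ} (hf : EG f) (hh : EG h) :
    EG fun q : (((ι → ℝ) × (ι → ℝ)) × (ι → ℝ)) × (ι → ℝ) =>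
      f (nz a q.1.1.1 q.1.2) * h (nz b (nz a q.1.1.1 q.1.2) (nz a q.1.1.2 q.2)) := by
  have n1 : ∀ q : (((ι → ℝ) × (ι → ℝ)) × (ι → ℝ)) × (ι → ℝ),
      ‖q.1.1.1‖ ≤ ‖q‖ ∧ ‖q.1.1.2‖ ≤ ‖q‖ ∧ ‖q.1.2‖ ≤ ‖q‖ ∧ ‖q.2‖ ≤ ‖q‖ := fun q =>
    ⟨(norm_fst_le _).trans ((norm_fst_le _).trans (norm_fst_le q)),
      (norm_snd_le _).trans ((norm_fst_le _).trans (norm_fst_le q)),
      (norm_snd_le _).trans (norm_fst_le q), norm_snd_le q⟩
  refine EG.mul (hf.comp ?_ (a := 2) (b := 0) fun q => ?_) (hh.comp ?_ (a := 4) (b := 0) fun q => ?_)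
  · unfold nz
    fun_prop
  · obtain ⟨h1, -, h3, -⟩ := n1 q
    linarith [norm_nz ha q.1.1.1 q.1.2]
  · unfold nz
    fun_prop
  · obtain ⟨h1, h2, h3, h4⟩ := n1 q
    linarith [norm_nz ha q.1.1.1 q.1.2, norm_nz ha q.1.1.2 q.2,
      norm_nz hb (nz a q.1.1.1 q.1.2) (nz a q.1.1.2 q.2)]

end ESAux

open ESAux

theorem es (h_adj : S_adj) (h_semi : S_semi) : S_es := by
  intro ι κ _ _ _ Y I hY
  have hP : ∀ i, EG fun x => T (off (I i)) (Y i) x - Y i x := fun i =>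
    ((hY i).T (u01_off _)).sub (hY i)
  have hQ : ∀ i i', EG fun x => Y i x - T (off (I i')) (Y i) x := fun i i' =>
    (hY i).sub ((hY i).T (u01_off _))
  simp only [pow_two, Finset.sum_mul_sum]
  rw [integral_finsetSum _ fun i _ => (EG.sum _ fun i' _ => (hP i).mul (hP i')).intg]
  have h1 : ∀ i, ∫ x, ∑ i', (T (off (I i)) (Y i) x - Y i x) * (T (off (I i')) (Y i') x - Y i' x)
      ∂gam ι ≤ ∑ i', ((∫ x, (Y i x - T (off (I i')) (Y i) x) ^ 2 ∂gam ι) / 2
        + (∫ x, (Y i' x - T (off (I i)) (Y i') x) ^ 2 ∂gam ι) / 2) := fun i => by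
    rw [integral_finsetSum _ fun i' _ => ((hP i).mul (hP i')).intg]
    refine Finset.sum_le_sum fun i' _ => ?_
    rw [swap h_adj h_semi (u01_off _) (u01_off _) (hY i) (hY i')]
    exact half (hQ i i') (hQ i' i)
  refine (Finset.sum_le_sum fun i _ => h1 i).trans (le_of_eq ?_)
  simp only [Finset.sum_add_distrib, pow_two]
  rw [Finset.sum_comm (f := fun i i' => (∫ x, (Y i' x - T (off (I i)) (Y i') x)
    * (Y i' x - T (off (I i)) (Y i') x) ∂gam ι) / 2), ← Finset.sum_add_distrib]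
  refine Finset.sum_congr rfl fun i _ => ?_
  rw [← Finset.sum_add_distrib]
  exact Finset.sum_congr rfl fun i' _ => by ring

theorem resample (h_nz : S_nz) : S_resample := by
  intro ι _ _ f h I ρ hf hh h0 h1
  have hr : U01 fun _ : ι => ρ := u01_const h0 h1
  have hI : U01 (off I) := u01_off I
  have hG := eg4 hI hr hf hh
  have hG1 := hG.int_right (nice_gam ι)
  have hG2 := hG1.int_right (nice_gam ι)
  have key : (fun p : (ι → ℝ) × (ι → ℝ) => cov ρ (fun y => f (nz (off I) p.1 y))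
      (fun y => h (nz (off I) (nz (fun _ => ρ) p.1 p.2) y))) = fun p =>
      ∫ y, ∫ w, f (nz (off I) p.1 y) *
        h (nz (fun _ => ρ) (nz (off I) p.1 y) (nz (off I) p.2 w)) ∂gam ι ∂gam ι := by
    funext p
    simp only [cov, T, nz_nz, integral_const_mul]
  rw [key]
  refine ⟨hG2, ?_⟩
  rw [integral_prod _ hG2.intg2, cov, ← int_nz h_nz hI (hf.mul (hh.T hr))]
  refine integral_congr_ae (ae_of_all _ fun x => ?_)
  have hs : EG fun q : (ι → ℝ) × (ι → ℝ) => ∫ w, f (nz (off I) x q.2) *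
      h (nz (fun _ => ρ) (nz (off I) x q.2) (nz (off I) q.1 w)) ∂gam ι :=
    hG1.comp (φ := fun q : (ι → ℝ) × (ι → ℝ) => ((x, q.1), q.2)) (by fun_prop) (a := 1) (b := ‖x‖)
      fun q => by
        simp only [Prod.norm_def, one_mul]
        have := norm_nonneg x
        have := norm_nonneg q.1
        refine max_le (max_le ?_ ?_) ?_
        · linarith [le_max_left ‖q.1‖ ‖q.2‖]
        · linarith [le_max_left ‖q.1‖ ‖q.2‖]
        · linarith [le_max_right ‖q.1‖ ‖q.2‖]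
  refine (integral_integral_swap (f := fun z y => ∫ w, f (nz (off I) x y) *
      h (nz (fun _ => ρ) (nz (off I) x y) (nz (off I) z w)) ∂gam ι) hs.intg2).trans ?_
  refine integral_congr_ae (ae_of_all _ fun y => ?_)
  simp only [integral_const_mul]
  congr 1
  exact int_nz h_nz hI ((hh.nz hr).sec_right (nz (off I) x y))

end Vale.Agent.P146
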