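import Vale.Agent.P146.Defs

/-! # P146: the gradient-field inequality -/

namespace Vale.Agent.P146

open MeasureTheory ProbabilityTheory Matrix

namespace GradAux

variable {ι κ : Type} [Fintype ι] [Fintype κ]

theorem cont (hc : S_covcont) {f h : (ι → ℝ) → ℝ} (hf : EG f) (hh : EG h) {ρ : ℝ} (h0 : 0 ≤ ρ)
    (h1 : ρ ≤ 1) : ContinuousOn (fun u => cov (ρ * u) f h) (Set.Icc 0 1) :=
  (hc ι f h hf hh).comp (continuous_const.mul continuous_id).continuousOn fun _ hu =>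
    ⟨mul_nonneg h0 hu.1, mul_le_one₀ h1 hu.1 hu.2⟩

theorem ii {φ : ℝ → ℝ} (h : ContinuousOn φ (Set.Icc 0 1)) : IntervalIntegrable φ volume 0 1 :=
  h.intervalIntegrable_of_Icc zero_le_one

theorem int1 {α : Type} [Fintype α] {φ : α → ℝ → ℝ} (h : ∀ a, ContinuousOn (φ a) (Set.Icc 0 1)) :
    ∑ a, ∫ u in (0 : ℝ)..1, φ a u = ∫ u in (0 : ℝ)..1, ∑ a, φ a u :=
  (intervalIntegral.integral_finsetSum fun a _ => ii (h a)).symm

theorem cont2 {α : Type} [Fintype α] {φ : α → α → ℝ → ℝ}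
    (h : ∀ a b, ContinuousOn (φ a b) (Set.Icc 0 1)) (w : α → α → ℝ) :
    ContinuousOn (fun u => ∑ a, ∑ b, φ a b u * w a b) (Set.Icc 0 1) :=
  continuousOn_finsetSum _ fun a _ => continuousOn_finsetSum _ fun b _ =>
    (h a b).mul continuousOn_const

theorem int2 {α : Type} [Fintype α] {φ : α → α → ℝ → ℝ}
    (h : ∀ a b, ContinuousOn (φ a b) (Set.Icc 0 1)) (w : α → α → ℝ) :
    ∑ a, ∑ b, (∫ u in (0 : ℝ)..1, φ a b u) * w a b =
      ∫ u in (0 : ℝ)..1, ∑ a, ∑ b, φ a b u * w a b := by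
  rw [← int1 (φ := fun a u => ∑ b, φ a b u * w a b) fun a =>
    continuousOn_finsetSum _ fun b _ => (h a b).mul continuousOn_const]
  refine Finset.sum_congr rfl fun a _ => ?_
  rw [← int1 (φ := fun b u => φ a b u * w a b) fun b => (h a b).mul continuousOn_const]
  exact Finset.sum_congr rfl fun b _ => (intervalIntegral.integral_mul_const _ _).symm

theorem sum5 (f : κ → κ → κ → κ → κ → ℝ) :
    ∑ l, ∑ m, ∑ k, ∑ j, ∑ a, f a k m l j = ∑ a, ∑ k, ∑ m, ∑ l, ∑ j, f a k m l j := by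
  calc ∑ l, ∑ m, ∑ k, ∑ j, ∑ a, f a k m l j
      = ∑ x : κ × κ × κ × κ × κ, f x.2.2.2.2 x.2.2.1 x.2.1 x.1 x.2.2.2.1 := by
        simp only [Fintype.sum_prod_type]
    _ = ∑ x : κ × κ × κ × κ × κ, f x.1 x.2.1 x.2.2.1 x.2.2.2.1 x.2.2.2.2 :=
        Fintype.sum_equiv ⟨fun x => (x.2.2.2.2, x.2.2.1, x.2.1, x.1, x.2.2.2.1),
          fun x => (x.2.2.2.1, x.2.2.1, x.2.1, x.2.2.2.2, x.1), fun _ => rfl, fun _ => rfl⟩ _ _
          fun _ => rfl
    _ = _ := by simp only [Fintype.sum_prod_type]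

theorem sum5' (f : κ → κ → κ → κ → κ → ℝ) :
    ∑ l, ∑ j, ∑ a, ∑ k, ∑ m, f a k m l j = ∑ a, ∑ k, ∑ m, ∑ l, ∑ j, f a k m l j := by
  calc ∑ l, ∑ j, ∑ a, ∑ k, ∑ m, f a k m l j
      = ∑ x : κ × κ × κ × κ × κ, f x.2.2.1 x.2.2.2.1 x.2.2.2.2 x.1 x.2.1 := by
        simp only [Fintype.sum_prod_type]
    _ = ∑ x : κ × κ × κ × κ × κ, f x.1 x.2.1 x.2.2.1 x.2.2.2.1 x.2.2.2.2 :=
        Fintype.sum_equiv ⟨fun x => (x.2.2.1, x.2.2.2.1, x.2.2.2.2, x.1, x.2.1),
          fun x => (x.2.2.2.1, x.2.2.2.2, x.1, x.2.1, x.2.2.1), fun _ => rfl, fun _ => rfl⟩ _ _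
          fun _ => rfl
    _ = _ := by simp only [Fintype.sum_prod_type]

theorem trace_eq (D K : Matrix κ κ ℝ) :
    (Dᵀ * K * D).trace = ∑ l, ∑ j, K l j * ∑ m, D l m * D j m := by
  simp only [Matrix.trace, Matrix.diag, Matrix.mul_apply, Matrix.transpose_apply, Finset.sum_mul,
    Finset.mul_sum]
  rw [Finset.sum_comm]
  refine Eq.trans (Finset.sum_congr rfl fun j _ => Finset.sum_comm) ?_
  rw [Finset.sum_comm]
  refine Finset.sum_congr rfl fun l _ => Finset.sum_congr rfl fun j _ =>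
    Finset.sum_congr rfl fun m _ => ?_
  ring

variable [DecidableEq ι] {I : κ → Finset ι} {o : κ → ι → κ} {W W' : κ → κ → (ι → ℝ) → ℝ}
  {H H' : κ → κ → κ → (ι → ℝ) → ℝ}

theorem cov_W (hi : S_interp)
    (hr : ∀ (a : κ) (ψ : κ → ℝ), ψ a = 0 → ∑ e ∈ I a, ψ (o a e) = ∑ k, ψ k)
    (hG : GF I o W H) (hG' : GF I o W' H') {ρ : ℝ} (h0 : 0 ≤ ρ) (h1 : ρ ≤ 1) (a l j : κ) :
    cov ρ (W a l) (W' a j) = ρ * ∫ u in (0 : ℝ)..1, ∑ k, cov (ρ * u) (H a k l) (H' a k j) := by
  have h := hi ι _ _ _ _ ρ (hG.c1 a l) (hG'.c1 a j) h0 h1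
  rw [hG.mean, zero_mul, sub_zero] at h
  have h2 : ∀ r, ∑ e, cov r (fun y => if e ∈ I a then H a l (o a e) y else 0)
      (fun y => if e ∈ I a then H' a j (o a e) y else 0) = ∑ k, cov r (H a k l) (H' a k j) := by
    intro r
    rw [← hr a (fun k => cov r (H a k l) (H' a k j))
      (by rw [hG.sym a a l, hG.diag, cov_zero_left])]
    have h3 : ∀ e, cov r (fun y => if e ∈ I a then H a l (o a e) y else 0)
        (fun y => if e ∈ I a then H' a j (o a e) y else 0) =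
        if e ∈ I a then cov r (H a (o a e) l) (H' a (o a e) j) else 0 := by
      intro e
      by_cases he : e ∈ I a
      · simp only [if_pos he]
        rw [hG.sym a (o a e) l, hG'.sym a (o a e) j]
      · simp only [if_neg he]
        exact cov_zero_left _ _
    simp only [h3]
    rw [Finset.sum_ite_mem, Finset.univ_inter]
  simp only [h2] at h
  rw [h, intervalIntegral.mul_integral_comp_mul_left (f := fun r =>
    ∑ k, cov r (H a k l) (H' a k j)), mul_zero, mul_one]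

theorem contG (hc : S_covcont) (hG : GF I o W H) (l j : κ) :
    ContinuousOn (fun u => ∑ a, ∑ k, cov u (H a k l) (H a k j)) (Set.Icc 0 1) :=
  continuousOn_finsetSum _ fun a _ => continuousOn_finsetSum _ fun k _ =>
    hc ι _ _ (hG.eg a k l) (hG.eg a k j)

theorem gram_eq (hi : S_interp) (hc : S_covcont)
    (hr : ∀ (a : κ) (ψ : κ → ℝ), ψ a = 0 → ∑ e ∈ I a, ψ (o a e) = ∑ k, ψ k)
    (hG : GF I o W H) (l j : κ) :
    gram W l j = ∫ u in (0 : ℝ)..1, ∑ a, ∑ k, cov u (H a k l) (H a k j) := by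
  rw [← int1 (φ := fun a u => ∑ k, cov u (H a k l) (H a k j)) fun a =>
    continuousOn_finsetSum _ fun k _ => hc ι _ _ (hG.eg a k l) (hG.eg a k j)]
  refine Finset.sum_congr rfl fun a _ => ?_
  have h := cov_W hi hr hG hG zero_le_one le_rfl a l j
  simp only [one_mul] at h
  rw [← h, cov_one]

theorem energy (hG : GF I o W H) (D : Matrix κ κ ℝ) {u : ℝ} (h0 : 0 ≤ u) (h1 : u ≤ 1) :
    ∑ l, ∑ j, (∑ a, ∑ k, cov u (H a k l) (H a k j)) * ∑ m, D l m * D j m =
      ∑ a, ∑ k, ∑ m, cov u (fun y => ∑ l, D l m * H a k l y) (fun y => ∑ l, D l m * H a k l y) := by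
  have h : ∀ a k m, cov u (fun y => ∑ l, D l m * H a k l y) (fun y => ∑ l, D l m * H a k l y) =
      ∑ l, ∑ j, D l m * D j m * cov u (H a k l) (H a k j) := fun a k m =>
    cov_sum_sum _ _ _ _ (fun l _ => hG.eg a k l) (fun l _ => hG.eg a k l) h0 h1
  simp only [h]
  rw [← sum5' fun a k m l j => D l m * D j m * cov u (H a k l) (H a k j)]
  refine Finset.sum_congr rfl fun l _ => Finset.sum_congr rfl fun j _ => ?_
  rw [Finset.sum_mul]
  refine Finset.sum_congr rfl fun a _ => ?_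
  rw [Finset.sum_mul]
  refine Finset.sum_congr rfl fun k _ => ?_
  rw [Finset.mul_sum]
  exact Finset.sum_congr rfl fun m _ => mul_comm _ _

theorem cross (hG : GF I o W H) (hG' : GF I o W' H') (D E : Matrix κ κ ℝ) {r : ℝ} (h0 : 0 ≤ r)
    (h1 : r ≤ 1) :
    ∑ p : κ × κ, ∑ p' : κ × κ, (∑ a, cov r (H a p'.1 p.1) (H' a p.2 p'.2)) *
        (D p.1 p.2 * E p'.1 p'.2) =
      ∑ a, ∑ k, ∑ m, cov r (fun y => ∑ l, D l m * H a k l y) (fun y => ∑ j, Eᵀ j k * H' a m j y) := by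
  have h : ∀ a k m, cov r (fun y => ∑ l, D l m * H a k l y) (fun y => ∑ j, Eᵀ j k * H' a m j y) =
      ∑ l, ∑ j, D l m * E k j * cov r (H a k l) (H' a m j) := fun a k m =>
    cov_sum_sum _ _ _ _ (fun l _ => hG.eg a k l) (fun j _ => hG'.eg a m j) h0 h1
  simp only [h]
  rw [← sum5 fun a k m l j => D l m * E k j * cov r (H a k l) (H' a m j)]
  simp only [Fintype.sum_prod_type]
  refine Finset.sum_congr rfl fun l _ => Finset.sum_congr rfl fun m _ =>
    Finset.sum_congr rfl fun k _ => Finset.sum_congr rfl fun j _ => ?_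
  rw [Finset.sum_mul]
  exact Finset.sum_congr rfl fun a _ => mul_comm _ _

end GradAux

open GradAux in
theorem grad (h_interp : S_interp) (h_c1lin : S_c1lin) (h_covamgm : S_covamgm)
    (h_covcont : S_covcont) : S_grad := by
  intro ι κ _ _ _ _ I o W W' H H' ρ hr hG hG' h0 h1
  have hq : ∀ p p' : κ × κ,
      ContinuousOn (fun u => ∑ a, cov (ρ * u) (H a p'.1 p.1) (H' a p.2 p'.2)) (Set.Icc 0 1) :=
    fun p p' => continuousOn_finsetSum _ fun a _ =>
      cont h_covcont (hG.eg _ _ _) (hG'.eg _ _ _) h0 h1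
  refine ⟨fun p p' => ∫ u in (0 : ℝ)..1, ∑ a, cov (ρ * u) (H a p'.1 p.1) (H' a p.2 p'.2),
    fun p p' => ?_, fun D E => ?_, ?_⟩
  · simp only [fun a => hG.sym a p'.1 p.1, fun a => hG'.sym a p.2 p'.2]
  · have hE : (E * gram W' * Eᵀ).trace = (Eᵀᵀ * gram W' * Eᵀ).trace := rfl
    rw [hE, trace_eq, trace_eq]
    unfold QF
    simp only [gram_eq h_interp h_covcont hr hG, gram_eq h_interp h_covcont hr hG']
    rw [int2 hq, int2 (contG h_covcont hG), int2 (contG h_covcont hG'),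
      ← intervalIntegral.integral_add (ii (cont2 (contG h_covcont hG) _))
        (ii (cont2 (contG h_covcont hG') _)), ← intervalIntegral.integral_const_mul]
    refine intervalIntegral.integral_mono_on zero_le_one ((ii (cont2 hq _)).const_mul 2)
      ((ii (cont2 (contG h_covcont hG) _)).add (ii (cont2 (contG h_covcont hG') _)))
      fun u hu => ?_
    rw [cross hG hG' D E (mul_nonneg h0 hu.1) (mul_le_one₀ h1 hu.1 hu.2), energy hG D hu.1 hu.2,
      energy hG' Eᵀ hu.1 hu.2, ← Finset.sum_add_distrib, Finset.mul_sum]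
    refine Finset.sum_le_sum fun a _ => ?_
    rw [Finset.sum_comm (f := fun m k => cov u (fun y => ∑ l, Eᵀ l k * H' a m l y)
      (fun y => ∑ l, Eᵀ l k * H' a m l y)), ← Finset.sum_add_distrib, Finset.mul_sum]
    refine Finset.sum_le_sum fun k _ => ?_
    rw [← Finset.sum_add_distrib, Finset.mul_sum]
    refine Finset.sum_le_sum fun m _ => ?_
    exact h_covamgm ι ρ u _ _ h0 h1 hu.1 hu.2
      (EG.sum _ fun l _ => (hG.eg a k l).const_mul _) (EG.sum _ fun l _ => (hG'.eg a m l).const_mul _)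
  · have hc : ∀ a j k, ContinuousOn (fun u => cov (ρ * u) (H a k j) (H' a k j)) (Set.Icc 0 1) :=
      fun a j k => cont h_covcont (hG.eg _ _ _) (hG'.eg _ _ _) h0 h1
    simp only [cov_W h_interp hr hG hG' h0 h1, ← Finset.mul_sum]
    refine congrArg _ ?_
    unfold QF
    simp only [Fintype.sum_prod_type, Matrix.one_apply, mul_ite, ite_mul, mul_one, mul_zero,
      zero_mul, Finset.sum_ite_eq, Finset.mem_univ, if_true, Finset.sum_ite_irrel,
      Finset.sum_const_zero]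
    rw [Finset.sum_comm]
    refine Finset.sum_congr rfl fun j _ => ?_
    simp only [← int1 (hc _ j)]
    rw [Finset.sum_comm]
    refine Finset.sum_congr rfl fun k _ => ?_
    simp only [fun a => hG'.sym a j k]
    exact int1 fun a => hc a j k

end Vale.Agent.P146
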