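import Vale.Agent.P146.Defs

/-! # P146: the noncommutative interpolation inequality -/

namespace Vale.Agent.P146

open Matrix
open scoped MatrixOrder

namespace NCAux

theorem core {ι : Type} [Fintype ι] [DecidableEq ι] (Q : Matrix ι ι ℝ) (hQ : Q.IsHermitian)
    (h : ∀ (lam : ℝ) (z : ι → ℝ), z ≠ 0 → Q *ᵥ z = lam • z → lam ≤ 1) (x : ι → ℝ) :
    x ⬝ᵥ Q *ᵥ x ≤ x ⬝ᵥ x := by
  have hP : (1 - Q).IsHermitian := isHermitian_one.sub hQ
  have hpos : (1 - Q).PosSemidef := by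
    refine hP.posSemidef_iff_eigenvalues_nonneg.2 fun i => ?_
    have h1 := hP.mulVec_eigenvectorBasis i
    have h2 : (⇑(hP.eigenvectorBasis i) : ι → ℝ) ≠ 0 := by
      intro h0
      have h3 := hP.eigenvectorBasis.orthonormal.ne_zero i
      exact h3 (by ext j; exact congrFun h0 j)
    have h3 := h (1 - hP.eigenvalues i) _ h2 (by
      rw [sub_mulVec, one_mulVec] at h1
      rw [sub_smul, one_smul, ← h1]
      simp)
    show 0 ≤ hP.eigenvalues i
    linarith
  have h4 := hpos.dotProduct_mulVec_nonneg x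
  rw [sub_mulVec, one_mulVec, star_trivial, dotProduct_sub] at h4
  linarith

variable {κ : Type} [Fintype κ] [DecidableEq κ]

def vc (D : Matrix κ κ ℝ) : κ × κ → ℝ := fun p => D p.1 p.2

def km (U V : Matrix κ κ ℝ) : Matrix (κ × κ) (κ × κ) ℝ := fun p p' => U p.1 p'.1 * V p'.2 p.2

omit [DecidableEq κ] in
theorem km_vc (U V X : Matrix κ κ ℝ) : km U V *ᵥ vc X = vc (U * X * V) := by
  funext p
  simp only [km, vc, mulVec, dotProduct, mul_apply, Fintype.sum_prod_type, Finset.sum_mul]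
  rw [Finset.sum_comm]
  exact Finset.sum_congr rfl fun j _ => Finset.sum_congr rfl fun i _ => by ring

omit [DecidableEq κ] in
theorem vc_dot (D E : Matrix κ κ ℝ) : vc D ⬝ᵥ vc E = (Dᵀ * E).trace := by
  simp only [vc, dotProduct, trace, diag, mul_apply, transpose_apply, Fintype.sum_prod_type]
  rw [Finset.sum_comm]

omit [DecidableEq κ] in
theorem QF_eq (q : κ × κ → κ × κ → ℝ) (D E : Matrix κ κ ℝ) :
    QF q D E = vc D ⬝ᵥ (Matrix.of q) *ᵥ vc E := by
  simp only [QF, vc, dotProduct, mulVec, of_apply, Finset.mul_sum]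
  exact Finset.sum_congr rfl fun p _ => Finset.sum_congr rfl fun p' _ => by ring

omit [DecidableEq κ] in
theorem QF_km (q : κ × κ → κ × κ → ℝ) (U V D E : Matrix κ κ ℝ) :
    vc D ⬝ᵥ ((km U V)ᵀ * Matrix.of q * km U V) *ᵥ vc E = QF q (U * D * V) (U * E * V) := by
  rw [QF_eq, ← km_vc, ← km_vc, ← mulVec_mulVec, ← mulVec_mulVec, dotProduct_mulVec,
    vecMul_transpose]

theorem root {K : Matrix κ κ ℝ} (hK : K.PosDef) :
    ∃ A : Matrix κ κ ℝ, A.PosDef ∧ A * A = K := by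
  have h0 : 0 ≤ K := hK.posSemidef.nonneg
  have h1 : CFC.sqrt K * CFC.sqrt K = K := CFC.sqrt_mul_sqrt_self K h0
  have h2 : (CFC.sqrt K).PosSemidef := (CFC.sqrt_nonneg K).posSemidef
  refine ⟨CFC.sqrt K, h2.posDef_iff_isUnit.2 ?_, h1⟩
  have h3 : IsUnit (CFC.sqrt K * CFC.sqrt K) := by rw [h1]; exact hK.isUnit
  exact isUnit_of_mul_isUnit_left h3

theorem main (q : κ × κ → κ × κ → ℝ) (R Ri S Si : Matrix κ κ ℝ) (hq : ∀ p p', q p p' = q p' p)
    (hR : Rᵀ = R) (hRi : Riᵀ = Ri) (hS : Sᵀ = S) (hSi : Siᵀ = Si) (h1 : R * Ri = 1)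
    (h2 : Ri * R = 1) (h3 : S * Si = 1) (h4 : Si * S = 1)
    (h : ∀ D E : Matrix κ κ ℝ, 2 * QF q D E ≤
      (Dᵀ * (R * R * (R * R)) * D).trace + (E * (S * S * (S * S)) * Eᵀ).trace) :
    QF q 1 1 ≤ (R * R * (S * S)).trace := by
  have a1 : ∀ X : Matrix κ κ ℝ, R * (Ri * X) = X := fun X => by rw [← mul_assoc, h1, one_mul]
  have a2 : ∀ X : Matrix κ κ ℝ, Ri * (R * X) = X := fun X => by rw [← mul_assoc, h2, one_mul]
  have a3 : ∀ X : Matrix κ κ ℝ, S * (Si * X) = X := fun X => by rw [← mul_assoc, h3, one_mul]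
  have a4 : ∀ X : Matrix κ κ ℝ, Si * (S * X) = X := fun X => by rw [← mul_assoc, h4, one_mul]
  have hq' : (Matrix.of q)ᵀ = Matrix.of q := by
    ext p p'
    exact hq p' p
  have hH : ((km Ri Si)ᵀ * Matrix.of q * km Ri Si).IsHermitian := by
    unfold IsHermitian
    rw [conjTranspose_eq_transpose_of_trivial, transpose_mul, transpose_mul, transpose_transpose,
      hq', mul_assoc]
  have hc := core _ hH (fun lam z hz hl => ?_) (vc (R * S))
  · rw [QF_km, vc_dot] at hc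
    have e1 : Ri * (R * S) * Si = 1 := by rw [a2, h3]
    have e2 : ((R * S)ᵀ * (R * S)).trace = (R * R * (S * S)).trace := by
      rw [transpose_mul, hR, hS, mul_assoc, trace_mul_comm]
      simp only [mul_assoc]
    rwa [e1, e2] at hc
  · obtain ⟨Z, rfl⟩ : ∃ Z : Matrix κ κ ℝ, z = vc Z := ⟨Matrix.of fun i j => z (i, j), rfl⟩
    have hN0 : 0 < vc (R * Z * Si) ⬝ᵥ vc (R * Z * Si) := by
      refine lt_of_le_of_ne (Finset.sum_nonneg fun p _ => mul_self_nonneg _) fun h0 => hz ?_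
      have h5 : vc (R * Z * Si) = 0 := dotProduct_self_eq_zero.1 h0.symm
      have h6 : R * Z * Si = 0 := by
        ext i j
        exact congrFun h5 (i, j)
      have h7 : Z = Ri * (R * Z * Si) * S := by
        rw [mul_assoc R, a2, mul_assoc, h4, mul_one]
      rw [h6, mul_zero, zero_mul] at h7
      rw [h7]
      rfl
    rw [vc_dot] at hN0
    have hsym : ∀ D E : Matrix κ κ ℝ, QF q D E = QF q E D := by
      intro D E
      unfold QF
      rw [Finset.sum_comm]
      exact Finset.sum_congr rfl fun p _ => Finset.sum_congr rfl fun p' _ => by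
        rw [hq p' p]; ring
    have e0 := QF_km q Ri Si (R * R * Z * (Si * Si)) Z
    rw [hl, dotProduct_smul, vc_dot, hsym] at e0
    have h8 := h (Ri * Z * Si) (Ri * (R * R * Z * (Si * Si)) * Si)
    have e1 : ((R * R * Z * (Si * Si))ᵀ * Z).trace = ((R * Z * Si)ᵀ * (R * Z * Si)).trace := by
      simp only [transpose_mul, hR, hSi, mul_assoc]
      rw [trace_mul_comm Si (Si * _)]
      simp only [mul_assoc]
    have e2 : ((Ri * Z * Si)ᵀ * (R * R * (R * R)) * (Ri * Z * Si)).trace =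
        ((R * Z * Si)ᵀ * (R * Z * Si)).trace := by
      simp only [transpose_mul, hR, hRi, hSi, mul_assoc, a1, a2]
    have e3 : (Ri * (R * R * Z * (Si * Si)) * Si * (S * S * (S * S)) *
        (Ri * (R * R * Z * (Si * Si)) * Si)ᵀ).trace = ((R * Z * Si)ᵀ * (R * Z * Si)).trace := by
      rw [trace_mul_comm (R * Z * Si)ᵀ]
      simp only [transpose_mul, hR, hSi, mul_assoc, a2, a3, a4]
    rw [e1, smul_eq_mul] at e0
    rw [e2, e3, ← e0] at h8
    nlinarith

end NCAux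

theorem nc : S_nc := by
  intro κ _ _ q K K' hq hK hK' h
  obtain ⟨A, hA, hAK⟩ := NCAux.root hK
  obtain ⟨A', hA', hAK'⟩ := NCAux.root hK'
  obtain ⟨R, hR, hRA⟩ := NCAux.root hA
  obtain ⟨S, hS, hSA⟩ := NCAux.root hA'
  refine ⟨A, A', hA.posSemidef, hA'.posSemidef, hAK, hAK', ?_⟩
  have tr : ∀ {X : Matrix κ κ ℝ}, X.PosDef → Xᵀ = X := fun hX => by
    have := hX.isHermitian
    rwa [IsHermitian, conjTranspose_eq_transpose_of_trivial] at this
  have hRd : IsUnit R.det := (isUnit_iff_isUnit_det R).1 hR.isUnit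
  have hSd : IsUnit S.det := (isUnit_iff_isUnit_det S).1 hS.isUnit
  have := NCAux.main q R R⁻¹ S S⁻¹ hq (tr hR) (tr hR.inv) (tr hS) (tr hS.inv)
    (mul_nonsing_inv R hRd) (nonsing_inv_mul R hRd) (mul_nonsing_inv S hSd)
    (nonsing_inv_mul S hSd) (by rw [hRA, hSA, hAK, hAK']; exact h)
  rwa [hRA, hSA] at this

end Vale.Agent.P146
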