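import Vale.Agent.P146.Defs

/-! # P146: coordinatewise rotations preserve the Gaussian product measure -/

namespace Vale.Agent.P146

open MeasureTheory ProbabilityTheory

namespace OrthAux

variable {ι : Type} [Fintype ι]

theorem cf_g1 (L : StrongDual ℝ ℝ) :
    charFunDual (gaussianReal 0 1) L = Complex.exp (-((L 1 ^ 2 / 2 : ℝ) : ℂ)) := by
  have h1 : charFunDual (gaussianReal 0 1) L = charFun (gaussianReal 0 1) (L 1) := by
    rw [charFunDual_apply, charFun_apply_real]
    refine integral_congr_ae (ae_of_all _ fun x => ?_)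
    have : L x = L 1 * x := by
      rw [mul_comm, ← smul_eq_mul, ← map_smul, smul_eq_mul, mul_one]
    simp only [this, Complex.ofReal_mul]
  rw [h1, charFun_gaussianReal]
  congr 1
  push_cast
  simp

theorem cf_gam [DecidableEq ι] (L : StrongDual ℝ (ι → ℝ)) :
    charFunDual (gam ι) L =
      Complex.exp (-((∑ i, L (Pi.single i 1) ^ 2 / 2 : ℝ) : ℂ)) := by
  rw [gam, charFunDual_pi]
  simp only [cf_g1]
  rw [← Complex.exp_sum, Complex.ofReal_sum, Finset.sum_neg_distrib]
  rfl

theorem cf_prod [DecidableEq ι] (L : StrongDual ℝ ((ι → ℝ) × (ι → ℝ))) :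
    charFunDual ((gam ι).prod (gam ι)) L =
      Complex.exp (-((∑ i, (L (Pi.single i 1, 0) ^ 2 + L (0, Pi.single i 1) ^ 2) / 2 : ℝ) : ℂ)) := by
  rw [charFunDual_prod, cf_gam, cf_gam, ← Complex.exp_add]
  congr 1
  simp only [add_div, Finset.sum_add_distrib, Complex.ofReal_add, neg_add]
  rfl

/-- The coordinatewise linear map. -/
noncomputable def rot (a b c d : ι → ℝ) : ((ι → ℝ) × (ι → ℝ)) →L[ℝ] ((ι → ℝ) × (ι → ℝ)) :=
  LinearMap.toContinuousLinearMap
    { toFun := fun p =>
        ((fun e => a e * p.1 e + b e * p.2 e), (fun e => c e * p.1 e + d e * p.2 e))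
      map_add' := fun p q => by
        ext e <;> simp <;> ring
      map_smul' := fun r p => by
        ext e <;> simp <;> ring }

theorem rot_apply (a b c d : ι → ℝ) (p : (ι → ℝ) × (ι → ℝ)) :
    rot a b c d p =
      ((fun e => a e * p.1 e + b e * p.2 e), (fun e => c e * p.1 e + d e * p.2 e)) := rfl

theorem rot_left [DecidableEq ι] (a b c d : ι → ℝ) (i : ι) :
    rot a b c d (Pi.single i 1, 0) =
      a i • ((Pi.single i 1, 0) : (ι → ℝ) × (ι → ℝ)) + c i • (0, Pi.single i 1) := by
  rw [rot_apply]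
  ext e <;> by_cases h : e = i <;> simp [h]

theorem rot_right [DecidableEq ι] (a b c d : ι → ℝ) (i : ι) :
    rot a b c d (0, Pi.single i 1) =
      b i • ((Pi.single i 1, 0) : (ι → ℝ) × (ι → ℝ)) + d i • (0, Pi.single i 1) := by
  rw [rot_apply]
  ext e <;> by_cases h : e = i <;> simp [h]

end OrthAux

theorem orth : S_orth := by
  intro ι _ a b c d h1 h2 h3
  classical
  refine ⟨(OrthAux.rot a b c d).continuous.measurable, ?_⟩
  change Measure.map (OrthAux.rot a b c d) _ = _
  apply Measure.ext_of_charFunDual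
  funext L
  rw [charFunDual_map, OrthAux.cf_prod, OrthAux.cf_prod]
  congr 3
  refine Finset.sum_congr rfl fun i _ => ?_
  simp only [ContinuousLinearMap.comp_apply, OrthAux.rot_left, OrthAux.rot_right, map_add,
    map_smul, smul_eq_mul]
  generalize L (Pi.single i 1, 0) = u
  generalize L (0, Pi.single i 1) = v
  linear_combination (u ^ 2 / 2) * h1 i + (v ^ 2 / 2) * h2 i + (u * v) * h3 i

theorem nz_mp (h_orth : S_orth) : S_nz := by
  intro ι _ a ha
  have hs : ∀ e, √(1 - a e ^ 2) ^ 2 = 1 - a e ^ 2 := fun e =>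
    Real.sq_sqrt (by nlinarith [(ha e).1, (ha e).2])
  have h := h_orth ι a (fun e => √(1 - a e ^ 2)) (fun e => √(1 - a e ^ 2)) (fun e => -a e)
    (fun e => by rw [hs e]; ring) (fun e => by rw [hs e]; ring) (fun e => by ring)
  exact (measurePreserving_fst (μ := gam ι) (ν := gam ι)).comp h

theorem flip_mp (h_orth : S_orth) : S_flip := by
  intro ι _ ε hε
  have h := h_orth ι ε (fun _ => 0) (fun _ => 0) (fun _ => 1)
    (fun e => by rw [hε e]; ring) (fun e => by ring) (fun e => by ring)
  have h2 := (measurePreserving_fst (μ := gam ι) (ν := gam ι)).comp h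
  have hm : Measurable fun x : ι → ℝ => ε * x := by fun_prop
  refine ⟨hm, ?_⟩
  have h3 := h2.map_eq
  have h4 := (measurePreserving_fst (μ := gam ι) (ν := gam ι)).map_eq
  conv_lhs => rw [← h4]
  rw [Measure.map_map hm measurable_fst]
  refine Eq.trans ?_ h3
  congr 1
  funext p
  funext e
  simp

end Vale.Agent.P146
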