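import Vale.Agent.P146.Defs

/-! # P146: perturbation of matrix square roots -/

namespace Vale.Agent.P146

open Matrix

namespace PertAux

variable {κ : Type} [Fintype κ] [DecidableEq κ]

open scoped MatrixOrder in
theorem trace_mul_nonneg {A C : Matrix κ κ ℝ} (hA : A.PosSemidef) (hC : C.PosSemidef) :
    0 ≤ (A * C).trace := by
  obtain ⟨S, rfl⟩ := CStarAlgebra.nonneg_iff_eq_star_mul_self.1 hC.nonneg
  rw [← Matrix.mul_assoc, Matrix.trace_mul_comm, ← Matrix.mul_assoc]
  exact (hA.mul_mul_conjTranspose_same S).trace_nonneg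

omit [DecidableEq κ] in
theorem fro_nonneg (A : Matrix κ κ ℝ) : 0 ≤ fro A :=
  Finset.sum_nonneg fun _ _ => Finset.sum_nonneg fun _ _ => sq_nonneg _

omit [DecidableEq κ] in
theorem fro_transpose (A : Matrix κ κ ℝ) : ∑ j, ∑ k, A k j ^ 2 = fro A := Finset.sum_comm

omit [DecidableEq κ] in
theorem trace_mul_le (X Y : Matrix κ κ ℝ) {l : ℝ} (hl : 0 < l) :
    (X * Y).trace ≤ l * fro X / 2 + fro Y / (2 * l) := by
  rw [← fro_transpose Y]
  unfold fro
  simp only [Matrix.trace, Matrix.diag, Matrix.mul_apply, Finset.mul_sum, Finset.sum_div,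
    ← Finset.sum_add_distrib]
  refine Finset.sum_le_sum fun j _ => Finset.sum_le_sum fun k _ => ?_
  have h : l * X j k ^ 2 / 2 + Y k j ^ 2 / (2 * l) - X j k * Y k j =
      (l * X j k - Y k j) ^ 2 / (2 * l) := by
    field_simp
    ring
  have h2 : 0 ≤ (l * X j k - Y k j) ^ 2 / (2 * l) := by positivity
  linarith

omit [DecidableEq κ] in
theorem quad_sq_le (D : Matrix κ κ ℝ) (v : κ → ℝ) (hv : v ⬝ᵥ v = 1) :
    (v ⬝ᵥ (D *ᵥ v)) ^ 2 ≤ fro D := by
  have h1 : v ⬝ᵥ (D *ᵥ v) = ∑ p : κ × κ, D p.1 p.2 * (v p.1 * v p.2) := by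
    simp only [dotProduct, Matrix.mulVec, Finset.mul_sum, Fintype.sum_prod_type]
    exact Finset.sum_congr rfl fun j _ => Finset.sum_congr rfl fun k _ => by ring
  have h2 : ∑ p : κ × κ, (v p.1 * v p.2) ^ 2 = 1 := by
    have h3 : ∑ p : κ × κ, (v p.1 * v p.2) ^ 2 = (v ⬝ᵥ v) * (v ⬝ᵥ v) := by
      simp only [dotProduct, Finset.sum_mul_sum, Fintype.sum_prod_type]
      exact Finset.sum_congr rfl fun j _ => Finset.sum_congr rfl fun k _ => by ring
    rw [h3, hv, mul_one]
  have h4 : ∑ p : κ × κ, D p.1 p.2 ^ 2 = fro D := by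
    simp only [fro, Fintype.sum_prod_type]
  have h5 := Finset.sum_mul_sq_le_sq_mul_sq Finset.univ (fun p : κ × κ => D p.1 p.2)
    fun p => v p.1 * v p.2
  rw [h2, h4, mul_one] at h5
  rw [h1]
  exact h5

theorem eig_le {A B : Matrix κ κ ℝ} (hA : A.PosSemidef) (hB : B.PosSemidef) {l t : ℝ}
    (hl : 0 < l) {v : κ → ℝ} (hv : v ⬝ᵥ v = 1) (ht : (A - B) *ᵥ v = t • v) :
    t ≤ l + fro (A * A - B * B) / l ^ 3 := by
  have hd := fro_nonneg (A * A - B * B)
  by_contra hc
  have hc' := not_le.1 hc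
  have h0 : 0 ≤ fro (A * A - B * B) / l ^ 3 := by positivity
  have htl : l < t := by linarith
  have hX : (A - B)ᵀ = A - B := (hA.isHermitian.sub hB.isHermitian).eq
  have hb : 0 ≤ v ⬝ᵥ (B *ᵥ v) := by simpa using hB.dotProduct_mulVec_nonneg v
  have e0 : A * A - B * B = A * (A - B) + (A - B) * B := by
    rw [Matrix.mul_sub, Matrix.sub_mul]; abel
  have e1 : v ᵥ* (A - B) = t • v := by rw [← Matrix.mulVec_transpose, hX, ht]
  have e2 : v ⬝ᵥ (A *ᵥ v) = t + v ⬝ᵥ (B *ᵥ v) := by
    have : v ⬝ᵥ ((A - B) *ᵥ v) = t := by rw [ht, dotProduct_smul, hv]; simp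
    rw [Matrix.sub_mulVec, dotProduct_sub] at this
    linarith
  have e3 : v ⬝ᵥ ((A * A - B * B) *ᵥ v) = t * (t + 2 * (v ⬝ᵥ (B *ᵥ v))) := by
    rw [e0, Matrix.add_mulVec, dotProduct_add, ← Matrix.mulVec_mulVec, ← Matrix.mulVec_mulVec, ht,
      Matrix.mulVec_smul, dotProduct_smul, Matrix.dotProduct_mulVec v (A - B), e1,
      smul_dotProduct, e2]
    simp only [smul_eq_mul]
    ring
  have h4 := quad_sq_le (A * A - B * B) v hv
  rw [e3] at h4
  have ht0 : 0 < t := hl.trans htl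
  have h5 : t ^ 2 ≤ t * (t + 2 * (v ⬝ᵥ (B *ᵥ v))) := by nlinarith
  have h6 : (t ^ 2) ^ 2 ≤ fro (A * A - B * B) := le_trans (by gcongr) h4
  have h7 : t ≤ fro (A * A - B * B) / l ^ 3 := by
    rw [le_div_iff₀ (by positivity)]
    calc t * l ^ 3 ≤ t * t ^ 3 := by gcongr
      _ = (t ^ 2) ^ 2 := by ring
      _ ≤ _ := h6
  linarith

end PertAux

open PertAux

theorem perta : S_perta := by
  intro κ _ _ A B C l hA hB hC hl
  set c := l + fro (A * A - B * B) / l ^ 3 with hc
  have hH : (c • (1 : Matrix κ κ ℝ) - (A - B)).IsHermitian := by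
    refine Matrix.IsHermitian.sub ?_ (hA.isHermitian.sub hB.isHermitian)
    simp [Matrix.IsHermitian]
  have hP : (c • (1 : Matrix κ κ ℝ) - (A - B)).PosSemidef := by
    rw [hH.posSemidef_iff_eigenvalues_nonneg]
    intro j
    have h1 := hH.mulVec_eigenvectorBasis j
    have hv : ⇑(hH.eigenvectorBasis j) ⬝ᵥ ⇑(hH.eigenvectorBasis j) = 1 := by
      have h2 := hH.eigenvectorBasis.orthonormal.1 j
      have h3 := EuclideanSpace.real_norm_sq_eq (hH.eigenvectorBasis j)
      rw [h2] at h3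
      simpa [dotProduct, sq] using h3.symm
    have ht : (A - B) *ᵥ ⇑(hH.eigenvectorBasis j) =
        (c - hH.eigenvalues j) • ⇑(hH.eigenvectorBasis j) := by
      rw [Matrix.sub_mulVec, Matrix.smul_mulVec, Matrix.one_mulVec] at h1
      rw [sub_smul, ← h1]
      abel
    have h4 := eig_le hA hB hl hv ht
    simp only [Pi.zero_apply]
    linarith
  have h := trace_mul_nonneg hP hC
  rw [Matrix.sub_mul, Matrix.trace_sub, Matrix.smul_mul, Matrix.one_mul, Matrix.trace_smul,
    smul_eq_mul] at h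
  linarith

theorem pertb : S_pertb := by
  intro κ _ _ A B l hA hB hl
  obtain ⟨X, rfl⟩ : ∃ X, A = X + B := ⟨A - B, by abel⟩
  have hXH : X.IsHermitian := by simpa using hA.isHermitian.sub hB.isHermitian
  have hX : Xᴴ = X := hXH.eq
  have hXs : ∀ j k, X k j = X j k := fun j k => by simpa using hXH.apply j k
  rw [add_sub_cancel_right]
  have e0 : (X + B) * (X + B) - B * B = X * X + X * B + B * X := by
    rw [Matrix.add_mul, Matrix.mul_add, Matrix.mul_add]; abel
  have e1 : fro X = (X * X).trace := by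
    simp only [fro, Matrix.trace, Matrix.diag, Matrix.mul_apply]
    exact Finset.sum_congr rfl fun j _ => Finset.sum_congr rfl fun k _ => by rw [hXs j k, sq]
  have e2 : ((X + B) * (X + B) - B * B).trace = fro X + 2 * (X * B).trace := by
    rw [e0, Matrix.trace_add, Matrix.trace_add, Matrix.trace_mul_comm B X, e1]; ring
  have h1 := (hB.mul_mul_conjTranspose_same (l • (1 : Matrix κ κ ℝ) + X)).trace_nonneg
  have e3 : ((l • (1 : Matrix κ κ ℝ) + X) * B * (l • (1 : Matrix κ κ ℝ) + X)ᴴ).trace =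
      l ^ 2 * B.trace + 2 * l * (X * B).trace + (X * B * X).trace := by
    rw [Matrix.conjTranspose_add, hX, Matrix.conjTranspose_smul, Matrix.conjTranspose_one]
    simp only [Matrix.add_mul, Matrix.mul_add, Matrix.smul_mul, Matrix.mul_smul, Matrix.one_mul,
      Matrix.mul_one, Matrix.trace_add, Matrix.trace_smul, smul_eq_mul, star_trivial,
      Matrix.trace_mul_comm B X]
    ring
  rw [e3] at h1
  have h2 := (hA.mul_mul_conjTranspose_same X).trace_nonneg
  rw [hX] at h2
  have e4 : (X * ((X + B) * (X + B) - B * B)).trace =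
      (X * (X + B) * X).trace + (X * B * X).trace := by
    rw [e0]
    simp only [Matrix.add_mul, Matrix.mul_add, Matrix.trace_add, ← Matrix.mul_assoc]
    rw [Matrix.trace_mul_comm (X * B) X, ← Matrix.mul_assoc]
  have h3 := trace_mul_le X ((X + B) * (X + B) - B * B) hl
  rw [e4] at h3
  rw [e2]
  set d := fro ((X + B) * (X + B) - B * B)
  have h4 : l * (-(4 * (X * B).trace) - fro X - 2 * l * B.trace) ≤ d / l := by
    have : d / (2 * l) = d / l / 2 := by field_simp
    nlinarith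
  have h5 : -(4 * (X * B).trace) - fro X - 2 * l * B.trace ≤ d / l ^ 2 := by
    rw [le_div_iff₀ (by positivity)]
    rw [le_div_iff₀ hl] at h4
    nlinarith
  linarith

theorem det (h_nc : S_nc) (h_perta : S_perta) (h_pertb : S_pertb) : S_det := by
  intro κ _ _ q K K' B B' N l hq hK hK' hB hB' hN hN' hl hD
  obtain ⟨A, A', hA, hA', rfl, rfl, h⟩ := h_nc κ q K K' hq hK hK' hD
  have a1 := h_perta κ A B B' l hA hB hB' hl
  have a2 := h_perta κ A' B' B l hA' hB' hB hl
  have b1 := h_pertb κ A B l hA hB hl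
  have b2 := h_pertb κ A' B' l hA' hB' hl
  have c1 := trace_mul_le (A - B) (A' - B') one_pos
  have e : (A * A').trace = (B * B').trace + ((A - B) * B').trace + ((A' - B') * B).trace +
      ((A - B) * (A' - B')).trace := by
    rw [Matrix.trace_mul_comm (A' - B') B]
    simp only [Matrix.sub_mul, Matrix.mul_sub, Matrix.trace_sub]
    ring
  have hd := fro_nonneg (A * A - B * B)
  have hd' := fro_nonneg (A' * A' - B' * B')
  set d := fro (A * A - B * B)
  set d' := fro (A' * A' - B' * B')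
  have a3 : (l + d / l ^ 3) * B'.trace ≤ (l + d / l ^ 3) * N := by gcongr
  have a4 : (l + d' / l ^ 3) * B.trace ≤ (l + d' / l ^ 3) * N := by gcongr
  have a5 : l * B.trace ≤ l * N := by gcongr
  have a6 : l * B'.trace ≤ l * N := by gcongr
  have e2 : (N / l ^ 3 + 1 / (2 * l ^ 2)) * (d + d') =
      d / l ^ 3 * N + d' / l ^ 3 * N + d / l ^ 2 / 2 + d' / l ^ 2 / 2 := by
    field_simp
    ring
  rw [e2]
  nlinarith

end Vale.Agent.P146
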