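import Vale.Agent.P146.Defs

/-! # P146: Gaussian Poincaré inequality on a block of coordinates, and the smoothing bound -/

namespace Vale.Agent.P146

open MeasureTheory ProbabilityTheory

namespace PoinAux

variable {ι : Type} [Fintype ι]

theorem cont_sum (h_covcont : S_covcont) {D : ι → (ι → ℝ) → ℝ} (hD : ∀ e, EG (D e)) :
    ContinuousOn (fun r => ∑ e, cov r (D e) (D e)) (Set.Icc 0 1) :=
  continuousOn_finsetSum _ fun e _ => h_covcont ι _ _ (hD e) (hD e)

theorem ii (h_covcont : S_covcont) {D : ι → (ι → ℝ) → ℝ} (hD : ∀ e, EG (D e)) {a b : ℝ}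
    (ha : 0 ≤ a) (hab : a ≤ b) (hb : b ≤ 1) :
    IntervalIntegrable (fun r => ∑ e, cov r (D e) (D e)) volume a b :=
  ((cont_sum h_covcont hD).mono (Set.Icc_subset_Icc ha hb)).intervalIntegrable_of_Icc hab

/-- The plain Gaussian Poincaré inequality. -/
theorem plain (h_interp : S_interp) (h_covmono : S_covmono) (h_covcont : S_covcont)
    {f : (ι → ℝ) → ℝ} {D : ι → (ι → ℝ) → ℝ} (h : C1 f D) :
    ∫ x, f x ^ 2 ∂gam ι - (∫ x, f x ∂gam ι) ^ 2 ≤ ∑ e, ∫ x, D e x ^ 2 ∂gam ι := by
  have h1 := h_interp ι f f D D 1 h h zero_le_one le_rfl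
  have h2 : ∫ r in (0 : ℝ)..1, ∑ e, cov r (D e) (D e) ≤
      ∫ _ in (0 : ℝ)..1, ∑ e, cov 1 (D e) (D e) := by
    refine intervalIntegral.integral_mono_on zero_le_one
      (ii h_covcont h.egD le_rfl zero_le_one le_rfl) intervalIntegrable_const fun r hr => ?_
    exact Finset.sum_le_sum fun e _ => (h_covmono ι r 1 (D e) hr.1 hr.2 le_rfl (h.egD e)).2
  rw [intervalIntegral.integral_const, sub_zero, one_smul] at h2
  simp only [cov_one, ← pow_two] at h1 h2
  linarith

omit [Fintype ι] in
theorem off_mul_off [DecidableEq ι] (I : Finset ι) : off I * off I = off I := by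
  funext e
  simp only [off, Pi.mul_apply]
  split_ifs <;> norm_num

end PoinAux

open PoinAux

theorem poin (h_interp : S_interp) (h_covmono : S_covmono) (h_covcont : S_covcont)
    (h_c1mix : S_c1mix) (h_adj : S_adj) (h_semi : S_semi) (h_contr : S_contr) : S_poin := by
  intro ι _ _ f D I h
  have hU := u01_off I
  have hE : EG (T (off I) f) := h.eg.T hU
  -- pointwise conditional Poincaré
  have hpt : ∀ x, T (off I) (fun y => f y ^ 2) x - T (off I) f x ^ 2 ≤
      ∑ e ∈ I, T (off I) (fun y => D e y ^ 2) x := fun x => by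
    have h1 := plain h_interp h_covmono h_covcont (h_c1mix ι f D I x h)
    refine h1.trans (le_of_eq ?_)
    rw [← Finset.sum_filter_add_sum_filter_not Finset.univ (fun e => e ∈ I)]
    have e1 : Finset.univ.filter (fun e => e ∈ I) = I := by
      ext e
      simp
    rw [e1, Finset.sum_eq_zero (s := Finset.univ.filter fun e => e ∉ I), add_zero]
    · refine Finset.sum_congr rfl fun e he => ?_
      simp only [if_pos he, T]
    · intro e he
      simp only [if_neg (Finset.mem_filter.1 he).2]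
      simp
  have hint := integral_mono (μ := gam ι) (((h.eg.sq).T hU).sub hE.sq).intg
    (EG.sum I fun e _ => ((h.egD e).sq).T hU).intg hpt
  rw [integral_sub ((h.eg.sq).T hU).intg hE.sq.intg,
    integral_finsetSum _ fun e _ => (((h.egD e).sq).T hU).intg,
    (h_contr ι _ _ hU h.eg.sq).1] at hint
  rw [Finset.sum_congr rfl fun e _ => (h_contr ι _ _ hU (h.egD e).sq).1] at hint
  refine le_trans (le_of_eq ?_) hint
  have hx : ∫ x, f x * T (off I) f x ∂gam ι = ∫ x, T (off I) f x ^ 2 ∂gam ι := by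
    have h2 := h_adj ι (off I) f (T (off I) f) hU h.eg hE
    rw [h_semi ι _ _ f hU hU h.eg, off_mul_off] at h2
    rw [h2]
    simp only [pow_two]
  have hy : ∀ x, (f x - T (off I) f x) ^ 2 =
      (f x ^ 2 - 2 * (f x * T (off I) f x)) + T (off I) f x ^ 2 := fun x => by ring
  simp only [hy]
  rw [integral_add (h.eg.sq.sub ((h.eg.mul hE).const_mul 2)).intg hE.sq.intg,
    integral_sub h.eg.sq.intg ((h.eg.mul hE).const_mul 2).intg, integral_const_mul, hx]
  ring

theorem smooth (h_interp : S_interp) (h_covmono : S_covmono) (h_covcont : S_covcont)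
    (h_covT : S_covT) : S_smooth := by
  intro ι _ f D τ h h0 h1
  have hs0 : 0 ≤ τ ^ 2 := sq_nonneg τ
  have hs1 : τ ^ 2 ≤ 1 := pow_le_one₀ h0 h1
  have a1 := h_interp ι f f D D 1 h h zero_le_one le_rfl
  have a2 := h_interp ι f f D D (τ ^ 2) h h hs0 hs1
  have a3 := intervalIntegral.integral_interval_sub_left
    (ii h_covcont h.egD le_rfl zero_le_one le_rfl) (ii h_covcont h.egD le_rfl hs0 hs1)
  have a4 : ∫ _ in (τ ^ 2)..1, ∑ e, cov (τ ^ 2) (D e) (D e) ≤
      ∫ r in (τ ^ 2)..1, ∑ e, cov r (D e) (D e) := by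
    refine intervalIntegral.integral_mono_on hs1 intervalIntegrable_const
      (ii h_covcont h.egD hs0 hs1 le_rfl) fun r hr => ?_
    exact Finset.sum_le_sum fun e _ => (h_covmono ι _ r (D e) hs0 hr.1 hr.2 (h.egD e)).2
  rw [intervalIntegral.integral_const, smul_eq_mul] at a4
  have a5 : ∀ e, cov (τ ^ 2) (D e) (D e) = ∫ x, T (fun _ => τ) (D e) x ^ 2 ∂gam ι := fun e => by
    have := h_covT ι 1 τ (D e) (D e) zero_le_one le_rfl h0 h1 (h.egD e) (h.egD e)
    rw [one_mul, cov_one] at this
    rw [this]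
    simp only [pow_two]
  have a6 := (h_covmono ι _ _ f hs0 le_rfl hs1 h.eg).1
  simp only [a5] at a4
  rw [cov_one] at a1
  simp only [← pow_two] at a1 a2
  linarith

end Vale.Agent.P146
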