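import Vale.Agent.P146.Defs

/-! # P146: the pointwise inequality at a pair of disorders -/

namespace Vale.Agent.P146

open MeasureTheory ProbabilityTheory Matrix

namespace PointAux

variable {n : ℕ}

/-- The centred resampled rows. -/
noncomputable def W (β τ : ℝ) (x : Edge n → ℝ) (a j : Fin n) (y : Edge n → ℝ) : ℝ :=
  Bf β τ a j (nz (off (row a)) x y) - if a = j then 1 else 0

/-- Their symmetric derivatives. -/
noncomputable def H (β τ : ℝ) (x : Edge n → ℝ) (a j k : Fin n) (y : Edge n → ℝ) : ℝ :=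
  τ * (β / √(n : ℝ) * T (fun _ => τ) (fun g => M β j k g - M β a j g * M β a k g)
    (nz (off (row a)) x y))

theorem c1_sub_const {ι : Type} [Fintype ι] {f : (ι → ℝ) → ℝ} {D : ι → (ι → ℝ) → ℝ}
    (h : C1 f D) (c : ℝ) : C1 (fun y => f y - c) D :=
  ⟨h.eg.sub (EG.const c), h.egD, fun x => (h.der x).sub_const c⟩

theorem eg_B (h_Mc1 : S_Mc1) {β τ : ℝ} (h0 : 0 ≤ τ) (h1 : τ ≤ 1) (x : Edge n → ℝ) (a j : Fin n) :
    EG fun y => Bf β τ a j (nz (off (row a)) x y) :=
  (((((h_Mc1 n β).1 a j).eg.T (u01_const h0 h1)).nz (u01_off (row a))).sec_right x)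

theorem gf (h_M : S_M) (h_Mc1 : S_Mc1) (h_B : S_B) (h_c1T : S_c1T) (h_c1mix : S_c1mix)
    {β τ : ℝ} (h0 : 0 ≤ τ) (h1 : τ ≤ 1) (x : Edge n → ℝ) :
    GF row oth (W β τ x) (H β τ x) := by
  obtain ⟨-, hsym, hdiag, -, -, hD⟩ := h_M n β
  have hc := (h_Mc1 n β).1
  refine ⟨fun a j => ?_, fun a j k => ?_, fun a j k => ?_, fun a j => ?_, fun a j => ?_⟩
  · have h := c1_sub_const (h_c1mix _ _ _ (row a) x (h_c1T _ _ _ τ (hc a j) h0 h1))
      (if a = j then 1 else 0)
    have e : (fun (e : Edge n) (y : Edge n → ℝ) => if e ∈ row a then H β τ x a j (oth a e) y else 0)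
        = fun e y => if e ∈ row a then τ * T (fun _ => τ) (DM β a j e) (nz (off (row a)) x y)
          else 0 := by
      funext e y
      split_ifs with he
      · have : DM β a j e = fun g => β / √(n : ℝ) *
            (M β j (oth a e) g - M β a j g * M β a (oth a e) g) := funext fun g => hD a j e g he
        rw [this, T_const_mul, H]
      · rfl
    rw [e]
    exact h
  · exact ((((((hc j k).eg.sub ((hc a j).eg.mul (hc a k).eg)).T (u01_const h0 h1)).nz
      (u01_off (row a))).sec_right x).const_mul _).const_mul _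
  · funext y
    simp only [H, hsym j k, mul_comm (M β a j _)]
  · funext y
    have : (fun g => M β j a g - M β a j g * M β a a g) = fun _ => 0 := by
      funext g
      rw [hdiag, hsym j a]
      ring
    simp only [H, this, T_const, mul_zero]
  · have h5 := (h_B n β τ h0 h1).2.2.2.2 a j x
    unfold W
    rw [integral_sub (eg_B h_Mc1 h0 h1 x a j).intg (integrable_const _)]
    simp only [integral_const, probReal_univ, smul_eq_mul, one_mul]
    exact sub_eq_zero.2 h5

theorem km_eq (h_Mc1 : S_Mc1) (h_B : S_B) {β τ : ℝ} (h0 : 0 ≤ τ) (h1 : τ ≤ 1)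
    (x : Edge n → ℝ) : Km β τ x = gram (W β τ x) + 1 := by
  ext j k
  have h5 := (h_B n β τ h0 h1).2.2.2.2
  have key : ∀ a : Fin n, ∫ y, W β τ x a j y * W β τ x a k y ∂gam (Edge n) =
      T (off (row a)) (fun z => Bf β τ a j z * Bf β τ a k z) x
        - (if a = j then 1 else 0) * (if a = k then 1 else 0) := fun a => by
    have ej := eg_B (β := β) h_Mc1 h0 h1 x a j
    have ek := eg_B (β := β) h_Mc1 h0 h1 x a k
    have e : ∀ y, W β τ x a j y * W β τ x a k y =
        (Bf β τ a j (nz (off (row a)) x y) * Bf β τ a k (nz (off (row a)) x y)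
          - (if a = k then 1 else 0) * Bf β τ a j (nz (off (row a)) x y))
          - ((if a = j then 1 else 0) * Bf β τ a k (nz (off (row a)) x y)
          - (if a = j then 1 else 0) * (if a = k then 1 else 0)) := fun y => by
      unfold W
      ring
    simp only [e]
    rw [integral_sub ((ej.mul ek).sub (ej.const_mul _)).intg
        ((ek.const_mul _).sub (EG.const _)).intg,
      integral_sub (ej.mul ek).intg (ej.const_mul _).intg,
      integral_sub (ek.const_mul _).intg (integrable_const _), integral_const_mul,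
      integral_const_mul]
    have hj := h5 a j x
    have hk := h5 a k x
    unfold T at hj hk ⊢
    rw [hj, hk]
    simp only [integral_const, probReal_univ, smul_eq_mul, one_mul]
    ring
  simp only [Km, gram, Matrix.add_apply, Matrix.of_apply, key, Finset.sum_sub_distrib,
    Matrix.one_apply]
  have : ∑ a : Fin n, (if a = j then (1 : ℝ) else 0) * (if a = k then 1 else 0) =
      if j = k then 1 else 0 := by
    simp [eq_comm]
  rw [this]
  ring

theorem gram_psd {ι κ : Type} [Fintype ι] [Fintype κ] {V : κ → κ → (ι → ℝ) → ℝ}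
    (hV : ∀ a j, EG (V a j)) : (gram V).PosSemidef := by
  refine PosSemidef.of_dotProduct_mulVec_nonneg ?_ fun v => ?_
  · ext j k
    simp only [gram, conjTranspose_apply, Matrix.of_apply, star_trivial, mul_comm]
  · have e : star v ⬝ᵥ (gram V *ᵥ v) = ∑ a, ∫ y, (∑ j, v j * V a j y) ^ 2 ∂gam ι := by
      have e2 : ∀ a, ∫ y, (∑ j, v j * V a j y) ^ 2 ∂gam ι =
          ∑ j, ∑ k, v j * ((∫ y, V a j y * V a k y ∂gam ι) * v k) := fun a => by
        simp only [pow_two, Finset.sum_mul_sum]
        rw [integral_finsetSum _ fun j _ => (EG.sum _ fun k _ =>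
          ((hV a j).const_mul _).mul ((hV a k).const_mul _)).intg]
        refine Finset.sum_congr rfl fun j _ => ?_
        rw [integral_finsetSum _ fun k _ =>
          (((hV a j).const_mul _).mul ((hV a k).const_mul _)).intg]
        refine Finset.sum_congr rfl fun k _ => ?_
        rw [← integral_mul_const, ← integral_const_mul]
        exact integral_congr_ae (ae_of_all _ fun y => by ring)
      simp only [e2, dotProduct, mulVec, gram, Matrix.of_apply, star_trivial, Finset.sum_mul,
        Finset.mul_sum]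
      rw [Finset.sum_comm (f := fun a j => ∑ k, v j * ((∫ y, V a j y * V a k y ∂gam ι) * v k))]
      refine Finset.sum_congr rfl fun j _ => Finset.sum_comm
    rw [e]
    exact Finset.sum_nonneg fun a _ => integral_nonneg fun y => sq_nonneg _

theorem trace_B (h_B : S_B) {β τ : ℝ} (h0 : 0 ≤ τ) (h1 : τ ≤ 1) (x : Edge n → ℝ) :
    (Bm β τ x).trace ≤ n := by
  have h3 := (h_B n β τ h0 h1).2.2.1
  simp [Matrix.trace, Bm, h3]

end PointAux

open PointAux in
theorem point (h_grad : S_grad) (h_det : S_det) (h_comb : S_comb) (h_M : S_M) (h_Mc1 : S_Mc1)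
    (h_B : S_B) (h_c1T : S_c1T) (h_c1mix : S_c1mix) (h_c1lin : S_c1lin) : S_point := by
  have _ := h_c1lin
  intro n β τ ρ l x x' h0 h1 r0 r1 hl
  have g := gf (β := β) h_M h_Mc1 h_B h_c1T h_c1mix h0 h1 x
  have g' := gf (β := β) h_M h_Mc1 h_B h_c1T h_c1mix h0 h1 x'
  obtain ⟨q, hq, hle, heq⟩ := h_grad _ _ row oth _ _ _ _ ρ (h_comb n).1 g g' r0 r1
  have p := gram_psd fun a j => (g.c1 a j).eg
  have p' := gram_psd fun a j => (g'.c1 a j).eg
  have k := km_eq (β := β) h_Mc1 h_B h0 h1 x
  have k' := km_eq (β := β) h_Mc1 h_B h0 h1 x'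
  have hB := (h_B n β τ h0 h1).2.2.2.1
  have hd := h_det _ q (Km β τ x) (Km β τ x') (Bm β τ x) (Bm β τ x') n l hq
    (k ▸ PosDef.posSemidef_add p PosDef.one) (k' ▸ PosDef.posSemidef_add p' PosDef.one)
    (hB x) (hB x') (trace_B h_B h0 h1 x) (trace_B h_B h0 h1 x') hl fun D E => by
      refine (hle D E).trans ?_
      have t1 := (posSemidef_conjTranspose_mul_self D).trace_nonneg
      have t2 := (posSemidef_self_mul_conjTranspose E).trace_nonneg
      rw [conjTranspose_eq_transpose_of_trivial] at t1 t2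
      rw [k, k']
      simp only [Matrix.mul_add, Matrix.add_mul, Matrix.mul_one, Matrix.trace_add]
      linarith
  exact heq.le.trans (mul_le_mul_of_nonneg_left hd r0)

end Vale.Agent.P146
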