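import Vale.Agent.P146.Defs

/-! # P146: elementary facts on the model -/

namespace Vale.Agent.P146

open MeasureTheory ProbabilityTheory Finset

namespace SKAux

variable {n : ℕ}

theorem mem_row {i : Fin n} {e : Edge n} : e ∈ row i ↔ e.1.1 = i ∨ e.1.2 = i := by
  simp [row]

theorem spin_sq (b : Bool) : spin b * spin b = 1 := by
  cases b <;> simp [spin]

theorem abs_spin (b : Bool) : |spin b| = 1 := by
  cases b <;> simp [spin]

theorem spin_not (b : Bool) : spin (!b) = -spin b := by
  cases b <;> simp [spin]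

theorem Z_pos (β : ℝ) (g : Edge n → ℝ) :
    0 < ∑ σ : Fin n → Bool, Real.exp (β * ham g σ) :=
  Finset.sum_pos (fun _ _ => Real.exp_pos _) Finset.univ_nonempty

theorem oth_ne {i : Fin n} {e : Edge n} (he : e ∈ row i) : oth i e ≠ i := by
  have h := e.2
  unfold oth
  rcases mem_row.1 he with h1 | h1
  · rw [if_pos h1, ← h1]
    exact h.ne'
  · have : e.1.1 ≠ i := by rw [← h1]; exact h.ne
    rw [if_neg this]
    exact this

theorem spin_edge {i : Fin n} {e : Edge n} (he : e ∈ row i) (σ : Fin n → Bool) :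
    spin (σ e.1.1) * spin (σ e.1.2) = spin (σ i) * spin (σ (oth i e)) := by
  unfold oth
  split_ifs with h1
  · rw [h1]
  · rcases mem_row.1 he with h2 | h2
    · exact absurd h2 h1
    · rw [h2, mul_comm]

/-- The edge joining `i` and `k`. -/
def mkE (i k : Fin n) (h : k ≠ i) : Edge n :=
  if h1 : i < k then ⟨(i, k), h1⟩ else ⟨(k, i), lt_of_le_of_ne (not_lt.1 h1) h⟩

theorem comb1 (i : Fin n) (ψ : Fin n → ℝ) (h0 : ψ i = 0) :
    ∑ e ∈ row i, ψ (oth i e) = ∑ k, ψ k := by
  rw [← Finset.sum_erase (s := univ) (a := i) h0]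
  refine Finset.sum_bij' (fun e _ => oth i e)
    (fun k hk => mkE i k (Finset.ne_of_mem_erase hk)) ?_ ?_ ?_ ?_ ?_
  · intro e he
    exact Finset.mem_erase.2 ⟨oth_ne he, mem_univ _⟩
  · intro k hk
    rw [mem_row]
    unfold mkE
    split_ifs <;> simp
  · intro e he
    have h := e.2
    rcases mem_row.1 he with h1 | h1
    · have h2 : oth i e = e.1.2 := if_pos h1
      have h3 : i < oth i e := by rw [h2, ← h1]; exact h
      unfold mkE
      rw [dif_pos h3]
      exact Subtype.ext (Prod.ext h1.symm h2)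
    · have h4 : e.1.1 ≠ i := by rw [← h1]; exact h.ne
      have h2 : oth i e = e.1.1 := if_neg h4
      have h3 : ¬ i < oth i e := by rw [h2, ← h1]; exact not_lt.2 h.le
      unfold mkE
      rw [dif_neg h3]
      exact Subtype.ext (Prod.ext h2 h1.symm)
  · intro k hk
    have hk' := Finset.ne_of_mem_erase hk
    unfold mkE oth
    by_cases h1 : i < k
    · simp [h1]
    · simp [h1, hk']
  · intro e _
    rfl

theorem comb2 (φ : Edge n → ℝ) : ∑ i, ∑ e ∈ row i, φ e = 2 * ∑ e, φ e := by
  simp only [row, Finset.sum_filter]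
  rw [Finset.sum_comm, Finset.mul_sum]
  refine Finset.sum_congr rfl fun e _ => ?_
  have h := e.2
  have : ∀ i : Fin n, (if e.1.1 = i ∨ e.1.2 = i then φ e else 0) =
      (if e.1.1 = i then φ e else 0) + if e.1.2 = i then φ e else 0 := fun i => by
    by_cases h1 : e.1.1 = i
    · have h2 : e.1.2 ≠ i := by rw [← h1]; exact h.ne'
      simp [h1, h2]
    · by_cases h2 : e.1.2 = i <;> simp [h1, h2]
  simp only [this, Finset.sum_add_distrib, Finset.sum_ite_eq, mem_univ, if_true]
  ring

theorem comb3 (ψ : Fin n → Fin n → ℝ) (h : ∀ i j, 0 ≤ ψ i j) :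
    ∑ e : Edge n, ψ e.1.1 e.1.2 ≤ ∑ i, ∑ j, ψ i j := by
  rw [← Finset.sum_product', Finset.univ_product_univ,
    ← Finset.sum_subtype (p := fun p : Fin n × Fin n => p.1 < p.2)
      (univ.filter fun p : Fin n × Fin n => p.1 < p.2) (by simp) (fun p => ψ p.1 p.2)]
  exact Finset.sum_le_sum_of_subset_of_nonneg (Finset.filter_subset _ _) fun p _ _ => h _ _

/-- Flip of the spin at `i`. -/
def fl (i : Fin n) (σ : Fin n → Bool) : Fin n → Bool := Function.update σ i (!σ i)

theorem fl_fl (i : Fin n) (σ : Fin n → Bool) : fl i (fl i σ) = σ := by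
  simp [fl]

theorem fl_self (i : Fin n) (σ : Fin n → Bool) : spin (fl i σ i) = -spin (σ i) := by
  simp [fl, spin_not]

theorem fl_ne {i j : Fin n} (h : j ≠ i) (σ : Fin n → Bool) : fl i σ j = σ j := by
  simp [fl, h]

theorem ham_flp (i : Fin n) (g : Edge n → ℝ) (σ : Fin n → Bool) :
    ham (flp i * g) σ = ham g (fl i σ) := by
  unfold ham
  congr 1
  refine Finset.sum_congr rfl fun e _ => ?_
  rw [Pi.mul_apply]
  unfold flp
  split_ifs with he
  · rw [spin_edge he, spin_edge he, fl_self, fl_ne (oth_ne he)]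
    ring
  · rw [mem_row, not_or] at he
    rw [fl_ne he.1, fl_ne he.2, one_mul]

theorem sum_fl (i : Fin n) (F : (Fin n → Bool) → ℝ) : ∑ σ, F (fl i σ) = ∑ σ, F σ :=
  Equiv.sum_comp (Function.Involutive.toPerm (fl i) (fl_fl i)) F

end SKAux

open SKAux

theorem comb : S_comb := fun _ => ⟨comb1, comb2, comb3⟩

theorem mfacts : S_M := by
  intro n β
  have hsym : ∀ i j : Fin n, M β i j = M β j i := fun i j => by
    funext g
    unfold M
    congr 1
    funext σ
    exact mul_comm _ _
  have hdiag : ∀ (i : Fin n) g, M β i i g = 1 := fun i g => by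
    simp only [M, gb, spin_sq, one_mul]
    exact div_self (Z_pos β g).ne'
  refine ⟨fun i j g => ?_, hsym, hdiag, fun v g => ?_, fun i j g hj => ?_, fun i j e g he => ?_⟩
  · unfold M gb
    rw [abs_div, abs_of_pos (Z_pos β g), div_le_one (Z_pos β g)]
    refine (Finset.abs_sum_le_sum_abs _ _).trans (le_of_eq (Finset.sum_congr rfl fun σ _ => ?_))
    rw [abs_mul, abs_mul, abs_spin, abs_spin, abs_of_pos (Real.exp_pos _)]
    ring
  · have : ∑ i, ∑ j, v i * v j * M β i j g =
        (∑ σ : Fin n → Bool, (∑ i, v i * spin (σ i)) ^ 2 * Real.exp (β * ham g σ)) /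
          ∑ σ : Fin n → Bool, Real.exp (β * ham g σ) := by
      simp only [M, gb, ← mul_div_assoc, ← Finset.sum_div]
      congr 1
      simp only [Finset.mul_sum, pow_two, Finset.sum_mul]
      rw [Finset.sum_comm]
      conv_rhs => rw [Finset.sum_comm]
      refine Finset.sum_congr rfl fun i _ => ?_
      conv_rhs => rw [Finset.sum_comm]
      refine Finset.sum_congr rfl fun j _ => Finset.sum_congr rfl fun σ _ => by ring
    rw [this]
    exact div_nonneg (Finset.sum_nonneg fun σ _ => by positivity) (Z_pos β g).le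
  · unfold M gb
    simp only [ham_flp]
    rw [sum_fl i fun σ => Real.exp (β * ham g σ), ← neg_div, ← Finset.sum_neg_distrib,
      ← sum_fl i fun σ => -(spin (σ i) * spin (σ j) * Real.exp (β * ham g σ))]
    congr 1
    refine Finset.sum_congr rfl fun σ _ => ?_
    rw [fl_self, fl_ne hj]
    ring
  · have h1 : M β e.1.1 e.1.2 g = M β i (oth i e) g := by
      simp only [M, spin_edge he]
    have h2 : gb β g (fun σ => spin (σ i) * spin (σ j) * (spin (σ e.1.1) * spin (σ e.1.2))) =
        M β j (oth i e) g := by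
      unfold M
      congr 1
      funext σ
      rw [spin_edge he]
      linear_combination spin (σ j) * spin (σ (oth i e)) * spin_sq (σ i)
    unfold DM
    rw [h1, h2]

end Vale.Agent.P146
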