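import Vale.Agent.P146.Defs

/-! # P146: differentiability of the Gibbs averages and of the free energy -/

namespace Vale.Agent.P146

open MeasureTheory ProbabilityTheory

namespace SKc1Aux

section lin
variable {ι : Type} [Fintype ι]

/-- The linear form with coefficients `D`. -/
noncomputable def lf (D : ι → ℝ) : (ι → ℝ) →L[ℝ] ℝ :=
  ∑ e, D e • ContinuousLinearMap.proj (R := ℝ) (φ := fun _ : ι => ℝ) e

theorem lf_apply (D v : ι → ℝ) : lf D v = ∑ e, D e * v e := by
  simp [lf, ContinuousLinearMap.sum_apply]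

theorem hd_congr {f : (ι → ℝ) → ℝ} {A : (ι → ℝ) →L[ℝ] ℝ} {x D : ι → ℝ} (h : HasFDerivAt f A x)
    (e : ∀ v, A v = ∑ e, D e * v e) : HasFDerivAt f (lf D) x :=
  h.congr_fderiv (ContinuousLinearMap.ext fun v => (e v).trans (lf_apply D v).symm)

end lin

variable {n : ℕ}

/-- The edge observable. -/
def se (e : Edge n) (σ : Fin n → Bool) : ℝ := spin (σ e.1.1) * spin (σ e.1.2)

/-- Unnormalised Gibbs average. -/
noncomputable def nu (β : ℝ) (φ : (Fin n → Bool) → ℝ) (g : Edge n → ℝ) : ℝ :=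
  ∑ σ, φ σ * Real.exp (β * ham g σ)

theorem nu_one (β : ℝ) (g : Edge n → ℝ) :
    nu β (fun _ => 1) g = ∑ σ : Fin n → Bool, Real.exp (β * ham g σ) := by
  simp only [nu, one_mul]

theorem nu_pos (β : ℝ) (g : Edge n → ℝ) : 0 < nu β (fun _ => 1) g := by
  rw [nu_one]
  exact Finset.sum_pos (fun _ _ => Real.exp_pos _) Finset.univ_nonempty

theorem gb_eq (β : ℝ) (φ : (Fin n → Bool) → ℝ) (g : Edge n → ℝ) :
    gb β g φ = nu β φ g * (nu β (fun _ => 1) g)⁻¹ := by
  rw [nu_one, ← div_eq_mul_inv]; rfl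

theorem ham_eq (β : ℝ) (σ : Fin n → Bool) (g : Edge n → ℝ) :
    β * ham g σ = lf (fun e => β / √(n : ℝ) * se e σ) g := by
  rw [lf_apply, ham, ← mul_assoc, Finset.mul_sum]
  exact Finset.sum_congr rfl fun e _ => by unfold se; ring

theorem hd_nu (β : ℝ) (φ : (Fin n → Bool) → ℝ) (g : Edge n → ℝ) :
    HasFDerivAt (nu β φ) (lf fun e => β / √(n : ℝ) * nu β (fun σ => φ σ * se e σ) g) g := by
  have h1 : ∀ σ : Fin n → Bool, HasFDerivAt (fun g : Edge n → ℝ => β * ham g σ)
      (lf fun e => β / √(n : ℝ) * se e σ) g := fun σ => by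
    rw [funext (ham_eq β σ)]
    exact (lf _).hasFDerivAt
  have h2 := HasFDerivAt.fun_sum (u := Finset.univ) fun σ _ => ((h1 σ).exp).const_mul (φ σ)
  refine hd_congr h2 fun v => ?_
  simp only [ContinuousLinearMap.sum_apply, ContinuousLinearMap.smul_apply, lf_apply, smul_eq_mul,
    nu, Finset.mul_sum, Finset.sum_mul]
  rw [Finset.sum_comm]
  exact Finset.sum_congr rfl fun e _ => Finset.sum_congr rfl fun σ _ => by ring

theorem hd_gb (β : ℝ) (φ : (Fin n → Bool) → ℝ) (g : Edge n → ℝ) :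
    HasFDerivAt (fun g => gb β g φ) (lf fun e => β / √(n : ℝ) *
      (gb β g (fun σ => φ σ * se e σ) - gb β g φ * gb β g (se e))) g := by
  have hp := (nu_pos β g).ne'
  have h1 := (hasDerivAt_inv hp).comp_hasFDerivAt g (hd_nu β (fun _ => 1) g)
  have h2 := (hd_nu β φ g).mul h1
  rw [funext (gb_eq β φ)]
  refine hd_congr h2 fun v => ?_
  simp only [ContinuousLinearMap.add_apply, ContinuousLinearMap.smul_apply, lf_apply, smul_eq_mul,
    Finset.mul_sum, ← Finset.sum_add_distrib, gb_eq, Function.comp_apply, one_mul]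
  refine Finset.sum_congr rfl fun e _ => ?_
  field_simp
  ring

theorem abs_gb_le (β : ℝ) (φ : (Fin n → Bool) → ℝ) (g : Edge n → ℝ) :
    |gb β g φ| ≤ ∑ σ, |φ σ| := by
  have hp := nu_pos β g
  rw [gb_eq, abs_mul, abs_of_pos (inv_pos.2 hp), ← div_eq_mul_inv, div_le_iff₀ hp,
    Finset.sum_mul]
  refine (Finset.abs_sum_le_sum_abs _ _).trans (Finset.sum_le_sum fun σ _ => ?_)
  rw [abs_mul, abs_of_pos (Real.exp_pos _), nu_one]
  exact mul_le_mul_of_nonneg_left (Finset.single_le_sum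
    (f := fun σ : Fin n → Bool => Real.exp (β * ham g σ)) (fun _ _ => (Real.exp_pos _).le)
    (Finset.mem_univ σ)) (abs_nonneg _)

theorem eg_gb (β : ℝ) (φ : (Fin n → Bool) → ℝ) : EG fun g : Edge n → ℝ => gb β g φ :=
  EG.of_bdd (continuous_iff_continuousAt.2 fun g => (hd_gb β φ g).continuousAt) (abs_gb_le β φ)

theorem fe_eq (β : ℝ) : freeEnergy n β = fun g => Real.log (nu β (fun _ => 1) g) := by
  funext g
  rw [nu_one]; rfl

theorem hd_fe (β : ℝ) (g : Edge n → ℝ) :
    HasFDerivAt (freeEnergy n β) (lf fun e => β / √(n : ℝ) * gb β g (se e)) g := by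
  have hp := (nu_pos β g).ne'
  rw [fe_eq]
  refine hd_congr ((hd_nu β (fun _ => 1) g).log hp) fun v => ?_
  simp only [ContinuousLinearMap.smul_apply, lf_apply, smul_eq_mul, Finset.mul_sum, gb_eq, one_mul]
  exact Finset.sum_congr rfl fun e _ => by ring

theorem eg_fe (β : ℝ) : EG (freeEnergy n β) := by
  set c : ℝ := ∑ σ : Fin n → Bool, ‖lf fun e : Edge n => β / √(n : ℝ) * se e σ‖ with hc
  have hb : ∀ (g : Edge n → ℝ) σ, |β * ham g σ| ≤ c * ‖g‖ := fun g σ => by
    rw [ham_eq]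
    refine ((lf _).le_opNorm g).trans (mul_le_mul_of_nonneg_right ?_ (norm_nonneg _))
    exact Finset.single_le_sum
      (f := fun σ : Fin n → Bool => ‖lf fun e : Edge n => β / √(n : ℝ) * se e σ‖)
      (fun _ _ => norm_nonneg _) (Finset.mem_univ σ)
  refine EG.of_lin (continuous_iff_continuousAt.2 fun g => (hd_fe β g).continuousAt)
    (a := c) (b := (Fintype.card (Fin n → Bool) : ℝ)) fun g => ?_
  have hp := nu_pos β g
  have hN : (0 : ℝ) < Fintype.card (Fin n → Bool) := by exact_mod_cast Fintype.card_pos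
  have h1 : nu β (fun _ => 1) g ≤ Fintype.card (Fin n → Bool) * Real.exp (c * ‖g‖) := by
    rw [nu_one, ← Finset.card_univ, ← nsmul_eq_mul]
    exact Finset.sum_le_card_nsmul _ _ _ fun σ _ => Real.exp_le_exp.2 (abs_le.1 (hb g σ)).2
  have h2 : Real.exp (-(c * ‖g‖)) ≤ nu β (fun _ => 1) g := by
    rw [nu_one]
    exact (Real.exp_le_exp.2 (abs_le.1 (hb g fun _ => true)).1).trans (Finset.single_le_sum
      (f := fun σ : Fin n → Bool => Real.exp (β * ham g σ)) (fun _ _ => (Real.exp_pos _).le)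
      (Finset.mem_univ _))
  have h3 := Real.log_le_log hp h1
  rw [Real.log_mul hN.ne' (Real.exp_pos _).ne', Real.log_exp] at h3
  have h4 := Real.log_le_log (Real.exp_pos _) h2
  rw [Real.log_exp] at h4
  have h5 := Real.log_le_self hN.le
  rw [fe_eq]
  exact abs_le.2 ⟨by linarith, by linarith⟩

end SKc1Aux

open SKc1Aux

theorem mc1 : S_Mc1 := fun _ β =>
  ⟨fun _ _ => ⟨eg_gb β _, fun e => ((eg_gb β _).sub ((eg_gb β _).mul (eg_gb β (se e)))).const_mul _,
    fun g => hd_gb β _ g⟩,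
   ⟨eg_fe β, fun e => (eg_gb β (se e)).const_mul _, fun g => hd_fe β g⟩⟩

end Vale.Agent.P146
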