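import Vale.Agent.P146.Defs

/-! # P146: self-adjointness, semigroup property and contraction of the smoothing operators -/

namespace Vale.Agent.P146

open MeasureTheory ProbabilityTheory

namespace SemiAux

variable {ι : Type} [Fintype ι]

theorem int_mp {X Y : Type} [MeasurableSpace X] [MeasurableSpace Y] [TopologicalSpace Y]
    [OpensMeasurableSpace Y] {μ : Measure X} {ν : Measure Y} {φ : X → Y}
    (h : MeasurePreserving φ μ ν) {F : Y → ℝ} (hF : Continuous F) :
    ∫ x, F (φ x) ∂μ = ∫ y, F y ∂ν := by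
  rw [← h.map_eq, integral_map h.measurable.aemeasurable hF.measurable.aestronglyMeasurable]

omit [Fintype ι] in
theorem sq_sqrt_u {a : ι → ℝ} (ha : U01 a) (e : ι) : √(1 - a e ^ 2) ^ 2 = 1 - a e ^ 2 :=
  Real.sq_sqrt (by nlinarith [(ha e).1, (ha e).2])

theorem split_unit {p q : ℝ} {s : ℝ} (hs : s ^ 2 = p ^ 2 + q ^ 2) :
    ∃ u v : ℝ, u ^ 2 + v ^ 2 = 1 ∧ s * u = p ∧ s * v = q := by
  by_cases h : s = 0
  · subst h
    have hp : p = 0 := by nlinarith [sq_nonneg p, sq_nonneg q]
    have hq : q = 0 := by nlinarith [sq_nonneg p, sq_nonneg q]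
    exact ⟨1, 0, by norm_num, by simp [hp], by simp [hq]⟩
  · refine ⟨p / s, q / s, ?_, by field_simp, by field_simp⟩
    field_simp
    linarith

theorem jensen {g : (ι → ℝ) → ℝ} (hg : EG g) :
    (∫ y, g y ∂gam ι) ^ 2 ≤ ∫ y, g y ^ 2 ∂gam ι := by
  set m := ∫ y, g y ∂gam ι with hm
  have h0 : 0 ≤ ∫ y, (g y - m) ^ 2 ∂gam ι := integral_nonneg fun y => sq_nonneg _
  have h1 : ∫ y, (g y - m) ^ 2 ∂gam ι = ∫ y, (g y ^ 2 - 2 * m * g y + m ^ 2) ∂gam ι :=
    integral_congr_ae (ae_of_all _ fun y => by ring)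
  rw [h1, integral_add (hg.sq.sub (hg.const_mul _)).intg (integrable_const _),
    integral_sub hg.sq.intg (hg.const_mul _).intg, integral_const_mul, ← hm] at h0
  simp only [integral_const, probReal_univ, smul_eq_mul, one_mul] at h0
  nlinarith

end SemiAux

theorem adj (h_orth : S_orth) : S_adj := by
  intro ι _ a f h ha hf hh
  have hs := SemiAux.sq_sqrt_u ha
  have hR := h_orth ι a (fun e => √(1 - a e ^ 2)) (fun e => √(1 - a e ^ 2)) (fun e => -a e)
    (fun e => by rw [hs e]; ring) (fun e => by rw [hs e]; ring) (fun e => by ring)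
  have e1 : ∫ x, f x * T a h x ∂gam ι =
      ∫ p, f p.1 * h (nz a p.1 p.2) ∂(gam ι).prod (gam ι) := by
    rw [integral_prod _ (hf.fst.mul (hh.nz ha)).intg2]
    simp only [T, integral_const_mul]
  have e2 : ∫ x, T a f x * h x ∂gam ι =
      ∫ p, f (nz a p.1 p.2) * h p.1 ∂(gam ι).prod (gam ι) := by
    rw [integral_prod _ ((hf.nz ha).mul hh.fst).intg2]
    simp only [T, integral_mul_const]
  rw [e1, e2, ← SemiAux.int_mp hR ((hf.nz ha).mul hh.fst).cont]
  refine integral_congr_ae (ae_of_all _ fun p => ?_)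
  have e3 : nz a (fun e => a e * p.1 e + √(1 - a e ^ 2) * p.2 e)
      (fun e => √(1 - a e ^ 2) * p.1 e + -a e * p.2 e) = p.1 := by
    funext e
    simp only [nz]
    linear_combination (p.1 e) * hs e
  simp only [e3]
  rfl

theorem semi (h_orth : S_orth) : S_semi := by
  intro ι _ a b f ha hb hf
  have hab := ha.mul hb
  have hsa := SemiAux.sq_sqrt_u ha
  have hsb := SemiAux.sq_sqrt_u hb
  have hsab := SemiAux.sq_sqrt_u hab
  have hex : ∀ e, ∃ u v : ℝ, u ^ 2 + v ^ 2 = 1 ∧
      √(1 - (a * b) e ^ 2) * u = b e * √(1 - a e ^ 2) ∧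
      √(1 - (a * b) e ^ 2) * v = √(1 - b e ^ 2) := fun e =>
    SemiAux.split_unit (by
      rw [hsab e, mul_pow, hsa e, hsb e, Pi.mul_apply]
      ring)
  choose u v huv hu hv using hex
  have hR := h_orth ι u v (fun e => -v e) u huv (fun e => by rw [← huv e]; ring)
    (fun e => by ring)
  have hR1 := (measurePreserving_fst (μ := gam ι) (ν := gam ι)).comp hR
  funext x
  have hF : EG fun p : (ι → ℝ) × (ι → ℝ) => f (nz b (nz a x p.1) p.2) := by
    refine hf.comp (φ := fun p : (ι → ℝ) × (ι → ℝ) => nz b (nz a x p.1) p.2) ?_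
      (a := 2) (b := ‖x‖) fun p => ?_
    · unfold nz
      fun_prop
    · have h1 := norm_nz hb (nz a x p.1) p.2
      have h2 := norm_nz ha x p.1
      linarith [norm_fst_le p, norm_snd_le p]
  have e1 : T a (T b f) x =
      ∫ p, f (nz b (nz a x p.1) p.2) ∂(gam ι).prod (gam ι) := by
    rw [integral_prod _ hF.intg2]
    rfl
  rw [e1, T, ← SemiAux.int_mp hR1 ((hf.nz hab).sec_right x).cont]
  refine integral_congr_ae (ae_of_all _ fun p => ?_)
  simp only [Function.comp_apply]
  congr 1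
  funext e
  simp only [nz]
  have h1 := hu e
  have h2 := hv e
  simp only [Pi.mul_apply] at h1 h2 ⊢
  linear_combination (-p.1 e) * h1 - (p.2 e) * h2

theorem contr (h_nz : S_nz) : S_contr := by
  intro ι _ a f ha hf
  have key : ∀ g : (ι → ℝ) → ℝ, EG g → ∫ x, T a g x ∂gam ι = ∫ x, g x ∂gam ι := fun g hg => by
    rw [← SemiAux.int_mp (h_nz ι a ha) hg.cont, integral_prod _ (hg.nz ha).intg2]
    rfl
  refine ⟨key f hf, ?_⟩
  rw [← key _ hf.sq]
  refine integral_mono (hf.T ha).sq.intg (hf.sq.T ha).intg fun x => ?_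
  exact SemiAux.jensen ((hf.nz ha).sec_right x)

end Vale.Agent.P146
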