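import Vale.Agent.P146.Defs

/-! # P146: Gaussian integration by parts -/

namespace Vale.Agent.P146

open MeasureTheory ProbabilityTheory

namespace SteinAux

theorem nice1 : Nice (gaussianReal 0 1) := by
  refine ⟨inferInstance, fun c => ?_⟩
  refine ((integrable_exp_mul_gaussianReal c).add (integrable_exp_mul_gaussianReal (-c))).mono'
    (by fun_prop) (ae_of_all _ fun z => ?_)
  rw [Real.norm_of_nonneg (Real.exp_pos _).le, Real.norm_eq_abs, Pi.add_apply]
  rcases abs_cases z with ⟨h, _⟩ | ⟨h, _⟩
  · rw [h]
    exact le_add_of_nonneg_right (Real.exp_pos _).le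
  · rw [h, mul_neg, neg_mul]
    exact le_add_of_nonneg_left (Real.exp_pos _).le

theorem intg_pdf {g : ℝ → ℝ} (hg : EG g) : Integrable fun t => gaussianPDFReal 0 1 t * g t := by
  have h := hg.integrable nice1
  rw [gaussianReal_of_var_ne_zero _ one_ne_zero,
    integrable_withDensity_iff_integrable_smul' (measurable_gaussianPDF _ _)
      (ae_of_all _ fun _ => gaussianPDF_lt_top)] at h
  simpa using h

theorem der_pdf (t : ℝ) :
    HasDerivAt (gaussianPDFReal 0 1) (-t * gaussianPDFReal 0 1 t) t := by
  have h1 : HasDerivAt (fun x : ℝ => -(x - 0) ^ 2 / (2 * ((1 : NNReal) : ℝ))) (-t) t := by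
    have := (((hasDerivAt_id t).sub_const 0).pow 2).neg.div_const (2 * ((1 : NNReal) : ℝ))
    refine this.congr_deriv ?_
    simp
    ring
  have := h1.exp.const_mul (√(2 * Real.pi * ((1 : NNReal) : ℝ)))⁻¹
  refine this.congr_deriv ?_
  unfold gaussianPDFReal
  ring

theorem stein1 {g g' : ℝ → ℝ} (hg : EG g) (hg' : EG g') (hd : ∀ t, HasDerivAt g (g' t) t) :
    ∫ t, t * g t ∂gaussianReal 0 1 = ∫ t, g' t ∂gaussianReal 0 1 := by
  have hid : EG fun t : ℝ => t := EG.of_lin continuous_id (a := 1) (b := 0) fun x => by simp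
  have i1 := intg_pdf (hid.mul hg)
  have i2 := intg_pdf hg'
  have h := integral_eq_zero_of_hasDerivAt_of_integrable
    (f := fun t => gaussianPDFReal 0 1 t * g t)
    (f' := fun t => gaussianPDFReal 0 1 t * g' t - gaussianPDFReal 0 1 t * (t * g t))
    (fun t => ((der_pdf t).mul (hd t)).congr_deriv (by ring)) (i2.sub i1) (intg_pdf hg)
  rw [integral_sub i2 i1] at h
  rw [integral_gaussianReal_eq_integral_smul one_ne_zero,
    integral_gaussianReal_eq_integral_smul one_ne_zero]
  simp only [smul_eq_mul]
  linarith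

variable {ι : Type} [Fintype ι] [DecidableEq ι]

theorem cont_upd (e : ι) : Continuous fun p : (ι → ℝ) × ℝ => Function.update p.1 e p.2 :=
  continuous_fst.update e continuous_snd

theorem mp_upd (e : ι) : MeasurePreserving (fun p : (ι → ℝ) × ℝ => Function.update p.1 e p.2)
    ((gam ι).prod (gaussianReal 0 1)) (gam ι) := by
  refine ⟨(cont_upd e).measurable, (Measure.pi_eq fun s hs => ?_).symm⟩
  rw [Measure.map_apply (cont_upd e).measurable (MeasurableSet.univ_pi hs)]
  have : (fun p : (ι → ℝ) × ℝ => Function.update p.1 e p.2) ⁻¹' Set.univ.pi s =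
      (Set.univ.pi (Function.update s e Set.univ)) ×ˢ s e := by
    ext p
    simp only [Set.mem_preimage, Set.mem_pi, Set.mem_univ, true_imp_iff, Set.mem_prod]
    constructor
    · intro h
      refine ⟨fun j => ?_, by simpa using h e⟩
      by_cases hj : j = e
      · subst hj
        simp
      · simpa [hj] using h j
    · rintro ⟨h1, h2⟩ j
      by_cases hj : j = e
      · subst hj
        simpa using h2
      · simpa [hj] using h1 j
  rw [this, Measure.prod_prod, Measure.pi_pi,
    ← Finset.prod_erase_mul _ _ (Finset.mem_univ e),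
    ← Finset.prod_erase_mul _ _ (Finset.mem_univ e), Function.update_self, measure_univ, mul_one]
  congr 1
  exact Finset.prod_congr rfl fun j hj => by
    rw [Function.update_of_ne (Finset.ne_of_mem_erase hj)]

theorem eg_upd {F : (ι → ℝ) → ℝ} (hF : EG F) (e : ι) :
    EG fun p : (ι → ℝ) × ℝ => F (Function.update p.1 e p.2) :=
  hF.comp (cont_upd e) (a := 1) (b := 0) fun p => by
    rw [one_mul, add_zero]
    refine (pi_norm_le_iff_of_nonneg (norm_nonneg _)).2 fun j => ?_
    by_cases hj : j = e
    · subst hj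
      rw [Function.update_self]
      exact norm_snd_le p
    · rw [Function.update_of_ne hj]
      exact (norm_le_pi_norm p.1 j).trans (norm_fst_le p)

theorem int_upd {F : (ι → ℝ) → ℝ} (hF : EG F) (e : ι) :
    ∫ x, F x ∂gam ι = ∫ x, ∫ t, F (Function.update x e t) ∂gaussianReal 0 1 ∂gam ι := by
  rw [← integral_prod _ ((eg_upd hF e).integrable ((nice_gam ι).prod nice1))]
  conv_lhs => rw [← (mp_upd e).map_eq]
  rw [integral_map (mp_upd e).measurable.aemeasurable hF.cont.aestronglyMeasurable]

end SteinAux

open SteinAux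

theorem stein : S_stein := by
  intro ι _ f D e hf
  classical
  rw [int_upd ((EG.coord e).mul hf.eg) e, int_upd (hf.egD e) e]
  refine integral_congr_ae (ae_of_all _ fun x => ?_)
  simp only [Function.update_self]
  refine stein1 ((eg_upd hf.eg e).sec_right x) ((eg_upd (hf.egD e) e).sec_right x) fun t => ?_
  refine ((hf.der _).comp_hasDerivAt t (hasDerivAt_update x e t)).congr_deriv ?_
  simp [Pi.single_apply]

end Vale.Agent.P146
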