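import Vale.Agent.P146.Defs

/-! # P146: the one-step inequality -/

namespace Vale.Agent.P146

open MeasureTheory ProbabilityTheory Matrix

theorem step (h_point : S_point) (h_resample : S_resample) (h_covT : S_covT) (h_nz : S_nz)
    (h_delta : S_delta) (h_B : S_B) (h_Mc1 : S_Mc1) : S_step := by
  intro n β τ ρ l hτ0 hτ1 hρ0 hρ1 hl
  have hρ : U01 fun _ : Edge n => ρ := u01_const hρ0 hρ1
  obtain ⟨-, hsym, hdiag, -, -⟩ := h_B n β τ hτ0 hτ1.le
  obtain ⟨hF, hTr, hFi, hTi⟩ := h_delta n β τ hτ0 hτ1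
  have hM : ∀ i j : Fin n, EG (M β i j) := fun i j => ((h_Mc1 n β).1 i j).eg
  have hB : ∀ i j : Fin n, EG (Bf β τ i j) := fun i j => (hM i j).T (u01_const hτ0 hτ1.le)
  have hV : ∀ i j : Fin n, EG fun x => Bf β τ i j x - if i = j then 1 else 0 :=
    fun i j => (hB i j).sub (EG.const _)
  have hPhi : Phi n β (ρ * τ ^ 2) = ∑ i : Fin n, ∑ j : Fin n, cov ρ (Bf β τ i j) (Bf β τ i j) :=
    Finset.sum_congr rfl fun i _ => Finset.sum_congr rfl fun j _ =>
      h_covT _ ρ τ _ _ hρ0 hρ1 hτ0 hτ1.le (hM i j) (hM i j)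
  have hsplit : ∀ i j : Fin n, cov ρ (Bf β τ i j) (Bf β τ i j) = (if i = j then 1 else 0) +
      cov ρ (fun x => Bf β τ i j x - if i = j then 1 else 0)
        (fun x => Bf β τ i j x - if i = j then 1 else 0) := by
    intro i j
    by_cases h : i = j
    · subst h
      have e : Bf β τ i i = fun _ => 1 := funext (hdiag i)
      simp [e, cov, T_const]
    · simp [h]
  have hres := fun i j : Fin n => h_resample (Edge n) _ _ (row i) ρ (hV i j) (hV i j) hρ0 hρ1
  have hP1 : Phi n β (ρ * τ ^ 2) = n + ∫ p : (Edge n → ℝ) × (Edge n → ℝ), ∑ i, ∑ j,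
      cov ρ (fun y => Bf β τ i j (nz (off (row i)) p.1 y) - if i = j then 1 else 0)
        (fun y => Bf β τ i j (nz (off (row i)) (nz (fun _ => ρ) p.1 p.2) y) -
          if i = j then 1 else 0) ∂(gam (Edge n)).prod (gam (Edge n)) := by
    rw [hPhi, integral_finsetSum _ fun i _ => (EG.sum _ fun j _ => (hres i j).1).intg2]
    simp only [hsplit, Finset.sum_add_distrib, Finset.sum_ite_eq, Finset.mem_univ, if_true,
      Finset.sum_const, Finset.card_univ, Fintype.card_fin, nsmul_eq_mul, mul_one]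
    congr 1
    refine Finset.sum_congr rfl fun i _ => ?_
    rw [integral_finsetSum _ fun j _ => (hres i j).1.intg2]
    exact Finset.sum_congr rfl fun j _ => (hres i j).2.symm
  have htr : ∀ x x' : Edge n → ℝ, (Bm β τ x * Bm β τ x').trace =
      ∑ i, ∑ j, Bf β τ i j x * Bf β τ i j x' := by
    intro x x'
    simp only [Matrix.trace, Matrix.diag, Matrix.mul_apply, Bm, Matrix.of_apply]
    exact Finset.sum_congr rfl fun i _ => Finset.sum_congr rfl fun j _ => by rw [hsym j i]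
  have hE1 : EG fun p : (Edge n → ℝ) × (Edge n → ℝ) =>
      (Bm β τ p.1 * Bm β τ (nz (fun _ => ρ) p.1 p.2)).trace := by
    simp only [htr]
    exact EG.sum _ fun i _ => EG.sum _ fun j _ => (hB i j).fst.mul ((hB i j).nz hρ)
  have hI1 : ∫ p : (Edge n → ℝ) × (Edge n → ℝ),
      (Bm β τ p.1 * Bm β τ (nz (fun _ => ρ) p.1 p.2)).trace ∂(gam (Edge n)).prod (gam (Edge n)) =
      Phi n β (ρ * τ ^ 2) := by
    simp only [htr]
    rw [hPhi, integral_finsetSum _ fun i _ =>
      (EG.sum _ fun j _ => (hB i j).fst.mul ((hB i j).nz hρ)).intg2]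
    refine Finset.sum_congr rfl fun i _ => ?_
    rw [integral_finsetSum _ fun j _ => ((hB i j).fst.mul ((hB i j).nz hρ)).intg2]
    exact Finset.sum_congr rfl fun j _ => (cov_eq_prod hρ0 hρ1 (hB i j) (hB i j)).symm
  have hfst : ∀ f : (Edge n → ℝ) → ℝ, EG f →
      ∫ p : (Edge n → ℝ) × (Edge n → ℝ), f p.1 ∂(gam (Edge n)).prod (gam (Edge n)) =
        ∫ x, f x ∂gam (Edge n) := fun f _ => by
    rw [integral_fun_fst]
    simp
  have hnz : ∀ f : (Edge n → ℝ) → ℝ, EG f →
      ∫ p : (Edge n → ℝ) × (Edge n → ℝ), f (nz (fun _ => ρ) p.1 p.2)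
        ∂(gam (Edge n)).prod (gam (Edge n)) = ∫ x, f x ∂gam (Edge n) := fun f hf => by
    have h := h_nz (Edge n) _ hρ
    rw [← integral_map h.measurable.aemeasurable hf.cont.aestronglyMeasurable, h.map_eq]
  have hF2 := hF.fst.add (hF.nz hρ)
  have hT2 := hTr.fst.add (hTr.nz hρ)
  have hc : 0 ≤ (n : ℝ) / l ^ 3 + 1 / (2 * l ^ 2) := by positivity
  have hmono := integral_mono
    (EG.sum Finset.univ fun i _ => EG.sum Finset.univ fun j _ => (hres i j).1).intg2
    ((((hE1.add (EG.const (4 * l * n))).add (hF2.const_mul (n / l ^ 3 + 1 / (2 * l ^ 2)))).add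
      hT2).const_mul ρ).intg2
    fun p => h_point n β τ ρ l p.1 (nz (fun _ => ρ) p.1 p.2) hτ0 hτ1.le hρ0 hρ1 hl
  rw [integral_const_mul, integral_add ((hE1.add (EG.const _)).add (hF2.const_mul _)).intg2
    hT2.intg2, integral_add (hE1.add (EG.const _)).intg2 (hF2.const_mul _).intg2,
    integral_add hE1.intg2 (EG.const _).intg2, integral_const, integral_const_mul,
    integral_add hF.fst.intg2 (hF.nz hρ).intg2, integral_add hTr.fst.intg2 (hTr.nz hρ).intg2,
    hI1, hfst _ hF, hnz _ hF, hfst _ hTr, hnz _ hTr, hTi] at hmono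
  simp only [probReal_univ, smul_eq_mul, one_mul, add_zero] at hmono
  have h16 : 16 * (n : ℝ) ^ 3 / (1 - τ ^ 2) =
      8 * (n : ℝ) ^ 3 / (1 - τ ^ 2) + 8 * (n : ℝ) ^ 3 / (1 - τ ^ 2) := by ring
  have hfin := mul_le_mul_of_nonneg_left (add_le_add_right
    (mul_le_mul_of_nonneg_left (add_le_add hFi hFi) hc) (Phi n β (ρ * τ ^ 2) + 4 * l * n)) hρ0
  rw [h16]
  linarith

end Vale.Agent.P146
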