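import Vale.Agent.P146.Interp
import Vale.Agent.P146.Grad
import Vale.Agent.P146.NC
import Vale.Agent.P146.Pert
import Vale.Agent.P146.Point
import Vale.Agent.P146.Step
import Vale.Agent.P146.Delta
import Vale.Agent.P146.SKc1
import Vale.Agent.P146.SK
import Vale.Agent.P146.C1
import Vale.Agent.P146.Stein
import Vale.Agent.P146.Orth
import Vale.Agent.P146.Semi
import Vale.Agent.P146.Cov
import Vale.Agent.P146.Poin
import Vale.Agent.P146.ES
import Vale.Agent.P146.Bf
import Vale.Agent.P146.Calc

/-! # P146: assembly -/

namespace Vale.Agent.P146

theorem a_nz : S_nz := nz_mp orth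
theorem a_flip : S_flip := flip_mp orth
theorem a_adj : S_adj := adj orth
theorem a_semi : S_semi := semi orth
theorem a_contr : S_contr := contr a_nz
theorem a_covT : S_covT := covT a_adj a_semi
theorem a_covmono : S_covmono := covmono a_covT a_semi a_contr
theorem a_covamgm : S_covamgm := covamgm a_covT a_contr
theorem a_interp : S_interp := interp orth stein covcont
theorem a_poin : S_poin := poin a_interp a_covmono covcont c1mix a_adj a_semi a_contr
theorem a_smooth : S_smooth := smooth a_interp a_covmono covcont a_covT
theorem a_es : S_es := es a_adj a_semi
theorem a_resample : S_resample := resample a_nz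
theorem a_grad : S_grad := grad a_interp c1lin a_covamgm covcont
theorem a_det : S_det := det nc perta pertb
theorem a_B : S_B := bfacts mfacts mc1 a_flip
theorem a_delta : S_delta := delta a_es a_poin a_smooth a_contr comb mfacts mc1 a_B c1T c1mul
theorem a_point : S_point := point a_grad a_det comb mfacts mc1 a_B c1T c1mix c1lin
theorem a_step : S_step := step a_point a_resample a_covT a_nz a_delta a_B mc1
theorem a_var : S_var := var a_interp a_covmono covcont comb mfacts mc1
theorem main : S_main := main_of a_var a_step calc_main

end Vale.Agent.P146
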