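import Vale.Agent.P146.Defs2

/-! # P146, second round: the size of the angular derivative -/

namespace Vale.Agent.P146

open MeasureTheory ProbabilityTheory Matrix

namespace AvbdAux

section lin
variable {κ ι : Type} [Fintype κ] [DecidableEq κ]

omit [DecidableEq κ] in
theorem sq_psd {X : Matrix κ κ ℝ} (h : Xᵀ = X) : (X * X).PosSemidef := by
  have h1 := posSemidef_conjTranspose_mul_self X
  rwa [conjTranspose_eq_transpose_of_trivial, h] at h1

theorem tr_sq_le {G X : Matrix κ κ ℝ} (hG : G.PosSemidef) (h : Xᵀ = X) :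
    (G * (X * X)).trace ≤ G.trace * fro X := by
  have h1 : (fro X • (1 : Matrix κ κ ℝ) - X * X).PosSemidef := by
    refine .of_dotProduct_mulVec_nonneg
      ((isHermitian_one.smul (IsSelfAdjoint.all _)).sub (sq_psd h).1) fun v => ?_
    have e : v ⬝ᵥ ((X * X) *ᵥ v) = ∑ j, (∑ k, X j k * v k) ^ 2 := by
      rw [← mulVec_mulVec, dotProduct_mulVec, ← mulVec_transpose, h]
      simp only [dotProduct, mulVec, sq]
    have h2 : ∑ j, (∑ k, X j k * v k) ^ 2 ≤ fro X * ∑ k, v k ^ 2 := by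
      rw [fro, Finset.sum_mul]
      exact Finset.sum_le_sum fun j _ => Finset.sum_mul_sq_le_sq_mul_sq _ _ _
    rw [star_trivial, sub_mulVec, dotProduct_sub, e, smul_mulVec, one_mulVec, dotProduct_smul,
      smul_eq_mul, sub_nonneg]
    simpa only [dotProduct, sq] using h2
  have h3 := PertAux.trace_mul_nonneg hG h1
  rw [Matrix.mul_sub, trace_sub, Matrix.mul_smul, Matrix.mul_one, trace_smul, smul_eq_mul] at h3
  linarith

omit [DecidableEq κ] in
theorem tr_expand (G : Matrix κ κ ℝ) (I : Finset ι) (y : ι → ℝ) (A : ι → Matrix κ κ ℝ) :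
    (G * ((∑ e ∈ I, y e • A e) * ∑ e ∈ I, y e • A e)).trace
      = ∑ e ∈ I, ∑ e' ∈ I, (G * (A e * A e')).trace * (y e * y e') := by
  rw [Finset.sum_mul_sum]
  simp only [Finset.mul_sum, trace_sum, Matrix.smul_mul, Matrix.mul_smul, trace_smul, smul_eq_mul]
  exact Finset.sum_congr rfl fun e _ => Finset.sum_congr rfl fun e' _ => by ring

theorem fro_eq {Y : Matrix κ κ ℝ} (h : Yᵀ = Y) : fro Y = (1 * (Y * Y)).trace := by
  rw [Matrix.one_mul]
  simp only [fro, trace, diag, mul_apply, sq]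
  refine Finset.sum_congr rfl fun j _ => Finset.sum_congr rfl fun k _ => ?_
  rw [← congrFun (congrFun h k) j, transpose_apply]

omit [Fintype κ] [DecidableEq κ] in
theorem sym_sum (I : Finset ι) (y : ι → ℝ) {A : ι → Matrix κ κ ℝ} (h : ∀ e, (A e)ᵀ = A e) :
    (∑ e ∈ I, y e • A e)ᵀ = ∑ e ∈ I, y e • A e := by
  simp only [transpose_sum, transpose_smul, h]

theorem fro_le {n : ℕ} (I : Finset ι) (hI : (I.card : ℝ) ≤ n) (y : ι → ℝ)
    {A : ι → Matrix (Fin n) (Fin n) ℝ} {β : ℝ} (h : ∀ e j k, |A e j k| ≤ 2 * |β|) :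
    fro (∑ e ∈ I, y e • A e) ≤ 4 * β ^ 2 * (n : ℝ) ^ 3 * ∑ e ∈ I, y e ^ 2 := by
  have hR : 0 ≤ ∑ e ∈ I, y e ^ 2 := Finset.sum_nonneg fun _ _ => sq_nonneg _
  have h1 : ∀ j k, (∑ e ∈ I, y e • A e) j k ^ 2 ≤ (∑ e ∈ I, y e ^ 2) * (n * (4 * β ^ 2)) := by
    intro j k
    simp only [Matrix.sum_apply, Matrix.smul_apply, smul_eq_mul]
    refine (Finset.sum_mul_sq_le_sq_mul_sq _ _ _).trans (mul_le_mul_of_nonneg_left ?_ hR)
    refine (Finset.sum_le_card_nsmul _ _ (4 * β ^ 2) fun e _ => ?_).trans ?_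
    · have := pow_le_pow_left₀ (abs_nonneg _) (h e j k) 2
      rwa [sq_abs, mul_pow, sq_abs, show (2 : ℝ) ^ 2 = 4 by norm_num] at this
    · rw [nsmul_eq_mul]
      exact mul_le_mul_of_nonneg_right hI (by positivity)
  refine (Finset.sum_le_sum fun j _ => Finset.sum_le_sum fun k _ => h1 j k).trans (le_of_eq ?_)
  simp only [Finset.sum_const, Finset.card_univ, Fintype.card_fin, nsmul_eq_mul]
  ring

end lin

theorem card_row {n : ℕ} (i : Fin n) : ((row i).card : ℝ) ≤ n := by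
  have h := (comb n).1 i (fun k => if k = i then 0 else 1) (by simp)
  have h1 : ∀ e ∈ row i, (if oth i e = i then (0 : ℝ) else 1) = 1 := by
    intro e he
    have h2 := (Finset.mem_filter.1 he).2
    have h3 := e.2
    rw [if_neg]
    unfold oth
    split_ifs with h4
    · exact fun h5 => h3.ne (h4.trans h5.symm)
    · exact h4
  rw [Finset.sum_congr rfl h1, Finset.sum_const, nsmul_eq_mul, mul_one] at h
  rw [h]
  refine (Finset.sum_le_card_nsmul _ _ 1 fun k _ => by split_ifs <;> norm_num).trans ?_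
  simp

section eg
variable {X κ : Type} [NormedAddCommGroup X] [Fintype κ]

theorem eg_tr {G A B : X → Matrix κ κ ℝ} (hG : ∀ j k, EG fun x => G x j k)
    (hA : ∀ j k, EG fun x => A x j k) (hB : ∀ j k, EG fun x => B x j k) :
    EG fun x => (G x * (A x * B x)).trace := by
  simp only [trace, diag, mul_apply]
  exact EG.sum _ fun j _ => EG.sum _ fun k _ =>
    (hG j k).mul (EG.sum _ fun l _ => (hA k l).mul (hB l j))

theorem eg_qf {G : X → Matrix κ κ ℝ} {w : X → κ → ℝ} (hG : ∀ j k, EG fun x => G x j k)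
    (hw : ∀ j, EG fun x => w x j) : EG fun x => qf (G x) (w x) := by
  simp only [qf, dotProduct, mulVec]
  exact EG.sum _ fun j _ => (hw j).mul (EG.sum _ fun k _ => (hG j k).mul (hw k))

end eg

theorem real_pt {D g a b q l m K s N r R β : ℝ} (hD : D ≤ l * g + a * q / l + q * (m + b / m) / 2)
    (ha : 0 ≤ a) (hb : 0 ≤ b) (hl : 0 < l) (hl1 : l ≤ 1) (hm : 1 ≤ m) (hmN : m ≤ N)
    (hr : 0 ≤ r) (hR : 0 ≤ R) (hq : q ≤ 2 * K / s + 2 * N * r)
    (ha' : a ≤ N * (4 * β ^ 2 * N ^ 3 * R)) (hb' : b ≤ 4 * β ^ 2 * N ^ 3 * R) :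
    D ≤ l * g + 2 * K / s / l * a + (K / s * m + K / s / m * b)
      + 2 * N ^ 5 / l * (r + 8 * β ^ 2 * (r * R)) := by
  have hm0 : 0 < m := by linarith
  have hN : 1 ≤ N := hm.trans hmN
  have hbr : 0 ≤ a / l + (m + b / m) / 2 := by positivity
  have h1 := mul_le_mul_of_nonneg_right hq hbr
  have h2 : b / m ≤ b := div_le_self hb hm
  have h3 : N ≤ N ^ 4 := le_self_pow₀ hN (by norm_num)
  have h4 : N ^ 3 ≤ N ^ 4 := pow_le_pow_right₀ hN (by norm_num)
  have h5 : 4 * β ^ 2 * N ^ 3 * R ≤ 4 * β ^ 2 * N ^ 4 * R := by gcongr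
  have h6 : (m + b / m) / 2 ≤ (N ^ 4 + 4 * β ^ 2 * N ^ 4 * R) / l := by
    refine le_trans ?_ (le_div_self (by positivity) hl hl1)
    have : 0 ≤ b / m := by positivity
    linarith
  have h7 : a / l ≤ 4 * β ^ 2 * N ^ 4 * R / l :=
    div_le_div_of_nonneg_right (ha'.trans (le_of_eq (by ring))) hl.le
  have h8 := mul_le_mul_of_nonneg_left (add_le_add h7 h6) (by positivity : 0 ≤ 2 * N * r)
  have e1 : 2 * N * r * (4 * β ^ 2 * N ^ 4 * R / l + (N ^ 4 + 4 * β ^ 2 * N ^ 4 * R) / l)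
      = 2 * N ^ 5 / l * (r + 8 * β ^ 2 * (r * R)) := by ring
  have e2 : a * q / l + q * (m + b / m) / 2 = q * (a / l + (m + b / m) / 2) := by ring
  have e3 : (2 * K / s + 2 * N * r) * (a / l + (m + b / m) / 2)
      = 2 * K / s / l * a + (K / s * m + K / s / m * b)
        + 2 * N * r * (a / l + (m + b / m) / 2) := by ring
  linarith

end AvbdAux

open AvbdAux in
theorem avbd (h_dG : S_dG) (h_gfacts : S_gfacts) (h_gcont : S_gcont) (h_rot : S_rot)
    (h_gq : S_gq) (h_good : S_good) (h_comp : S_comp) (h_momeg : S_momeg) (h_mom : S_mom) :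
    S_avbd := by
  intro β k
  obtain ⟨C, hC, hmom⟩ := h_mom β (k + 1)
  refine ⟨2 * C * (1 + 8 * β ^ 2), by positivity,
    fun n τ η u θ l m K P dP hn hτ0 hτ1 hη hu hl hl1 hm hmn hK hP => ?_⟩
  obtain ⟨hB, -, hB3⟩ := h_good n β τ hn hτ0 hτ1.le
  have hη0 : 0 < η := by linarith
  have hK0 : 0 < K := by linarith
  have hm0 : 0 < m := by linarith
  have hs : 1 ≤ η + u := by linarith
  have hδ : 0 < 1 - τ ^ 2 := by nlinarith
  have hn1 : (1 : ℝ) ≤ n := by exact_mod_cast hn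
  have hKk : 0 < K ^ k := pow_pos hK0 k
  let G : (Edge n → ℝ) → Matrix (Fin n) (Fin n) ℝ := fun x => Gu (sh (Bm β τ x) η) (P x) u
  have hf := fun x => h_gfacts (Fin n) (Bm β τ x) (P x) η u (hB.psd x) (hP.psd x) hη0 hu
  have hG : ∀ j k, EG fun x => G x j k := fun j k =>
    ((h_gcont (Edge n → ℝ) (Fin n) (Bm β τ) P η (fun j k => (hB.c1 j k).eg)
      (fun j k => (hP.c1 j k).eg) hB.psd hη0).1 j k).sec_right u
  let cB : Edge n → Edge n → (Edge n → ℝ) → ℝ := fun e e' x =>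
    (G x * (dB β τ e x * dB β τ e' x)).trace
  let cP : Edge n → Edge n → (Edge n → ℝ) → ℝ := fun e e' x =>
    ((1 : Matrix (Fin n) (Fin n) ℝ) * (dP e x * dP e' x)).trace
  have hcB : ∀ e e', EG (cB e e') := fun e e' =>
    eg_tr hG (fun j k => (hB.c1 j k).egD e) fun j k => (hB.c1 j k).egD e'
  have hcP : ∀ e e', EG (cP e e') := fun e e' =>
    eg_tr (G := fun _ => 1) (fun j k => EG.const _) (fun j k => (hP.c1 j k).egD e)
      fun j k => (hP.c1 j k).egD e'
  have key : ∀ i : Fin n, |∫ p : (Edge n → ℝ) × (Edge n → ℝ),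
      qf (dG (sh (Bm β τ p.1) η) (P p.1) u (∑ e ∈ row i, p.2 e • dB β τ e p.1)
        (∑ e ∈ row i, p.2 e • dP e p.1)) (wv β τ i θ p.1 p.2)
      ∂(gam (Edge n)).prod (gam (Edge n))| ≤
      l * (∫ p : (Edge n → ℝ) × (Edge n → ℝ), qf (G p.1) (wv β τ i θ p.1 p.2)
        ∂(gam (Edge n)).prod (gam (Edge n)))
      + 2 * K / (η + u) / l * (∑ e ∈ row i, ∫ x, cB e e x ∂gam (Edge n))
      + (K / (η + u) * m + K / (η + u) / m * ∑ e ∈ row i, ∫ x, cP e e x ∂gam (Edge n))
      + 2 * C * (1 + 8 * β ^ 2) * n ^ 6 / (l * K ^ k) := by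
    intro i
    obtain ⟨-, hPm, hPm0⟩ := h_momeg n β τ θ (k + 1) i hτ0 hτ1.le
    obtain ⟨hm1, hm2⟩ := hmom n τ θ i hτ0 hτ1.le
    have e1 : EG fun p : (Edge n → ℝ) × (Edge n → ℝ) => qf (G p.1) (wv β τ i θ p.1 p.2) :=
      eg_qf (fun j k => (hG j k).fst) fun j =>
        (h_rot (Edge n) _ (Bf β τ i j) _ (row i) θ (hB.c1 i j) (hB.c1 i j).eg).1
    have eq : ∀ {c : Edge n → Edge n → (Edge n → ℝ) → ℝ}, (∀ e e', EG (c e e')) →
        EG fun p : (Edge n → ℝ) × (Edge n → ℝ) =>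
          ∑ e ∈ row i, ∑ e' ∈ row i, c e e' p.1 * (p.2 e * p.2 e') := fun hc =>
      EG.sum _ fun e _ => EG.sum _ fun e' _ =>
        (hc e e').fst.mul ((EG.coord e).snd.mul (EG.coord e').snd)
    have e4 : ∀ e, EG fun p : (Edge n → ℝ) × (Edge n → ℝ) =>
        Pm β τ (k + 1) i θ p.1 p.2 * p.2 e ^ 2 := fun e => hPm.mul (EG.coord e).snd.sq
    have e5 := EG.sum (row i) fun e _ => e4 e
    have i1 := (e1.const_mul l).intg2
    have i2 := ((eq hcB).const_mul (2 * K / (η + u) / l)).intg2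
    have i3 := (EG.const (X := (Edge n → ℝ) × (Edge n → ℝ)) (K / (η + u) * m)).intg2
    have i4 := ((eq hcP).const_mul (K / (η + u) / m)).intg2
    have i5 := ((hPm.add (e5.const_mul (8 * β ^ 2))).const_mul (2 * n ^ 5 / (l * K ^ k))).intg2
    refine (abs_integral_le_integral_abs.trans (integral_mono_of_nonneg
      (ae_of_all _ fun _ => abs_nonneg _) (((i1.add i2).add (i3.add i4)).add i5)
      (ae_of_all _ fun p => ?_))).trans ?_
    · obtain ⟨x, y⟩ := p
      obtain ⟨f1, f2, -, f4, -, -, f7⟩ := hf x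
      have hX := sym_sum (row i) y fun e => hB.sym e x
      have hY := sym_sum (row i) y fun e => hP.sym e x
      have hA : (sh (Bm β τ x) η).PosDef :=
        PosDef.posSemidef_add (hB.psd x) (PosDef.one.smul hη0)
      have h1 := h_dG (Fin n) _ (P x) _ _ u l m (wv β τ i θ x y) hA (hP.psd x) hX hY hl hm0
      have h2 := h_comp n β τ η K θ k i x y hτ0 hτ1.le hη0 hK0
      have hp := hPm0 x y
      have h3 : qf (Qm (sh (Bm β τ x) η) u) (wv β τ i θ x y) ≤
          2 * K / (η + u) + 2 * n * (Pm β τ (k + 1) i θ x y / K ^ k) := by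
        refine (f4 _).trans ((mul_le_mul_of_nonneg_left h2 (by positivity)).trans ?_)
        have h4 : 2 / (η + u) * (n / η) ≤ 2 * n :=
          mul_le_mul (div_le_self zero_le_two hs) (div_le_self (by positivity) hη)
            (by positivity) zero_le_two
        have h5 := mul_le_mul_of_nonneg_right h4 (div_nonneg hp hKk.le)
        refine le_of_eq_of_le ?_ (add_le_add le_rfl h5)
        ring
      have h6 : (G x).trace ≤ n := by
        refine f7.trans ?_
        rw [hP.tr]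
        exact div_le_self (by positivity) (one_le_pow₀ hη)
      have h7 := fro_le (row i) (card_row i) y fun e => hB.bd e x
      have h8 := real_pt (β := β) h1 (PertAux.trace_mul_nonneg f1 (sq_psd hX))
        (PertAux.fro_nonneg _) hl hl1 hm hmn (div_nonneg hp hKk.le)
        (Finset.sum_nonneg fun _ _ => sq_nonneg _) h3
        ((tr_sq_le f1 hX).trans (mul_le_mul h6 h7 (PertAux.fro_nonneg _) (by positivity)))
        (fro_le (row i) (card_row i) y fun e => hP.bd e x)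
      rw [tr_expand, fro_eq hY, tr_expand] at h8
      refine h8.trans (le_of_eq ?_)
      simp only [Pi.add_apply, ← Finset.mul_sum, G, cB, cP]
      ring
    · rw [integral_add' ((i1.add i2).add (i3.add i4)) i5, integral_add' (i1.add i2) (i3.add i4),
        integral_add' i1 i2, integral_add' i3 i4, integral_const_mul, integral_const_mul,
        integral_const_mul (K / (η + u) / m), integral_const_mul (2 * n ^ 5 / (l * K ^ k)),
        h_gq _ _ _ hcB, h_gq _ _ _ hcP, integral_add hPm.intg2 (e5.const_mul _).intg2,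
        integral_const_mul (8 * β ^ 2), integral_finsetSum _ fun e _ => (e4 e).intg2]
      have h1 : ∑ e ∈ row i, ∫ p : (Edge n → ℝ) × (Edge n → ℝ),
          Pm β τ (k + 1) i θ p.1 p.2 * p.2 e ^ 2 ∂(gam (Edge n)).prod (gam (Edge n)) ≤ n * C := by
        refine (Finset.sum_le_card_nsmul _ _ C fun e _ => hm2 e).trans ?_
        rw [nsmul_eq_mul]
        exact mul_le_mul_of_nonneg_right (card_row i) hC
      have h2 := mul_le_mul_of_nonneg_left h1 (by positivity : 0 ≤ 8 * β ^ 2)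
      have h3 : C ≤ n * C := le_mul_of_one_le_left hC hn1
      have h4 := mul_le_mul_of_nonneg_left (add_le_add (hm1.trans h3) h2)
        (by positivity : 0 ≤ 2 * (n : ℝ) ^ 5 / (l * K ^ k))
      have e6 : 2 * (n : ℝ) ^ 5 / (l * K ^ k) * (n * C + 8 * β ^ 2 * (n * C))
          = 2 * C * (1 + 8 * β ^ 2) * n ^ 6 / (l * K ^ k) := by ring
      simp only [integral_const, probReal_univ, one_smul]
      linarith
  have hsum : ∀ {c : Edge n → Edge n → (Edge n → ℝ) → ℝ} {b : ℝ}, (∀ e e', EG (c e e')) →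
      (∀ x, (1 - τ ^ 2) * ∑ e, c e e x ≤ b) →
      ∑ i : Fin n, ∑ e ∈ row i, ∫ x, c e e x ∂gam (Edge n) ≤ 2 * (b / (1 - τ ^ 2)) := by
    intro c b hc hb
    rw [(comb n).2.1, ← integral_finsetSum _ fun e _ => (hc e e).intg]
    refine mul_le_mul_of_nonneg_left ?_ zero_le_two
    refine (integral_mono (EG.sum _ fun e _ => hc e e).intg (EG.const (b / (1 - τ ^ 2))).intg
      fun x => (le_div_iff₀' hδ).2 (hb x)).trans (le_of_eq ?_)
    simp
  have s1 := hsum hcB (b := n * (2 / (η + u) * n)) fun x =>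
    (hB3 x (G x) (hf x).1).trans (mul_le_mul_of_nonneg_left
      ((hf x).2.2.2.2.1.trans (le_of_eq (by rw [hP.tr]))) (by positivity))
  have s2 := hsum hcP (b := (n : ℝ) ^ 2) fun x => by
    simpa only [cP, ← fro_eq (hP.sym _ x)] using hP.bes x
  refine (Finset.abs_sum_le_sum_abs _ _).trans ((Finset.sum_le_sum fun i _ => key i).trans ?_)
  simp only [Finset.sum_add_distrib, ← Finset.mul_sum, Finset.sum_const, Finset.card_univ,
    Fintype.card_fin, nsmul_eq_mul]
  have t1 := mul_le_mul_of_nonneg_left s1 (by positivity : 0 ≤ 2 * K / (η + u) / l)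
  have t2 := mul_le_mul_of_nonneg_left s2 (by positivity : 0 ≤ K / (η + u) / m)
  have u1 : 2 * K / (η + u) / l * (2 * (n * (2 / (η + u) * n) / (1 - τ ^ 2)))
      = 8 * K * n ^ 2 / ((1 - τ ^ 2) * l * (η + u) ^ 2) := by field_simp; ring
  have u2 : K / (η + u) * (n * m + 2 * n ^ 2 / ((1 - τ ^ 2) * m))
      = n * (K / (η + u) * m) + K / (η + u) / m * (2 * (n ^ 2 / (1 - τ ^ 2))) := by
    field_simp
  have u3 : 2 * C * (1 + 8 * β ^ 2) * n ^ 7 / (l * K ^ k)
      = n * (2 * C * (1 + 8 * β ^ 2) * n ^ 6 / (l * K ^ k)) := by ring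
  rw [u2, u3, ← u1]
  unfold av
  linarith

end Vale.Agent.P146
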