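import Vale.Agent.P146.Defs2

/-! # P146: pointwise Bessel inequality and the properties of the smoothed two-point matrix -/

namespace Vale.Agent.P146

open MeasureTheory ProbabilityTheory Matrix

namespace BesselAux

section
variable {ι : Type} [Fintype ι]

theorem coord_int [DecidableEq ι] (e e' : ι) :
    ∫ y, y e * y e' ∂gam ι = if e = e' then 1 else 0 := by
  have h : C1 (fun y : ι → ℝ => y e') fun a _ => if a = e' then 1 else 0 :=
    ⟨EG.coord e', fun _ => EG.const _, fun x =>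
      (C1Aux.pr e').hasFDerivAt.congr_fderiv (by simp [ite_smul])⟩
  rw [stein ι _ _ e h]
  simp

theorem c1_left {f : (ι → ℝ) → ℝ} {D : ι → (ι → ℝ) → ℝ} (hf : C1 f D) {r : ℝ} (h0 : 0 ≤ r)
    (h1 : r ≤ 1) (z : ι → ℝ) :
    C1 (fun x => f (nz (fun _ => r) x z)) fun e x => r * D e (nz (fun _ => r) x z) := by
  refine ⟨(hf.eg.nz (u01_const h0 h1)).sec_left z,
    fun e => (((hf.egD e).nz (u01_const h0 h1)).sec_left z).const_mul _, fun x => ?_⟩
  refine ((hf.der _).comp x (C1Aux.der_nz_left r x z)).congr_fderiv ?_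
  ext v
  simp only [ContinuousLinearMap.comp_apply, _root_.sum_apply,
    _root_.smul_apply, ContinuousLinearMap.proj_apply, ContinuousLinearMap.id_apply,
    Pi.smul_apply, smul_eq_mul]
  exact Finset.sum_congr rfl fun e _ => by ring

theorem T_le {f g : (ι → ℝ) → ℝ} (hf : EG f) (hg : EG g) {a : ι → ℝ} (ha : U01 a)
    (h : ∀ y, f y ≤ g y) (x : ι → ℝ) : T a f x ≤ T a g x :=
  integral_mono ((hf.nz ha).sec_right x).intg ((hg.nz ha).sec_right x).intg fun _ => h _

end

variable {n : ℕ}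

theorem abs_gb (β : ℝ) (g : Edge n → ℝ) {φ : (Fin n → Bool) → ℝ} (h : ∀ σ, |φ σ| ≤ 1) :
    |gb β g φ| ≤ 1 := by
  rw [gb, abs_div, abs_of_pos (SKAux.Z_pos β g), div_le_one (SKAux.Z_pos β g)]
  refine (Finset.abs_sum_le_sum_abs _ _).trans (Finset.sum_le_sum fun σ _ => ?_)
  rw [abs_mul, abs_of_pos (Real.exp_pos _)]
  exact mul_le_of_le_one_left (Real.exp_pos _).le (h σ)

theorem abs_DM (hn : 1 ≤ n) (β : ℝ) (j k : Fin n) (e : Edge n) (g : Edge n → ℝ) :
    |DM β j k e g| ≤ 2 * |β| := by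
  have h1 := abs_gb β g (φ := fun σ => spin (σ j) * spin (σ k) * (spin (σ e.1.1) * spin (σ e.1.2)))
    fun σ => by simp only [abs_mul, SKAux.abs_spin, mul_one, le_refl]
  have h2 : |M β j k g * M β e.1.1 e.1.2 g| ≤ 1 := by
    rw [abs_mul]
    exact mul_le_one₀ ((mfacts n β).1 _ _ g) (abs_nonneg _) ((mfacts n β).1 _ _ g)
  have h3 : |β / √(n : ℝ)| ≤ |β| := by
    rw [abs_div, abs_of_nonneg (Real.sqrt_nonneg _)]
    exact div_le_self (abs_nonneg _) (Real.one_le_sqrt.2 (by exact_mod_cast hn))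
  rw [DM, abs_mul, mul_comm]
  exact mul_le_mul ((abs_sub _ _).trans (by linarith)) h3 (abs_nonneg _) (by norm_num)

theorem DM_symm (β : ℝ) (j k : Fin n) (e : Edge n) : DM β j k e = DM β k j e := by
  funext g
  simp only [DM, (mfacts n β).2.1 j k, mul_comm (spin (_ : Bool)) (spin _)]

theorem row_sq (β : ℝ) (r : Fin n → ℝ) (j : Fin n) (g : Edge n → ℝ) :
    (∑ k, r k * M β k j g) ^ 2 ≤ ∑ k, ∑ k', r k * r k' * M β k k' g := by
  obtain ⟨-, h2, h3, h4, -⟩ := mfacts n β
  obtain ⟨t, ht⟩ : ∃ t, t = ∑ k, r k * M β k j g := ⟨_, rfl⟩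
  have h := h4 (fun k => r k - if k = j then t else 0) g
  have e : ∀ k k', (r k - if k = j then t else 0) * (r k' - if k' = j then t else 0) * M β k k' g
      = r k * r k' * M β k k' g - (if k' = j then t * (r k * M β k j g) else 0)
        - (if k = j then t * (r k' * M β k' j g) else 0)
        + if k = j then (if k' = j then t ^ 2 else 0) else 0 := fun k k' => by
    split_ifs with a b b
    · rw [a, b, h3]; ring
    · rw [a, h2 j k']; ring
    · rw [b]; ring
    · ring
  simp only [e, Finset.sum_add_distrib, Finset.sum_sub_distrib, Finset.sum_ite_eq',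
    Finset.mem_univ, if_true, Finset.sum_ite_irrel, Finset.sum_const_zero, ← Finset.mul_sum,
    ← ht] at h
  rw [← ht]
  linarith

end BesselAux

open BesselAux

theorem bessel : S_bessel := by
  intro ι _ f D τ x hf h0 h1
  classical
  have hφ := InterpAux.c1_nz hf h0 h1 x
  obtain ⟨c, hc⟩ : ∃ c : ι → ℝ, ∀ e, c e = √(1 - τ ^ 2) * T (fun _ => τ) (D e) x :=
    ⟨_, fun _ => rfl⟩
  have hs : ∀ e, ∫ y, y e * f (nz (fun _ => τ) x y) ∂gam ι = c e := fun e => by
    rw [stein ι _ _ e hφ, integral_const_mul, hc, T]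
  have e1 : ∑ e, c e ^ 2 = (1 - τ ^ 2) * ∑ e, T (fun _ => τ) (D e) x ^ 2 := by
    rw [Finset.mul_sum]
    exact Finset.sum_congr rfl fun e _ => by
      rw [hc, mul_pow, Real.sq_sqrt (by nlinarith)]
  rw [← e1, T]
  have g1 : ∀ e, EG fun y => c e * (y e * f (nz (fun _ => τ) x y)) := fun e =>
    ((EG.coord e).mul hφ.eg).const_mul _
  have g2 : ∀ e e', EG fun y : ι → ℝ => c e * c e' * (y e * y e') := fun e e' =>
    ((EG.coord e).mul (EG.coord e')).const_mul _
  have i1 : ∫ y, ∑ e, c e * (y e * f (nz (fun _ => τ) x y)) ∂gam ι = ∑ e, c e ^ 2 := by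
    rw [integral_finsetSum _ fun e _ => (g1 e).intg]
    exact Finset.sum_congr rfl fun e _ => by rw [integral_const_mul, hs, sq]
  have i2 : ∫ y, ∑ e, ∑ e', c e * c e' * (y e * y e') ∂gam ι = ∑ e, c e ^ 2 := by
    rw [integral_finsetSum _ fun e _ => (EG.sum _ fun e' _ => g2 e e').intg]
    refine Finset.sum_congr rfl fun e _ => ?_
    rw [integral_finsetSum _ fun e' _ => (g2 e e').intg]
    simp only [integral_const_mul, coord_int, mul_ite, mul_one, mul_zero, Finset.sum_ite_eq,
      Finset.mem_univ, if_true, sq]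
  have k1 := EG.sum Finset.univ fun e _ => g1 e
  have k2 := EG.sum Finset.univ fun e _ => EG.sum Finset.univ fun e' _ => g2 e e'
  have hm := integral_mono (k1.const_mul 2).intg (hφ.eg.sq.add k2).intg fun y => by
    have e2 : ∑ e, c e * (y e * f (nz (fun _ => τ) x y)) =
        (∑ e, c e * y e) * f (nz (fun _ => τ) x y) := by
      rw [Finset.sum_mul]; exact Finset.sum_congr rfl fun e _ => by ring
    have e3 : ∑ e, ∑ e', c e * c e' * (y e * y e') = (∑ e, c e * y e) ^ 2 := by
      rw [sq, Finset.sum_mul_sum]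
      exact Finset.sum_congr rfl fun e _ => Finset.sum_congr rfl fun e' _ => by ring
    simp only [e2, e3]
    nlinarith [sq_nonneg (f (nz (fun _ => τ) x y) - ∑ e, c e * y e)]
  rw [integral_const_mul, integral_add hφ.eg.sq.intg k2.intg, i1, i2] at hm
  linarith

theorem gq : S_gq := by
  intro ι _ I c hc
  classical
  have g : ∀ e e', EG fun p : (ι → ℝ) × (ι → ℝ) => c e e' p.1 * (p.2 e * p.2 e') := fun e e' =>
    (hc e e').fst.mul ((EG.coord e).mul (EG.coord e')).snd
  rw [integral_finsetSum _ fun e _ => (EG.sum _ fun e' _ => g e e').intg2]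
  refine Finset.sum_congr rfl fun e he => ?_
  rw [integral_finsetSum _ fun e' _ => (g e e').intg2]
  have h : ∀ e', ∫ p : (ι → ℝ) × (ι → ℝ), c e e' p.1 * (p.2 e * p.2 e') ∂(gam ι).prod (gam ι) =
      if e = e' then ∫ x, c e e' x ∂gam ι else 0 := fun e' => by
    rw [integral_prod_mul (c e e') fun y : ι → ℝ => y e * y e', coord_int, mul_ite, mul_one,
      mul_zero]
  simp only [h, Finset.sum_ite_eq, he, if_true]

open scoped MatrixOrder in
theorem good (h_bessel : S_bessel) : S_good := by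
  intro n β τ hn h0 h1
  have hu : U01 fun _ : Edge n => τ := u01_const h0 h1
  have hM := (mc1 n β).1
  have hδ : 0 ≤ 1 - τ ^ 2 := by nlinarith
  have hτ : ∀ t : ℝ, (τ * t) ^ 2 ≤ t ^ 2 := fun t => by nlinarith [mul_nonneg hδ (sq_nonneg t)]
  have hsym : ∀ (e : Edge n) x j k, dB β τ e x j k = dB β τ e x k j := fun e x j k => by
    simp only [dB, of_apply, DM_symm β j k]
  have G1 : Good n β (1 - τ ^ 2) (Bm β τ) (dB β τ) := by
    refine ⟨fun j k => c1T _ _ _ τ (hM j k) h0 h1, (a_B n β τ h0 h1).2.2.2.1, fun x => ?_,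
      fun e x => Matrix.ext fun j k => hsym e x k j, fun x => ?_, fun e x j k => ?_⟩
    · simp [Matrix.trace, Bm, (a_B n β τ h0 h1).2.2.1]
    · have h : ∀ j k, (1 - τ ^ 2) * ∑ e, dB β τ e x j k ^ 2 ≤ 1 := fun j k => by
        refine (mul_le_mul_of_nonneg_left (Finset.sum_le_sum fun e _ => hτ _) hδ).trans
          ((h_bessel _ _ _ τ x (hM j k) h0 h1).trans ((le_abs_self _).trans
            (abs_T_le (fun y => ?_) _ _)))
        rw [abs_pow]
        exact pow_le_one₀ (abs_nonneg _) ((mfacts n β).1 j k y)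
      calc _ = ∑ j, ∑ k, (1 - τ ^ 2) * ∑ e, dB β τ e x j k ^ 2 := by
            simp only [fro, ← Finset.mul_sum]
            rw [Finset.sum_comm]
            congr 1
            exact Finset.sum_congr rfl fun j _ => Finset.sum_comm
        _ ≤ ∑ _j : Fin n, ∑ _k : Fin n, (1 : ℝ) :=
            Finset.sum_le_sum fun j _ => Finset.sum_le_sum fun k _ => h j k
        _ = _ := by simp [sq]
    · rw [dB, of_apply, abs_mul, abs_of_nonneg h0]
      exact (mul_le_of_le_one_left (abs_nonneg _) h1).trans (abs_T_le (abs_DM hn β j k e) _ _)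
  refine ⟨G1, fun ρ z r0 r1 => ⟨fun j k => c1_left (G1.c1 j k) r0 r1 z, fun x => G1.psd _,
    fun x => G1.tr _, fun e x => by rw [transpose_smul, G1.sym], fun x => ?_, fun e x j k => ?_⟩,
    fun x G hG => ?_⟩
  · refine (mul_le_mul_of_nonneg_left (Finset.sum_le_sum fun e _ => ?_) hδ).trans
      (G1.bes (nz (fun _ => ρ) x z))
    refine Finset.sum_le_sum fun j _ => Finset.sum_le_sum fun k _ => ?_
    rw [Matrix.smul_apply, smul_eq_mul, mul_pow]
    exact mul_le_of_le_one_left (sq_nonneg _) (pow_le_one₀ r0 r1)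
  · rw [Matrix.smul_apply, smul_eq_mul, abs_mul, abs_of_nonneg r0]
    exact (mul_le_of_le_one_left (abs_nonneg _) r1).trans (G1.bd _ _ _ _)
  obtain ⟨S, rfl⟩ := CStarAlgebra.nonneg_iff_eq_star_mul_self.1 hG.nonneg
  have t1 : ∀ e, (star S * S * (dB β τ e x * dB β τ e x)).trace =
      ∑ a, ∑ j, (∑ k, S a k * dB β τ e x k j) ^ 2 := fun e => by
    rw [Matrix.mul_assoc, Matrix.trace_mul_comm, ← Matrix.mul_assoc S, Matrix.mul_assoc]
    refine Finset.sum_congr rfl fun a _ => ?_
    rw [diag_apply, mul_apply]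
    refine Finset.sum_congr rfl fun j _ => ?_
    rw [sq, mul_apply, mul_apply]
    congr 1
    exact Finset.sum_congr rfl fun k _ => by
      rw [star_apply, star_trivial, hsym e x j k, mul_comm]
  have t2 : (star S * S * Bm β τ x).trace = ∑ a, ∑ k, ∑ k', S a k * S a k' * Bm β τ x k k' := by
    rw [Matrix.mul_assoc, Matrix.trace_mul_comm]
    refine Finset.sum_congr rfl fun a _ => ?_
    rw [diag_apply, mul_apply, Finset.sum_comm]
    refine Finset.sum_congr rfl fun k' _ => ?_
    rw [mul_apply, Finset.sum_mul, star_apply, star_trivial]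
    exact Finset.sum_congr rfl fun k _ => by ring
  have gq' : ∀ a, EG fun y => ∑ k, ∑ k', S a k * S a k' * M β k k' y := fun a =>
    EG.sum _ fun k _ => EG.sum _ fun k' _ => (hM k k').eg.const_mul _
  have h : ∀ a j, (1 - τ ^ 2) * ∑ e, (∑ k, S a k * dB β τ e x k j) ^ 2 ≤
      ∑ k, ∑ k', S a k * S a k' * Bm β τ x k k' := fun a j => by
    have hc := c1lin _ _ Finset.univ (S a) 0 (fun k => M β k j) (fun k => DM β k j)
      fun k _ => hM k j
    have b1 := h_bessel _ _ _ τ x hc h0 h1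
    have b2 := T_le hc.eg.sq (gq' a) hu (fun y => by rw [sub_zero]; exact row_sq β (S a) j y) x
    rw [T_sum _ (fun k _ => EG.sum _ fun k' _ => (hM k k').eg.const_mul _) hu] at b2
    simp only [T_sum _ (fun k' _ => (hM _ k').eg.const_mul _) hu, T_const_mul] at b2
    refine (mul_le_mul_of_nonneg_left (Finset.sum_le_sum fun e _ => ?_) hδ).trans (b1.trans b2)
    rw [T_sum _ (fun k _ => ((hM k j).egD e).const_mul _) hu]
    refine le_trans (le_of_eq ?_) (hτ _)
    congr 1
    rw [Finset.mul_sum]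
    exact Finset.sum_congr rfl fun k _ => by rw [T_const_mul, dB, of_apply]; ring
  calc _ = ∑ a, ∑ j, (1 - τ ^ 2) * ∑ e, (∑ k, S a k * dB β τ e x k j) ^ 2 := by
        simp only [t1, ← Finset.mul_sum]
        rw [Finset.sum_comm]
        congr 1
        exact Finset.sum_congr rfl fun a _ => Finset.sum_comm
    _ ≤ ∑ a, ∑ _j : Fin n, ∑ k, ∑ k', S a k * S a k' * Bm β τ x k k' :=
        Finset.sum_le_sum fun a _ => Finset.sum_le_sum fun j _ => h a j
    _ = _ := by
        rw [t2, Finset.mul_sum]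
        exact Finset.sum_congr rfl fun a _ => by
          rw [Finset.sum_const, Finset.card_univ, Fintype.card_fin, nsmul_eq_mul]

end Vale.Agent.P146
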