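import Vale.Agent.P146.Defs2

/-! # P146: the final calculus step, second round -/

namespace Vale.Agent.P146

open MeasureTheory

namespace Calc2Aux

theorem num {v w ρ L F : ℝ} (hv : 1 ≤ v) (hw : 0 < w) (hw1 : w ≤ 1) (hL : 0 ≤ L)
    (h1 : ρ ≤ 1) (hδw : w ^ 2 / 2 ≤ 1 - ρ) (hF : 0 ≤ F)
    (h : F ≤ v ^ 6 + ρ * (F + L * (v ^ 6 * √(v ^ 6 / (1 - ρ))))) :
    F ≤ 4 * (1 + L) * v ^ 9 / w ^ 3 := by
  have v0 : 0 < v := by linarith
  have d0 : 0 < 1 - ρ := lt_of_lt_of_le (by positivity) hδw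
  have a1 : √(v ^ 6 / (1 - ρ)) ≤ 2 * v ^ 3 / w := by
    refine Real.sqrt_le_iff.2 ⟨by positivity, ?_⟩
    rw [div_pow, div_le_div_iff₀ d0 (by positivity)]
    have : 0 < v ^ 6 := by positivity
    nlinarith
  obtain ⟨X, hX⟩ : ∃ X, X = L * (v ^ 6 * √(v ^ 6 / (1 - ρ))) := ⟨_, rfl⟩
  have X0 : 0 ≤ X := by rw [hX]; positivity
  rw [← hX] at h
  have a2 : X ≤ 2 * L * (v ^ 9 / w) := by
    rw [hX]
    refine (mul_le_mul_of_nonneg_left (mul_le_mul_of_nonneg_left a1 (by positivity)) hL).trans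
      (le_of_eq ?_)
    ring
  have a3 : v ^ 6 ≤ v ^ 9 / w := by
    rw [le_div_iff₀ hw]
    exact (mul_le_of_le_one_right (by positivity) hw1).trans (pow_le_pow_right₀ hv (by norm_num))
  have a4 : 0 < v ^ 9 / w := by positivity
  have a5 : (1 - ρ) * F ≤ 2 * (1 + L) * (v ^ 9 / w) := by
    have := mul_le_of_le_one_left X0 h1
    nlinarith
  have a6 := (mul_le_mul_of_nonneg_right hδw hF).trans a5
  rw [← mul_div_assoc, le_div_iff₀ hw] at a6
  rw [le_div_iff₀ (by positivity)]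
  linarith

end Calc2Aux

theorem calc2 : S_calc2 := by
  refine ⟨9, by norm_num, fun N L Φ hN hL hc hb h => ?_⟩
  have N0 : 0 < N := by linarith
  obtain ⟨v, hv⟩ : ∃ v : ℝ, v = N ^ (1 / 6 : ℝ) := ⟨_, rfl⟩
  have v1 : 1 ≤ v := by rw [hv]; exact Real.one_le_rpow hN (by norm_num)
  have v0 : 0 < v := by linarith
  have e1 : v ^ 6 = N := by
    rw [hv, ← Real.rpow_natCast, ← Real.rpow_mul N0.le]
    norm_num
  have e2 : N ^ (5 / 3 : ℝ) = v ^ 10 := by
    rw [hv, ← Real.rpow_natCast, ← Real.rpow_mul N0.le]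
    norm_num
  have e5 : 0 < v ^ 10 := by positivity
  have e7 : 0 ≤ L * v ^ 10 := by positivity
  rcases lt_or_ge (v ^ 4) 2 with hv4 | hv4
  · have i0 : IntervalIntegrable Φ volume 0 1 :=
      (hc.mono (by rw [Set.uIcc_of_le zero_le_one])).intervalIntegrable
    have b := intervalIntegral.integral_mono_on zero_le_one i0
      (intervalIntegrable_const (c := N ^ 2)) fun r hr => (hb r hr.1 hr.2).2
    rw [intervalIntegral.integral_const, sub_zero, smul_eq_mul, one_mul, ← e1] at b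
    have a1 : v ^ 2 ≤ v ^ 4 := pow_le_pow_right₀ v1 (by norm_num)
    rw [e2]
    nlinarith
  obtain ⟨t, ht⟩ : ∃ t : ℝ, t = (v ^ 2)⁻¹ := ⟨_, rfl⟩
  have t0 : 0 < t := by rw [ht]; positivity
  have t1 : t ≤ 1 := by rw [ht]; exact inv_le_one_of_one_le₀ (one_le_pow₀ v1)
  have e3 : t ^ (-1 / 2 : ℝ) = v := by
    rw [ht, ← Real.rpow_natCast, ← Real.rpow_neg v0.le, ← Real.rpow_mul v0.le]
    norm_num
  have tN : 1 / N ≤ t / 2 := by
    rw [ht, ← e1, div_le_div_iff₀ (by positivity) two_pos]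
    have : (v ^ 2)⁻¹ * v ^ 6 = v ^ 4 := by field_simp
    linarith
  have key : ∀ r ∈ Set.Icc 0 (1 - t),
      Φ r ≤ 4 * (1 + L) * v ^ 9 * (1 - r) ^ (-3 / 2 : ℝ) := by
    intro r hr
    obtain ⟨r0, r1⟩ := hr
    have s0 : 0 < 1 - r := by linarith
    obtain ⟨w, hw⟩ : ∃ w : ℝ, w = (1 - r) ^ (1 / 2 : ℝ) := ⟨_, rfl⟩
    have w0 : 0 < w := by rw [hw]; exact Real.rpow_pos_of_pos s0 _
    have w4 : w ^ 2 = 1 - r := by
      rw [hw, ← Real.rpow_natCast, ← Real.rpow_mul s0.le]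
      norm_num
    have w5 : (1 - r) ^ (-3 / 2 : ℝ) = (w ^ 3)⁻¹ := by
      rw [hw, ← Real.rpow_natCast, ← Real.rpow_mul s0.le, ← Real.rpow_neg s0.le]
      norm_num
    have w1 : w ≤ 1 := by rw [hw]; exact Real.rpow_le_one s0.le (by linarith) (by norm_num)
    have q0 := Real.sqrt_nonneg r
    have q1 : √r < 1 := by rw [Real.sqrt_lt' one_pos]; linarith
    have q2 := Real.mul_self_sqrt r0
    have q3 := Real.sq_sqrt q0
    have q4 : (1 - r) / 2 ≤ 1 - √r := by nlinarith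
    have h1 := h (√(√r)) (√r) (Real.sqrt_nonneg _) (by rw [q3]; linarith) q0 q1.le
    rw [q3, q2, ← e1] at h1
    rw [w5, ← div_eq_mul_inv]
    exact Calc2Aux.num v1 w0 w1 hL q1.le (by rw [w4]; exact q4) (hb r r0 (by linarith)).1 h1
  have i1 : IntervalIntegrable Φ volume 0 (1 - t) := (hc.mono (by
    rw [Set.uIcc_of_le (by linarith)]
    exact Set.Icc_subset_Icc_right (by linarith))).intervalIntegrable
  have i2 : IntervalIntegrable Φ volume (1 - t) 1 := (hc.mono (by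
    rw [Set.uIcc_of_le (by linarith)]
    exact Set.Icc_subset_Icc_left (by linarith))).intervalIntegrable
  have i3 : IntervalIntegrable (fun r : ℝ => 4 * (1 + L) * v ^ 9 * (1 - r) ^ (-3 / 2 : ℝ)) volume 0
      (1 - t) := by
    refine ContinuousOn.intervalIntegrable (continuousOn_const.mul
      ((continuousOn_const.sub continuousOn_id).rpow_const fun r hr => Or.inl ?_))
    rw [Set.uIcc_of_le (by linarith)] at hr
    exact ne_of_gt (show 0 < 1 - r by linarith [hr.2])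
  have b1 := intervalIntegral.integral_mono_on (by linarith) i1 i3 key
  have b2 := intervalIntegral.integral_mono_on (by linarith) i2
    (intervalIntegrable_const (c := N ^ 2)) fun r hr => (hb r (by linarith [hr.1]) hr.2).2
  rw [intervalIntegral.integral_const_mul,
    intervalIntegral.integral_comp_sub_left (fun s : ℝ => s ^ (-3 / 2 : ℝ)) 1, sub_sub_cancel,
    sub_zero, integral_rpow (Or.inr ⟨by norm_num, by
      rw [Set.uIcc_of_le t1]
      exact fun h0 => absurd h0.1 (not_le.2 t0)⟩), Real.one_rpow,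
    show (-3 / 2 + 1 : ℝ) = -1 / 2 by norm_num, e3] at b1
  rw [intervalIntegral.integral_const, sub_sub_cancel, smul_eq_mul] at b2
  have e4 : t * N ^ 2 = v ^ 10 := by
    rw [ht, ← e1]
    field_simp
  rw [← intervalIntegral.integral_add_adjacent_intervals i1 i2, e2]
  have e8 : 0 < v ^ 9 := by positivity
  have e9 : 0 ≤ L * v ^ 9 := by positivity
  have e6 : v ^ 10 = v ^ 9 * v := by ring
  nlinarith

end Vale.Agent.P146
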