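import Vale.Agent.P146.Defs2

/-! # P146, second round: derivative in the angle and the Gronwall step -/

namespace Vale.Agent.P146

open MeasureTheory ProbabilityTheory Matrix

namespace CoreAux

section lin
variable {κ : Type} [Fintype κ] [DecidableEq κ]

omit [DecidableEq κ] in
theorem qf_eq (G : Matrix κ κ ℝ) (w : κ → ℝ) : qf G w = ∑ j, ∑ k, G j k * (w j * w k) := by
  unfold qf dotProduct mulVec dotProduct
  refine Finset.sum_congr rfl fun j _ => ?_
  rw [Finset.mul_sum]
  exact Finset.sum_congr rfl fun k _ => by ring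

omit [DecidableEq κ] in
theorem trace_eq (G N : Matrix κ κ ℝ) : (G * N).trace = ∑ j, ∑ k, G j k * N k j := by
  simp only [Matrix.trace, Matrix.diag_apply, Matrix.mul_apply]

theorem dG_add (A P : Matrix κ κ ℝ) (u : ℝ) (X X' Y Y' : Matrix κ κ ℝ) :
    dG A P u (X + X') (Y + Y') = dG A P u X Y + dG A P u X' Y' := by
  unfold dG dC dS
  noncomm_ring

theorem dG_smul (A P : Matrix κ κ ℝ) (u c : ℝ) (X Y : Matrix κ κ ℝ) :
    dG A P u (c • X) (c • Y) = c • dG A P u X Y := by
  unfold dG dC dS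
  simp only [mul_smul_comm, smul_mul_assoc, ← smul_sub, ← smul_add, ← smul_neg]

theorem dG_sum {ι : Type} (A P : Matrix κ κ ℝ) (u : ℝ) (I : Finset ι) (y : ι → ℝ)
    (X Y : ι → Matrix κ κ ℝ) (j k : κ) :
    dG A P u (∑ e ∈ I, y e • X e) (∑ e ∈ I, y e • Y e) j k =
      ∑ e ∈ I, dG A P u (X e) (Y e) j k * y e := by
  classical
  induction I using Finset.induction_on with
  | empty => simp [dG, dC, dS]
  | insert a s ha ih =>
    simp only [Finset.sum_insert ha]
    rw [dG_add, dG_smul, Matrix.add_apply, ih, Matrix.smul_apply, smul_eq_mul, mul_comm]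

end lin

theorem int_sum2 {ι κ : Type} [Fintype ι] [Fintype κ]
    {F : κ → κ → (ι → ℝ) × (ι → ℝ) → ℝ} (h : ∀ j k, EG (F j k)) :
    ∫ p, ∑ j, ∑ k, F j k p ∂(gam ι).prod (gam ι) =
      ∑ j, ∑ k, ∫ p, F j k p ∂(gam ι).prod (gam ι) := by
  rw [integral_finset_sum _ fun j _ => (EG.sum _ fun k _ => h j k).intg2]
  exact Finset.sum_congr rfl fun j _ => integral_finset_sum _ fun k _ => (h j k).intg2

theorem exp_le {l : ℝ} (h0 : 0 ≤ l) (h1 : l ≤ 1) : Real.exp (l * (Real.pi / 2)) ≤ 1 + 7 * l := by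
  have a1 : Real.exp (l * (Real.pi / 2)) ≤ Real.exp (l * 2) :=
    Real.exp_le_exp.2 (mul_le_mul_of_nonneg_left (by linarith [Real.pi_le_four]) h0)
  have a2 := convexOn_exp.2 (Set.mem_univ (0 : ℝ)) (Set.mem_univ (2 : ℝ))
    (show 0 ≤ 1 - l by linarith) h0 (by ring)
  simp only [smul_eq_mul, mul_zero, zero_add, Real.exp_zero, mul_one] at a2
  have a3 : Real.exp 2 ≤ 8 := by
    have e : Real.exp 2 = Real.exp 1 * Real.exp 1 := by rw [← Real.exp_add]; norm_num
    have := Real.exp_one_lt_d9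
    have := Real.exp_pos 1
    nlinarith
  have a4 := mul_le_mul_of_nonneg_left a3 h0
  linarith

theorem gron {f D : ℝ → ℝ} {l E N : ℝ} (h0 : 0 < l) (h1 : l ≤ 1) (hE : 0 ≤ E)
    (hd : ∀ t, HasDerivAt f (-D t) t) (hb : ∀ t, |D t| ≤ l * f t + E) (hf : 0 ≤ f 0)
    (hN : f 0 ≤ N) : f (Real.pi / 2) ≤ f 0 + 8 * l * N + 8 * E := by
  have hg : ∀ t, HasDerivAt (fun t => Real.exp (-(l * t)) * (f t + E / l))
      (Real.exp (-(l * t)) * (-D t - l * f t - E)) t := by
    intro t
    refine ((((hasDerivAt_id' t).const_mul l).neg.exp).mul ((hd t).add_const (E / l))).congr_deriv ?_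
    simp only [Pi.neg_apply]
    field_simp
    ring
  have ha : Antitone fun t => Real.exp (-(l * t)) * (f t + E / l) :=
    antitone_of_deriv_nonpos (fun t => (hg t).differentiableAt) fun t => by
      rw [(hg t).deriv]
      refine mul_nonpos_of_nonneg_of_nonpos (Real.exp_pos _).le ?_
      linarith [(abs_le.1 (hb t)).1]
  have a1 := ha (show (0 : ℝ) ≤ Real.pi / 2 by positivity)
  simp only [mul_zero, neg_zero, Real.exp_zero, one_mul] at a1
  rw [Real.exp_neg, inv_mul_le_iff₀ (Real.exp_pos _)] at a1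
  have a2 : 0 ≤ f 0 + E / l := by positivity
  have a3 := a1.trans (mul_le_mul_of_nonneg_right (exp_le h0.le h1) a2)
  have a4 : (1 + 7 * l) * (f 0 + E / l) = f 0 + E / l + 7 * (l * f 0) + 7 * E := by
    field_simp
    ring
  have a5 := mul_le_mul_of_nonneg_left hN h0.le
  have a6 := mul_nonneg h0.le hf
  linarith

theorem rot_zero {ι : Type} [DecidableEq ι] (I : Finset ι) (x y : ι → ℝ) : rot I 0 x y = x := by
  funext e
  simp [rot]

theorem rot_half {ι : Type} [DecidableEq ι] (I : Finset ι) (x y : ι → ℝ) :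
    rot I (Real.pi / 2) x y = nz (off I) x y := by
  funext e
  rw [nz_off]
  simp [rot]

end CoreAux

open CoreAux in
theorem avder (h_rot : S_rot) (h_gc1 : S_gc1) (h_good : S_good) : S_avder := by
  intro n β τ η u θ P dP hn h0 h1 hη hP
  have hB := (h_good n β τ hn h0 h1).1
  have hG := h_gc1 _ _ (Bm β τ) P (dB β τ) dP η u hB.c1 hP.c1 hB.psd hη
  have hh : ∀ i j k : Fin n, EG fun z => Bf β τ i j z * Bf β τ i k z :=
    fun i j k => (hB.c1 i j).eg.mul (hB.c1 i k).eg
  have hr := fun i j k t => h_rot _ _ _ _ (row i) t (hG j k) (hh i j k)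
  have e1 : av β τ η u P = fun t => ∑ i, ∑ j, ∑ k, ∫ p : (Edge n → ℝ) × (Edge n → ℝ),
      Gu (sh (Bm β τ p.1) η) (P p.1) u j k *
        (Bf β τ i j (rot (row i) t p.1 p.2) * Bf β τ i k (rot (row i) t p.1 p.2))
      ∂(gam (Edge n)).prod (gam (Edge n)) := by
    funext t
    unfold av
    refine Finset.sum_congr rfl fun i _ => ?_
    rw [← int_sum2 fun j k => (hG j k).eg.fst.mul (hr i j k t).1]
    simp only [qf_eq, wv]
  rw [e1]
  refine (HasDerivAt.fun_sum fun i _ => HasDerivAt.fun_sum fun j _ =>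
    HasDerivAt.fun_sum fun k _ => (hr i j k θ).2.2).congr_deriv ?_
  simp only [Finset.sum_neg_distrib]
  refine congrArg _ (Finset.sum_congr rfl fun i _ => ?_)
  rw [← int_sum2 fun j k => (EG.sum (row i) fun e _ =>
    ((hG j k).egD e).fst.mul (EG.coord e).snd).mul (hr i j k θ).1]
  simp only [qf_eq, wv, dG_sum]

open CoreAux in
theorem core2 (h_avder : S_avder) (h_avbd : S_avbd) (h_gfacts : S_gfacts) (h_gcont : S_gcont)
    (h_good : S_good) : S_core := by
  intro β k
  obtain ⟨C, hC, hbd⟩ := h_avbd β k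
  refine ⟨C, hC, fun n τ η u l m K P dP hn h0 h1 hη hu hl hl1 hm hmn hK hP => ?_⟩
  have hη0 : 0 < η := by linarith
  have hB := (h_good n β τ hn h0 h1.le).1
  have hsym := (a_B n β τ h0 h1.le).2.1
  have hBf : ∀ i j : Fin n, EG (Bf β τ i j) := fun i j => (hB.c1 i j).eg
  have hG : ∀ j k, EG fun x => Gu (sh (Bm β τ x) η) (P x) u j k := fun j k =>
    ((h_gcont _ _ (Bm β τ) P η (fun j k => (hB.c1 j k).eg) (fun j k => (hP.c1 j k).eg) hB.psd
      hη0).1 j k).sec_right u
  have hgf := fun x => h_gfacts _ (Bm β τ x) (P x) η u (hB.psd x) (hP.psd x) hη0 hu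
  have e0 : av β τ η u P 0 =
      ∫ x, (Gu (sh (Bm β τ x) η) (P x) u * (Bm β τ x * Bm β τ x)).trace ∂gam (Edge n) := by
    unfold av
    have a1 : ∀ i : Fin n, ∫ p : (Edge n → ℝ) × (Edge n → ℝ),
        qf (Gu (sh (Bm β τ p.1) η) (P p.1) u) (wv β τ i 0 p.1 p.2)
          ∂(gam (Edge n)).prod (gam (Edge n)) =
        ∫ x, ∑ j, ∑ k, Gu (sh (Bm β τ x) η) (P x) u j k * (Bf β τ i j x * Bf β τ i k x)
          ∂gam (Edge n) := by
      intro i
      simp only [qf_eq, wv, rot_zero]
      rw [integral_fun_fst fun x => ∑ j, ∑ k,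
        Gu (sh (Bm β τ x) η) (P x) u j k * (Bf β τ i j x * Bf β τ i k x)]
      simp
    rw [Finset.sum_congr rfl fun i _ => a1 i, ← integral_finset_sum _ fun i _ =>
      (EG.sum _ fun j _ => EG.sum _ fun k _ => (hG j k).mul ((hBf i j).mul (hBf i k))).intg]
    refine integral_congr_ae (ae_of_all _ fun x => ?_)
    simp only [trace_eq]
    rw [Finset.sum_comm]
    refine Finset.sum_congr rfl fun j _ => ?_
    rw [Finset.sum_comm]
    refine Finset.sum_congr rfl fun k _ => ?_
    rw [Matrix.mul_apply, Finset.mul_sum]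
    refine Finset.sum_congr rfl fun i _ => ?_
    simp only [Bm, Matrix.of_apply]
    rw [hsym k i, mul_comm (Bf β τ i k x)]
  have e1 : av β τ η u P (Real.pi / 2) =
      ∑ i, ∫ x, (Gu (sh (Bm β τ x) η) (P x) u * Ki β τ i x).trace ∂gam (Edge n) := by
    unfold av
    refine Finset.sum_congr rfl fun i _ => ?_
    have hz := fun j k => ((hBf i j).mul (hBf i k)).nz (u01_off (row i))
    simp only [qf_eq, wv, rot_half]
    rw [integral_prod _ (EG.sum _ fun j _ => EG.sum _ fun k _ =>
      (hG j k).fst.mul (hz j k)).intg2]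
    refine integral_congr_ae (ae_of_all _ fun x => ?_)
    have hx : ∀ j k, EG fun y => Bf β τ i j (nz (off (row i)) x y) *
        Bf β τ i k (nz (off (row i)) x y) := fun j k => (hz j k).sec_right x
    simp only [trace_eq]
    refine (integral_finset_sum _ fun j _ => (EG.sum Finset.univ fun k _ =>
      (hx j k).const_mul (Gu (sh (Bm β τ x) η) (P x) u j k)).intg).trans
      (Finset.sum_congr rfl fun j _ => ?_)
    refine (integral_finset_sum _ fun k _ =>
      ((hx j k).const_mul (Gu (sh (Bm β τ x) η) (P x) u j k)).intg).trans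
      (Finset.sum_congr rfl fun k _ => ?_)
    rw [integral_const_mul]
    simp only [Ki, Matrix.of_apply, T, mul_comm (Bf β τ i k _)]
  have hf0 : 0 ≤ av β τ η u P 0 :=
    Finset.sum_nonneg fun i _ => integral_nonneg fun p => by
      simpa [qf] using (hgf p.1).1.dotProduct_mulVec_nonneg (wv β τ i 0 p.1 p.2)
  have hfn : av β τ η u P 0 ≤ n := by
    rw [e0]
    have hi : Integrable (fun x => (Gu (sh (Bm β τ x) η) (P x) u *
        (Bm β τ x * Bm β τ x)).trace) (gam (Edge n)) := by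
      simp only [trace_eq, Matrix.mul_apply]
      exact (EG.sum _ fun j _ => EG.sum _ fun k _ => (hG j k).mul
        (EG.sum _ fun i _ => (hBf k i).mul (hBf i j))).intg
    refine (integral_mono hi (integrable_const (n : ℝ)) fun x => ?_).trans (by simp)
    exact (hgf x).2.2.2.2.2.1.trans (hP.tr x).le
  have hδ : 0 < 1 - τ ^ 2 := by nlinarith
  have hK0 : 0 < K := by linarith
  have hm0 : 0 < m := by linarith
  rw [← e0, ← e1]
  exact gron hl hl1 (by positivity) (fun t => h_avder n β τ η u t P dP hn h0 h1.le hη0 hP)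
    (fun t => hbd n τ η u t l m K P dP hn h0 h1 hη hu hl hl1 hm hmn hK hP) hf0 hfn

end Vale.Agent.P146
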