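import Vale.Agent.P146.Defs2

/-! # P146, second round: the bound on the derivative of the kernel -/

namespace Vale.Agent.P146

open MeasureTheory ProbabilityTheory Matrix

namespace DGAux

variable {κ : Type} [Fintype κ]

theorem dot_sym {M : Matrix κ κ ℝ} (hM : Mᵀ = M) (a b : κ → ℝ) :
    a ⬝ᵥ (M *ᵥ b) = (M *ᵥ a) ⬝ᵥ b := by
  rw [Matrix.dotProduct_mulVec, ← Matrix.mulVec_transpose, hM]

theorem qf3 {M : Matrix κ κ ℝ} (hM : Mᵀ = M) (P N : Matrix κ κ ℝ) (w : κ → ℝ) :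
    qf (M * P * N) w = (M *ᵥ w) ⬝ᵥ (P *ᵥ (N *ᵥ w)) := by
  rw [qf, ← Matrix.mulVec_mulVec, ← Matrix.mulVec_mulVec, dot_sym hM]

theorem qf_add (M N : Matrix κ κ ℝ) (w : κ → ℝ) : qf (M + N) w = qf M w + qf N w := by
  rw [qf, qf, qf, Matrix.add_mulVec, dotProduct_add]

theorem gram (R : Matrix κ κ ℝ) (a b : κ → ℝ) :
    a ⬝ᵥ ((Rᵀ * R) *ᵥ b) = ∑ i, (R i ⬝ᵥ a) * (R i ⬝ᵥ b) := by
  rw [← Matrix.mulVec_mulVec, Matrix.dotProduct_mulVec, Matrix.vecMul_transpose]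
  rfl

theorem dot3 {M X : Matrix κ κ ℝ} (hM : Mᵀ = M) (hX : Xᵀ = X) (N : Matrix κ κ ℝ)
    (r w : κ → ℝ) : r ⬝ᵥ ((M * X * N) *ᵥ w) = (X *ᵥ (M *ᵥ r)) ⬝ᵥ (N *ᵥ w) := by
  rw [← Matrix.mulVec_mulVec, ← Matrix.mulVec_mulVec, dot_sym hM, dot_sym hX]

theorem tr_gram {M X : Matrix κ κ ℝ} (hM : Mᵀ = M) (hX : Xᵀ = X) (R : Matrix κ κ ℝ) :
    (M * (Rᵀ * R) * M * (X * X)).trace
      = ∑ i, (X *ᵥ (M *ᵥ R i)) ⬝ᵥ (X *ᵥ (M *ᵥ R i)) := by
  have e : M * (Rᵀ * R) * M * (X * X) = (M * Rᵀ) * (R * M * (X * X)) := by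
    simp only [Matrix.mul_assoc]
  rw [e, Matrix.trace_mul_comm]
  have e2 : R * M * (X * X) * (M * Rᵀ) = R * (M * X * (X * M)) * Rᵀ := by
    simp only [Matrix.mul_assoc]
  rw [e2, Matrix.trace]
  refine Finset.sum_congr rfl fun i _ => ?_
  have e3 : (R * (M * X * (X * M)) * Rᵀ).diag i = R i ⬝ᵥ ((M * X * (X * M)) *ᵥ R i) := by
    rw [Matrix.diag_apply, Matrix.mul_assoc, Matrix.mul_apply]
    rfl
  rw [e3, dot3 hM hX, ← Matrix.mulVec_mulVec]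

theorem cs2 (p q c s : κ → ℝ) :
    (q ⬝ᵥ s - p ⬝ᵥ c) ^ 2 + (p ⬝ᵥ s + q ⬝ᵥ c) ^ 2
      ≤ (p ⬝ᵥ p + q ⬝ᵥ q) * (c ⬝ᵥ c + s ⬝ᵥ s) := by
  set z : κ → ℂ := fun j => ⟨p j, q j⟩ with hz
  set v : κ → ℂ := fun j => ⟨c j, s j⟩ with hv
  have h1 : ‖∑ j, z j * v j‖ ≤ ∑ j, ‖z j‖ * ‖v j‖ :=
    (norm_sum_le _ _).trans (le_of_eq (Finset.sum_congr rfl fun j _ => norm_mul _ _))
  have h2 := Finset.sum_mul_sq_le_sq_mul_sq Finset.univ (fun j => ‖z j‖) fun j => ‖v j‖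
  have h3 : ‖∑ j, z j * v j‖ ^ 2 ≤ (∑ j, ‖z j‖ * ‖v j‖) ^ 2 :=
    pow_le_pow_left₀ (norm_nonneg _) h1 2
  have e1 : ∑ j, ‖z j‖ ^ 2 = p ⬝ᵥ p + q ⬝ᵥ q := by
    simp only [Complex.sq_norm, Complex.normSq_apply, hz, dotProduct, Finset.sum_add_distrib]
  have e2 : ∑ j, ‖v j‖ ^ 2 = c ⬝ᵥ c + s ⬝ᵥ s := by
    simp only [Complex.sq_norm, Complex.normSq_apply, hv, dotProduct, Finset.sum_add_distrib]
  have e3 : (∑ j, z j * v j).re = p ⬝ᵥ c - q ⬝ᵥ s := by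
    simp only [Complex.re_sum, Complex.mul_re, hz, hv, dotProduct, Finset.sum_sub_distrib]
  have e4 : (∑ j, z j * v j).im = p ⬝ᵥ s + q ⬝ᵥ c := by
    simp only [Complex.im_sum, Complex.mul_im, hz, hv, dotProduct, Finset.sum_add_distrib]
  rw [Complex.sq_norm, Complex.normSq_apply, e3, e4] at h3
  rw [e1, e2] at h2
  nlinarith

theorem dot_self_nonneg (a : κ → ℝ) : 0 ≤ a ⬝ᵥ a :=
  Finset.sum_nonneg fun _ _ => mul_self_nonneg _

theorem quad_abs (Y : Matrix κ κ ℝ) (v : κ → ℝ) {m : ℝ} (hm : 0 < m) :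
    |v ⬝ᵥ (Y *ᵥ v)| ≤ (v ⬝ᵥ v) * (m + fro Y / m) / 2 := by
  have h1 : v ⬝ᵥ (Y *ᵥ v) = ∑ p : κ × κ, Y p.1 p.2 * (v p.1 * v p.2) := by
    simp only [dotProduct, Matrix.mulVec, Finset.mul_sum, Fintype.sum_prod_type]
    exact Finset.sum_congr rfl fun j _ => Finset.sum_congr rfl fun k _ => by ring
  have h3 : ∑ p : κ × κ, (v p.1 * v p.2) ^ 2 = (v ⬝ᵥ v) * (v ⬝ᵥ v) := by
    simp only [dotProduct, Finset.sum_mul_sum, Fintype.sum_prod_type]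
    exact Finset.sum_congr rfl fun j _ => Finset.sum_congr rfl fun k _ => by ring
  have h4 : ∑ p : κ × κ, Y p.1 p.2 ^ 2 = fro Y := by
    simp only [fro, Fintype.sum_prod_type]
  have h2 := Finset.sum_mul_sq_le_sq_mul_sq Finset.univ (fun p : κ × κ => Y p.1 p.2)
    fun p => v p.1 * v p.2
  rw [← h1, h3, h4] at h2
  have hF := PertAux.fro_nonneg Y
  have hv := dot_self_nonneg v
  have h5 : fro Y ≤ ((m + fro Y / m) / 2) ^ 2 := by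
    have e : fro Y = m * (fro Y / m) := by field_simp
    nlinarith [sq_nonneg (m - fro Y / m)]
  refine abs_le_of_sq_le_sq' ?_ (by positivity) |> abs_le.2
  have h6 := mul_le_mul_of_nonneg_right h5 (mul_nonneg hv hv)
  calc _ ≤ fro Y * ((v ⬝ᵥ v) * (v ⬝ᵥ v)) := h2
    _ ≤ _ := h6
    _ = _ := by ring

theorem amgm {l : ℝ} (hl : 0 < l) (a b c d : ℝ) :
    |2 * (a * b) + 2 * (c * d)| ≤ l * (b * b + d * d) + (a ^ 2 + c ^ 2) / l := by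
  have e : (a ^ 2 + c ^ 2) / l = l * ((a / l) ^ 2 + (c / l) ^ 2) := by field_simp
  have ea : a = l * (a / l) := by field_simp
  have ec : c = l * (c / l) := by field_simp
  rw [e]
  generalize a / l = x at ea
  generalize c / l = y at ec
  subst ea ec
  rw [abs_le]
  constructor
  · nlinarith [mul_nonneg hl.le (sq_nonneg (x + b)), mul_nonneg hl.le (sq_nonneg (y + d))]
  · nlinarith [mul_nonneg hl.le (sq_nonneg (x - b)), mul_nonneg hl.le (sq_nonneg (y - d))]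

theorem core {C S X D E : Matrix κ κ ℝ} (hC : Cᵀ = C) (hS : Sᵀ = S) (hX : Xᵀ = X)
    (hD : D = S * X * S - C * X * C) (hE : E = -(C * X * S + S * X * C)) (R Y : Matrix κ κ ℝ)
    {l m : ℝ} (hl : 0 < l) (hm : 0 < m) (w : κ → ℝ) :
    |qf (D * (Rᵀ * R) * C + C * (Rᵀ * R) * D + E * (Rᵀ * R) * S + S * (Rᵀ * R) * E
        + C * Y * C + S * Y * S) w|
      ≤ l * qf (C * (Rᵀ * R) * C + S * (Rᵀ * R) * S) w
        + ((C * (Rᵀ * R) * C + S * (Rᵀ * R) * S) * (X * X)).trace * qf (C * C + S * S) w / l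
        + qf (C * C + S * S) w * (m + fro Y / m) / 2 := by
  have hDs : Dᵀ = D := by
    rw [hD]
    simp only [Matrix.transpose_sub, Matrix.transpose_mul, hC, hS, hX, Matrix.mul_assoc]
  have hEs : Eᵀ = E := by
    rw [hE]
    simp only [Matrix.transpose_neg, Matrix.transpose_add, Matrix.transpose_mul, hC, hS, hX,
      Matrix.mul_assoc]
    rw [add_comm]
  have hQ : qf (C * C + S * S) w = (C *ᵥ w) ⬝ᵥ (C *ᵥ w) + (S *ᵥ w) ⬝ᵥ (S *ᵥ w) := by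
    rw [qf_add, qf, qf, ← Matrix.mulVec_mulVec, ← Matrix.mulVec_mulVec, dot_sym hC, dot_sym hS]
  have hd : ∀ r : κ → ℝ, r ⬝ᵥ (D *ᵥ w)
      = (X *ᵥ (S *ᵥ r)) ⬝ᵥ (S *ᵥ w) - (X *ᵥ (C *ᵥ r)) ⬝ᵥ (C *ᵥ w) := fun r => by
    rw [hD, Matrix.sub_mulVec, dotProduct_sub, dot3 hS hX, dot3 hC hX]
  have he : ∀ r : κ → ℝ, r ⬝ᵥ (E *ᵥ w)
      = -((X *ᵥ (C *ᵥ r)) ⬝ᵥ (S *ᵥ w) + (X *ᵥ (S *ᵥ r)) ⬝ᵥ (C *ᵥ w)) := fun r => by
    rw [hE, Matrix.neg_mulVec, dotProduct_neg, Matrix.add_mulVec, dotProduct_add, dot3 hC hX,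
      dot3 hS hX]
  rw [hQ, Matrix.add_mul, Matrix.trace_add, tr_gram hC hX, tr_gram hS hX]
  simp only [qf_add, qf3 hDs, qf3 hEs, qf3 hC, qf3 hS, gram]
  generalize C *ᵥ w = c at hd he ⊢
  generalize S *ᵥ w = s at hd he ⊢
  have y1 := quad_abs Y c hm
  have y2 := quad_abs Y s hm
  have key : |∑ i, (2 * ((R i ⬝ᵥ (D *ᵥ w)) * (R i ⬝ᵥ c)) + 2 * ((R i ⬝ᵥ (E *ᵥ w)) * (R i ⬝ᵥ s)))|
      ≤ ∑ i, (l * ((R i ⬝ᵥ c) * (R i ⬝ᵥ c) + (R i ⬝ᵥ s) * (R i ⬝ᵥ s))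
        + ((X *ᵥ (C *ᵥ R i)) ⬝ᵥ (X *ᵥ (C *ᵥ R i)) + (X *ᵥ (S *ᵥ R i)) ⬝ᵥ (X *ᵥ (S *ᵥ R i)))
          * (c ⬝ᵥ c + s ⬝ᵥ s) / l) := by
    refine (Finset.abs_sum_le_sum_abs _ _).trans (Finset.sum_le_sum fun i _ => ?_)
    refine (amgm hl _ _ _ _).trans (add_le_add le_rfl (div_le_div_of_nonneg_right ?_ hl.le))
    rw [hd, he, neg_sq]
    exact cs2 _ _ _ _
  have e1 : ∑ i, (2 * ((R i ⬝ᵥ (D *ᵥ w)) * (R i ⬝ᵥ c)) + 2 * ((R i ⬝ᵥ (E *ᵥ w)) * (R i ⬝ᵥ s)))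
      = ∑ i, (R i ⬝ᵥ (D *ᵥ w)) * (R i ⬝ᵥ c) + ∑ i, (R i ⬝ᵥ c) * (R i ⬝ᵥ (D *ᵥ w))
        + ∑ i, (R i ⬝ᵥ (E *ᵥ w)) * (R i ⬝ᵥ s) + ∑ i, (R i ⬝ᵥ s) * (R i ⬝ᵥ (E *ᵥ w)) := by
    simp only [← Finset.sum_add_distrib]
    exact Finset.sum_congr rfl fun i _ => by ring
  rw [e1, Finset.sum_add_distrib, ← Finset.mul_sum, Finset.sum_add_distrib, ← Finset.sum_div,
    ← Finset.sum_mul, Finset.sum_add_distrib] at key
  refine (abs_add_le _ _).trans ((add_le_add (abs_add_le _ _) le_rfl).trans ?_)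
  linarith

end DGAux

open DGAux

open scoped MatrixOrder in
theorem dG_bd : S_dG := by
  intro κ _ _ A P X Y u l m w hA hP hX _ hl hm
  obtain ⟨R, hR⟩ := CStarAlgebra.nonneg_iff_eq_star_mul_self.1 hP.nonneg
  have hR' : P = Rᵀ * R := by
    rw [hR, Matrix.star_eq_conjTranspose, Matrix.conjTranspose_eq_transpose_of_trivial]
  have hAs : Aᵀ = A := by
    have := hA.isHermitian.eq
    rwa [Matrix.conjTranspose_eq_transpose_of_trivial] at this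
  set M : Matrix κ κ ℝ := A * A + (u ^ 2) • (1 : Matrix κ κ ℝ) with hM
  have hMs : Mᵀ = M := by
    rw [hM, Matrix.transpose_add, Matrix.transpose_mul, hAs, Matrix.transpose_smul,
      Matrix.transpose_one]
  have hAu : IsUnit A := hA.isUnit
  have hAA : (A * A).PosDef := by
    have := (Matrix.PosDef.one (n := κ) (R := ℝ)).conjTranspose_mul_mul_same
      (B := A) (Matrix.mulVec_injective_of_isUnit hAu)
    rwa [Matrix.conjTranspose_eq_transpose_of_trivial, hAs, Matrix.mul_one] at this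
  have hMp : M.PosDef := hAA.add_posSemidef (Matrix.PosSemidef.one.smul (sq_nonneg u))
  have hdet : IsUnit M.det := (Matrix.isUnit_iff_isUnit_det M).1 hMp.isUnit
  have hQ : Qm A u = M⁻¹ := rfl
  have q1 : M * Qm A u = 1 := Matrix.mul_nonsing_inv M hdet
  have q2 : Qm A u * M = 1 := Matrix.nonsing_inv_mul M hdet
  have hQs : (Qm A u)ᵀ = Qm A u := by rw [hQ, Matrix.transpose_nonsing_inv, hMs]
  have hAM : A * M = M * A := by
    rw [hM, Matrix.mul_add, Matrix.add_mul, Matrix.mul_smul, Matrix.smul_mul, Matrix.mul_one,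
      Matrix.one_mul, Matrix.mul_assoc]
  have hc : A * Qm A u = Qm A u * A := by
    calc A * Qm A u = Qm A u * M * (A * Qm A u) := by rw [q2, Matrix.one_mul]
      _ = Qm A u * (M * A) * Qm A u := by simp only [Matrix.mul_assoc]
      _ = Qm A u * A * (M * Qm A u) := by rw [← hAM]; simp only [Matrix.mul_assoc]
      _ = Qm A u * A := by rw [q1, Matrix.mul_one]
  have hC : (Cm A u)ᵀ = Cm A u := by rw [Cm, Matrix.transpose_mul, hQs, hAs, hc]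
  have hS : (Sm A u)ᵀ = Sm A u := by rw [Sm, Matrix.transpose_smul, hQs]
  have hCS : Qm A u = Cm A u * Cm A u + Sm A u * Sm A u := by
    calc Qm A u = Qm A u * (M * Qm A u) := by rw [q1, Matrix.mul_one]
      _ = Qm A u * A * (A * Qm A u) + (u * u) • (Qm A u * Qm A u) := by
        rw [hM, Matrix.add_mul, Matrix.mul_add, Matrix.smul_mul, Matrix.mul_smul, Matrix.one_mul,
          pow_two]
        simp only [Matrix.mul_assoc]
      _ = _ := by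
        rw [← hc, Cm, Sm, Matrix.smul_mul, Matrix.mul_smul, smul_smul]
  have key := core hC hS hX (D := dC A u X) (E := dS A u X) rfl rfl R Y hl hm w
  rw [← hCS, ← hR'] at key
  exact key

end Vale.Agent.P146
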