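import Vale.Agent.P146.Defs2

/-! # P146: the averaged tangent functional -/

namespace Vale.Agent.P146

open MeasureTheory ProbabilityTheory Matrix

namespace EllzAux

theorem eg_trace {X κ : Type} [NormedAddCommGroup X] [Fintype κ] {G N : X → Matrix κ κ ℝ}
    (hG : ∀ j k, EG fun x => G x j k) (hN : ∀ j k, EG fun x => N x j k) :
    EG fun x => (G x * N x).trace := by
  simp only [Matrix.trace, Matrix.diag, Matrix.mul_apply]
  exact EG.sum _ fun j _ => EG.sum _ fun k _ => (hG j k).mul (hN k j)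

theorem eg_mul {X κ : Type} [NormedAddCommGroup X] [Fintype κ] {G N : X → Matrix κ κ ℝ}
    (hG : ∀ j k, EG fun x => G x j k) (hN : ∀ j k, EG fun x => N x j k) (j k : κ) :
    EG fun x => (G x * N x) j k := by
  simp only [Matrix.mul_apply]
  exact EG.sum _ fun l _ => (hG j l).mul (hN l k)

theorem eg_qf {X κ : Type} [NormedAddCommGroup X] [Fintype κ] {G : X → Matrix κ κ ℝ}
    {w : X → κ → ℝ} (hG : ∀ j k, EG fun x => G x j k) (hw : ∀ j, EG fun x => w x j) :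
    EG fun x => qf (G x) (w x) := by
  simp only [qf, dotProduct, Matrix.mulVec]
  exact EG.sum _ fun j _ => (hw j).mul (EG.sum _ fun k _ => (hG j k).mul (hw k))

theorem int_strip {ι : Type} [Fintype ι] {F : ℝ × (ι → ℝ) → ℝ} (hF : EG F) (U : ℝ) :
    Integrable F ((volume.restrict (Set.uIoc 0 U)).prod (gam ι)) := by
  obtain ⟨h1, C, c, hC, hc, h⟩ := hF
  have h2 : Integrable (fun u : ℝ => C * Real.exp (c * ‖u‖)) (volume.restrict (Set.uIoc 0 U)) :=
    (Continuous.intervalIntegrable (by fun_prop) 0 U).def'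
  refine (h2.mul_prod ((nice_gam ι).ex c)).mono' h1.aestronglyMeasurable (ae_of_all _ fun p => ?_)
  refine (h _).trans ?_
  rw [mul_assoc, ← Real.exp_add, ← mul_add]
  refine mul_le_mul_of_nonneg_left (Real.exp_le_exp.2 (mul_le_mul_of_nonneg_left ?_ hc)) hC
  rw [Prod.norm_def]
  exact max_le (by linarith [norm_nonneg p.2]) (by linarith [norm_nonneg p.1])

theorem swap {ι : Type} [Fintype ι] {F : ℝ × (ι → ℝ) → ℝ} (hF : EG F) {U : ℝ} (hU : 0 ≤ U) :
    Integrable (fun x => ∫ u in (0 : ℝ)..U, F (u, x)) (gam ι) ∧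
    ∫ x, (∫ u in (0 : ℝ)..U, F (u, x)) ∂gam ι = ∫ u in (0 : ℝ)..U, ∫ x, F (u, x) ∂gam ι := by
  have h := int_strip hF U
  refine ⟨?_, (intervalIntegral_integral_swap (f := fun u x => F (u, x)) h).symm⟩
  simp only [intervalIntegral.integral_of_le hU]
  rw [Set.uIoc_of_le hU] at h
  exact h.integral_prod_right

variable {n : ℕ}

theorem eg_Bf {β τ : ℝ} (h0 : 0 ≤ τ) (h1 : τ ≤ 1) (i j : Fin n) : EG (Bf β τ i j) :=
  ((mc1 n β).1 i j).eg.T (u01_const h0 h1)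

theorem eg_Ki {β τ : ℝ} (h0 : 0 ≤ τ) (h1 : τ ≤ 1) (i j k : Fin n) :
    EG fun x => Ki β τ i x j k :=
  ((eg_Bf h0 h1 i j).mul (eg_Bf h0 h1 i k)).T (u01_off _)

theorem rot_half (i : Fin n) (x y : Edge n → ℝ) :
    rot (row i) (Real.pi / 2) x y = nz (off (row i)) x y := by
  funext e
  rw [nz_off]
  simp [rot]

theorem trace_Ki {β τ : ℝ} (h0 : 0 ≤ τ) (h1 : τ ≤ 1) (i : Fin n) (x : Edge n → ℝ)
    (G : Matrix (Fin n) (Fin n) ℝ) :
    (G * Ki β τ i x).trace = ∫ y, qf G (wv β τ i (Real.pi / 2) x y) ∂gam (Edge n) := by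
  have e : ∀ y, qf G (wv β τ i (Real.pi / 2) x y) = ∑ j, ∑ k, G j k *
      (Bf β τ i k (nz (off (row i)) x y) * Bf β τ i j (nz (off (row i)) x y)) := fun y => by
    simp only [qf, dotProduct, Matrix.mulVec, wv, rot_half, Finset.mul_sum]
    exact Finset.sum_congr rfl fun j _ => Finset.sum_congr rfl fun k _ => by ring
  have hi : ∀ j k, EG fun y => G j k *
      (Bf β τ i k (nz (off (row i)) x y) * Bf β τ i j (nz (off (row i)) x y)) := fun j k =>
    ((((eg_Bf h0 h1 i k).mul (eg_Bf h0 h1 i j)).nz (u01_off _)).sec_right x).const_mul _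
  simp only [e]
  rw [integral_finset_sum _ fun j _ => (EG.sum _ fun k _ => hi j k).intg]
  simp only [Matrix.trace, Matrix.diag, Matrix.mul_apply]
  refine Finset.sum_congr rfl fun j _ => ?_
  rw [integral_finset_sum _ fun k _ => (hi j k).intg]
  refine Finset.sum_congr rfl fun k _ => ?_
  rw [integral_const_mul]
  rfl

theorem tr_Ki_le {β τ : ℝ} (h0 : 0 ≤ τ) (h1 : τ ≤ 1) (i : Fin n) (x : Edge n → ℝ) :
    (Ki β τ i x).trace ≤ n := by
  have h : ∀ j, Ki β τ i x j j ≤ 1 := fun j => by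
    show T (off (row i)) (fun z => Bf β τ i j z * Bf β τ i j z) x ≤ 1
    refine (le_abs_self _).trans (abs_T_le (fun z => ?_) _ _)
    rw [abs_mul]
    exact mul_le_one₀ ((a_B n β τ h0 h1).1 i j z) (abs_nonneg _) ((a_B n β τ h0 h1).1 i j z)
  calc (Ki β τ i x).trace = ∑ j, Ki β τ i x j j := rfl
    _ ≤ ∑ _j : Fin n, (1 : ℝ) := Finset.sum_le_sum fun j _ => h j
    _ = n := by simp

theorem err_le {N δ μ K u U C Q : ℝ} (hN : 1 ≤ N) (hδ : 0 < δ) (hμ : 1 ≤ μ) (hμ2 : δ * μ ^ 2 = N)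
    (hK : 1 ≤ K) (hu : 0 ≤ u) (hU : u ≤ U) (hC : 0 ≤ C) (hQ : 0 < Q) :
    8 * (μ * K / (μ * K + u)) * N + 8 * (8 * K * N ^ 2 / (δ * (μ * K / (μ * K + u)) * (μ * K + u) ^ 2)
      + K / (μ * K + u) * (N * μ + 2 * N ^ 2 / (δ * μ)) + C * N ^ 7 / (μ * K / (μ * K + u) * Q))
      ≤ 96 * K * (N * μ) * (μ * K + u)⁻¹ + 8 * C * N ^ 7 * (1 + U) / Q := by
  have hη : 1 ≤ μ * K := one_le_mul_of_one_le_of_one_le hμ hK
  have hs : 0 < μ * K + u := by linarith
  have hμ0 : 0 < μ := by linarith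
  have hK0 : 0 < K := by linarith
  have hN0 : 0 < N := by linarith
  have e1 : 8 * K * N ^ 2 / (δ * (μ * K / (μ * K + u)) * (μ * K + u) ^ 2)
      = 8 * (N * μ) * (μ * K + u)⁻¹ := by
    rw [pow_two N]
    nth_rewrite 2 [← hμ2]
    field_simp
  have e2 : 2 * N ^ 2 / (δ * μ) = 2 * (N * μ) := by
    rw [pow_two N]
    nth_rewrite 2 [← hμ2]
    field_simp
  have e3 : C * N ^ 7 / (μ * K / (μ * K + u) * Q) ≤ C * N ^ 7 * (1 + U) / Q := by
    have : C * N ^ 7 / (μ * K / (μ * K + u) * Q) = C * N ^ 7 * (1 + u / (μ * K)) / Q := by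
      field_simp
    rw [this]
    have h2 : u / (μ * K) ≤ U := (div_le_self hu hη).trans hU
    gcongr
  have h4 : 0 ≤ (N * μ) * (μ * K + u)⁻¹ := by positivity
  have e5 : 8 * (μ * K / (μ * K + u)) * N = 8 * K * ((N * μ) * (μ * K + u)⁻¹) := by
    field_simp
  have e6 : K / (μ * K + u) * (N * μ + 2 * (N * μ)) = 3 * K * ((N * μ) * (μ * K + u)⁻¹) := by
    field_simp
    ring
  rw [e1, e2, e5, e6]
  have e7 : 8 * C * N ^ 7 * (1 + U) / Q = 8 * (C * N ^ 7 * (1 + U) / Q) := by ring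
  rw [e7]
  nlinarith [mul_nonneg (sub_nonneg.2 hK) h4]

theorem int_err {η U a b : ℝ} (hη : 1 ≤ η) (hU : 0 ≤ U) (ha : 0 ≤ a) :
    ∫ u in (0 : ℝ)..U, (a * (η + u)⁻¹ + b) ≤ a * Real.log (1 + U) + b * U := by
  have hc : ContinuousOn (fun u : ℝ => (η + u)⁻¹) (Set.uIcc 0 U) := by
    refine ContinuousOn.inv₀ (by fun_prop) fun u hu => ?_
    rw [Set.uIcc_of_le hU] at hu
    linarith [hu.1]
  rw [intervalIntegral.integral_add (hc.intervalIntegrable.const_mul a) intervalIntegrable_const,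
    intervalIntegral.integral_const_mul, intervalIntegral.integral_comp_add_left (fun u => u⁻¹) η,
    integral_inv_of_pos (by linarith) (by linarith), intervalIntegral.integral_const]
  have h : (η + U) / (η + 0) ≤ 1 + U := by
    rw [add_zero, div_le_iff₀ (by linarith)]
    nlinarith
  have h2 := Real.log_le_log (div_pos (by linarith) (by linarith)) h
  have h3 := mul_le_mul_of_nonneg_left h2 ha
  simp only [sub_zero, smul_eq_mul]
  linarith

theorem log_le {N ε : ℝ} (hN : 1 ≤ N) (hε : 0 < ε) :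
    Real.log (1 + N ^ 2) ≤ (1 + 2 / ε) * N ^ ε := by
  have h1 : 1 + N ^ 2 ≤ 2 * N ^ 2 := by nlinarith
  have h2 := Real.log_le_log (by positivity) h1
  rw [Real.log_mul (by norm_num) (by positivity), Real.log_pow] at h2
  have h3 := Real.log_le_rpow_div (x := N) (by linarith) hε
  have h4 : Real.log 2 ≤ 1 := by
    have := Real.log_le_sub_one_of_pos (x := 2) (by norm_num)
    linarith
  have h5 : 1 ≤ N ^ ε := Real.one_le_rpow hN hε.le
  have e : (1 + 2 / ε) * N ^ ε = N ^ ε + 2 * (N ^ ε / ε) := by ring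
  rw [e]
  push_cast at h2
  linarith

theorem part_b (h_gcont : S_gcont) (h_comp : S_comp) (h_momeg : S_momeg) {β τ η K C : ℝ} {k : ℕ}
    (h0 : 0 ≤ τ) (h1 : τ ≤ 1) (hη : 0 < η) (hK : 0 < K) (i : Fin n)
    (hm : ∫ p : (Edge n → ℝ) × (Edge n → ℝ), Pm β τ (k + 1) i (Real.pi / 2) p.1 p.2
      ∂(gam (Edge n)).prod (gam (Edge n)) ≤ C) :
    ∫ x, ((sh (Bm β τ x) η)⁻¹ * Ki β τ i x).trace ∂gam (Edge n) ≤ K + n / η * C / K ^ k := by
  have hP := (h_momeg n β τ (Real.pi / 2) (k + 1) i h0 h1).2.1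
  have hinv := (h_gcont (Edge n → ℝ) (Fin n) (Bm β τ) (Bm β τ) η (fun j l => eg_Bf h0 h1 j l)
    (fun j l => eg_Bf h0 h1 j l) (a_B n β τ h0 h1).2.2.2.1 hη).2.2
  have hq : EG fun p : (Edge n → ℝ) × (Edge n → ℝ) =>
      qf (sh (Bm β τ p.1) η)⁻¹ (wv β τ i (Real.pi / 2) p.1 p.2) := by
    refine eg_qf (fun j l => (hinv j l).fst) fun j => ?_
    simp only [wv, rot_half]
    exact (eg_Bf h0 h1 i j).nz (u01_off _)
  simp only [trace_Ki h0 h1]
  rw [← integral_prod _ hq.intg2]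
  have hb : EG fun p : (Edge n → ℝ) × (Edge n → ℝ) =>
      n / η / K ^ k * Pm β τ (k + 1) i (Real.pi / 2) p.1 p.2 := hP.const_mul _
  calc _ ≤ ∫ p : (Edge n → ℝ) × (Edge n → ℝ),
        (K + n / η / K ^ k * Pm β τ (k + 1) i (Real.pi / 2) p.1 p.2)
        ∂(gam (Edge n)).prod (gam (Edge n)) := by
        refine integral_mono hq.intg2 ((EG.const K).add hb).intg2 fun p => ?_
        refine (h_comp n β τ η K (Real.pi / 2) k i p.1 p.2 h0 h1 hη hK).trans (le_of_eq ?_)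
        ring
    _ = K + n / η / K ^ k * ∫ p : (Edge n → ℝ) × (Edge n → ℝ),
        Pm β τ (k + 1) i (Real.pi / 2) p.1 p.2 ∂(gam (Edge n)).prod (gam (Edge n)) := by
        rw [integral_add (integrable_const K) hb.intg2, integral_const_mul]
        simp
    _ ≤ K + n / η / K ^ k * C := by gcongr
    _ = _ := by ring

theorem part_c (h_gint : S_gint) (h_gcont : S_gcont) {β τ η U a b : ℝ}
    {P : (Edge n → ℝ) → Matrix (Fin n) (Fin n) ℝ} (h0 : 0 ≤ τ) (h1 : τ ≤ 1) (hη : 1 ≤ η)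
    (hU : 0 ≤ U) (ha : 0 ≤ a) (hb : 0 ≤ b) (hP : ∀ j k, EG fun x => P x j k)
    (hPs : ∀ x, (P x).PosSemidef)
    (hc : ∀ u, 0 ≤ u → u ≤ U →
      ∑ i, ∫ x, (Gu (sh (Bm β τ x) η) (P x) u * Ki β τ i x).trace ∂gam (Edge n) ≤
      ∫ x, (Gu (sh (Bm β τ x) η) (P x) u * (Bm β τ x * Bm β τ x)).trace ∂gam (Edge n)
        + (a * (η + u)⁻¹ + b)) :
    ∑ i, ∫ x, (1 / Real.pi) *
      (∫ u in (0 : ℝ)..U, (Gu (sh (Bm β τ x) η) (P x) u * Ki β τ i x).trace) ∂gam (Edge n) ≤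
      (∫ x, (Bm β τ x * P x).trace ∂gam (Edge n)) / 2 + (a * Real.log (1 + U) + b * U) := by
  have hη0 : 0 < η := by linarith
  have hB : ∀ j l : Fin n, EG fun x => Bm β τ x j l := fun j l => eg_Bf h0 h1 j l
  have hBs := (a_B n β τ h0 h1).2.2.2.1
  have hG := (h_gcont (Edge n → ℝ) (Fin n) (Bm β τ) P η hB hP hBs hη0).1
  have hF : ∀ i, EG fun p : ℝ × (Edge n → ℝ) =>
      (Gu (sh (Bm β τ p.2) η) (P p.2) p.1 * Ki β τ i p.2).trace := fun i =>
    eg_trace hG fun j l => (eg_Ki h0 h1 i j l).snd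
  have hH : EG fun p : ℝ × (Edge n → ℝ) =>
      (Gu (sh (Bm β τ p.2) η) (P p.2) p.1 * (Bm β τ p.2 * Bm β τ p.2)).trace :=
    eg_trace hG fun j l => (eg_mul hB hB j l).snd
  have hc' : ContinuousOn (fun u : ℝ => a * (η + u)⁻¹ + b) (Set.uIcc 0 U) := by
    refine ((ContinuousOn.inv₀ (by fun_prop) fun u hu => ?_).const_mul a).add continuousOn_const
    rw [Set.uIcc_of_le hU] at hu
    linarith [hu.1]
  have iF : ∀ i, IntervalIntegrable (fun u => ∫ x,
      (Gu (sh (Bm β τ x) η) (P x) u * Ki β τ i x).trace ∂gam (Edge n)) volume 0 U := fun i =>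
    ((hF i).int_right (nice_gam _)).cont.intervalIntegrable 0 U
  have iH : IntervalIntegrable (fun u => ∫ x,
      (Gu (sh (Bm β τ x) η) (P x) u * (Bm β τ x * Bm β τ x)).trace ∂gam (Edge n)) volume 0 U :=
    (hH.int_right (nice_gam _)).cont.intervalIntegrable 0 U
  have s1 : ∀ i, ∫ x, (∫ u in (0 : ℝ)..U, (Gu (sh (Bm β τ x) η) (P x) u * Ki β τ i x).trace)
      ∂gam (Edge n) = ∫ u in (0 : ℝ)..U, ∫ x,
      (Gu (sh (Bm β τ x) η) (P x) u * Ki β τ i x).trace ∂gam (Edge n) := fun i =>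
    (swap (hF i) hU).2
  have s2 : ∫ x, (∫ u in (0 : ℝ)..U,
      (Gu (sh (Bm β τ x) η) (P x) u * (Bm β τ x * Bm β τ x)).trace) ∂gam (Edge n)
      = ∫ u in (0 : ℝ)..U, ∫ x,
      (Gu (sh (Bm β τ x) η) (P x) u * (Bm β τ x * Bm β τ x)).trace ∂gam (Edge n) :=
    (swap hH hU).2
  have s3 : Integrable (fun x => ∫ u in (0 : ℝ)..U,
      (Gu (sh (Bm β τ x) η) (P x) u * (Bm β τ x * Bm β τ x)).trace) (gam (Edge n)) :=
    (swap hH hU).1
  simp only [integral_const_mul, s1]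
  rw [← Finset.mul_sum, ← intervalIntegral.integral_finset_sum fun i _ => iF i]
  have m1 := intervalIntegral.integral_mono_on hU (IntervalIntegrable.sum Finset.univ fun i _ => iF i)
    (iH.add hc'.intervalIntegrable) fun u hu => by
      simpa only [Finset.sum_apply] using hc u hu.1 hu.2
  simp only [Finset.sum_apply] at m1
  rw [intervalIntegral.integral_add iH hc'.intervalIntegrable, ← s2] at m1
  have m2 := int_err (b := b) hη hU ha
  have m3 : 1 / Real.pi * ∫ x, (∫ u in (0 : ℝ)..U,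
      (Gu (sh (Bm β τ x) η) (P x) u * (Bm β τ x * Bm β τ x)).trace) ∂gam (Edge n)
      ≤ (∫ x, (Bm β τ x * P x).trace ∂gam (Edge n)) / 2 := by
    rw [← integral_const_mul, ← integral_div]
    exact integral_mono (s3.const_mul _) ((eg_trace hB hP).intg.div_const 2) fun x =>
      h_gint (Fin n) (Bm β τ x) (P x) η U (hBs x) (hPs x) hη0 hU
  have hπ : 1 / Real.pi ≤ 1 := by
    rw [div_le_one Real.pi_pos]
    linarith [Real.pi_gt_three]
  have hπ0 : 0 ≤ 1 / Real.pi := by positivity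
  have hl : 0 ≤ a * Real.log (1 + U) + b * U :=
    add_nonneg (mul_nonneg ha (Real.log_nonneg (by linarith))) (mul_nonneg hb hU)
  refine (mul_le_mul_of_nonneg_left (m1.trans (add_le_add_right m2 _)) hπ0).trans ?_
  rw [mul_add]
  exact add_le_add m3 (mul_le_of_le_one_left hl hπ)

end EllzAux

open EllzAux in
theorem ellz (h_core : S_core) (h_gint : S_gint) (h_gcont : S_gcont) (h_comp : S_comp)
    (h_momeg : S_momeg) (h_mom : S_mom) (h_good : S_good) : S_ellz := by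
  intro β ε hε
  obtain ⟨k, hk⟩ := exists_nat_ge (11 / ε)
  obtain ⟨C1, hC1, hcore⟩ := h_core β k
  obtain ⟨C2, hC2, hmom⟩ := h_mom β (k + 1)
  refine ⟨96 * (1 + 2 / ε) + 16 * C1 + 1 + (1 + C2), by positivity, fun n τ P dP hn h0 hδ hP => ?_⟩
  have _h := h_good
  have hN : (1 : ℝ) ≤ n := by exact_mod_cast hn
  have hN0 : (0 : ℝ) < n := by linarith
  have hδ0 : 0 < 1 - τ ^ 2 := lt_of_lt_of_le (by positivity) hδ
  have hτ : τ < 1 := by nlinarith
  have hδ1 : 1 - τ ^ 2 ≤ 1 := by nlinarith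
  obtain ⟨μ, hμd⟩ : ∃ μ, μ = √(n / (1 - τ ^ 2)) := ⟨_, rfl⟩
  obtain ⟨K, hKd⟩ : ∃ K, K = (n : ℝ) ^ ε := ⟨_, rfl⟩
  have hμ2 : (1 - τ ^ 2) * μ ^ 2 = n := by
    rw [hμd, Real.sq_sqrt (by positivity)]
    field_simp
  have hμ1 : 1 ≤ μ := by
    rw [hμd]
    refine Real.one_le_sqrt.2 ?_
    rw [le_div_iff₀ hδ0]
    linarith
  have hμn : μ ≤ n := by
    rw [hμd]
    refine Real.sqrt_le_iff.2 ⟨hN0.le, ?_⟩
    rw [div_le_iff₀ hδ0]
    rw [div_le_iff₀ hN0] at hδ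
    nlinarith
  have hK1 : 1 ≤ K := hKd ▸ Real.one_le_rpow hN hε.le
  have hK2 : (n : ℝ) ^ (2 * ε) = K ^ 2 := by
    rw [hKd, mul_comm, Real.rpow_mul hN0.le, Real.rpow_two]
  have hKk : (n : ℝ) ^ 11 ≤ K ^ k := by
    rw [hKd, ← Real.rpow_natCast, ← Real.rpow_natCast, ← Real.rpow_mul hN0.le]
    refine Real.rpow_le_rpow_of_exponent_le hN ?_
    rw [div_le_iff₀ hε] at hk
    push_cast
    linarith
  have hQ : 0 < K ^ k := by positivity
  have hη : 1 ≤ μ * K := one_le_mul_of_one_le_of_one_le hμ1 hK1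
  have hη0 : 0 < μ * K := by linarith
  have hU : (0 : ℝ) ≤ (n : ℝ) ^ 2 := by positivity
  rw [← hμd, ← hKd, hK2]
  have hPe : ∀ j l, EG fun x => P x j l := fun j l => (hP.c1 j l).eg
  have hB : ∀ j l : Fin n, EG fun x => Bm β τ x j l := fun j l => eg_Bf h0 hτ.le j l
  have hBs := (a_B n β τ h0 hτ.le).2.2.2.1
  obtain ⟨hG, -, hinv⟩ := h_gcont (Edge n → ℝ) (Fin n) (Bm β τ) P (μ * K) hB hPe hBs hη0
  have i1 : ∀ i, Integrable (fun x => (1 / Real.pi) * ∫ u in (0 : ℝ)..(n : ℝ) ^ 2,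
      (Gu (sh (Bm β τ x) (μ * K)) (P x) u * Ki β τ i x).trace) (gam (Edge n)) := fun i =>
    (swap (eg_trace hG fun j l => (eg_Ki h0 hτ.le i j l).snd) hU).1.const_mul _
  have i2 : ∀ i, Integrable (fun x => (P x).trace * (Ki β τ i x).trace / (Real.pi * (n : ℝ) ^ 2))
      (gam (Edge n)) := fun i =>
    (((EG.sum _ fun j _ => hPe j j).mul (EG.sum _ fun j _ => eg_Ki h0 hτ.le i j j)).intg).div_const _
  have i3 : ∀ i, Integrable (fun x => μ * K / 2 *
      ((sh (Bm β τ x) (μ * K))⁻¹ * Ki β τ i x).trace) (gam (Edge n)) := fun i =>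
    (eg_trace hinv (eg_Ki h0 hτ.le i)).intg.const_mul _
  have e : ∀ i, ∫ x, ell (Bm β τ x) (P x) (Ki β τ i x) (μ * K) ((n : ℝ) ^ 2) ∂gam (Edge n) =
      ∫ x, (1 / Real.pi) * (∫ u in (0 : ℝ)..(n : ℝ) ^ 2,
        (Gu (sh (Bm β τ x) (μ * K)) (P x) u * Ki β τ i x).trace) ∂gam (Edge n)
      + ∫ x, (P x).trace * (Ki β τ i x).trace / (Real.pi * (n : ℝ) ^ 2) ∂gam (Edge n)
      + ∫ x, μ * K / 2 * ((sh (Bm β τ x) (μ * K))⁻¹ * Ki β τ i x).trace ∂gam (Edge n) := fun i => by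
    rw [← integral_add (i1 i) (i2 i)]
    exact integral_add ((i1 i).add (i2 i)) (i3 i)
  simp only [e, Finset.sum_add_distrib]
  have pc := part_c (n := n) (β := β) (P := P) h_gint h_gcont (a := 96 * K * (n * μ))
    (b := 8 * C1 * (n : ℝ) ^ 7 * (1 + (n : ℝ) ^ 2) / K ^ k) h0 hτ.le hη hU (by positivity)
    (by positivity) hPe hP.psd fun u hu hu' => by
      have hs : 0 < μ * K + u := by linarith
      have h1 := hcore n τ (μ * K) u (μ * K / (μ * K + u)) μ K P dP hn h0 hτ hη hu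
        (div_pos hη0 hs) ((div_le_one hs).2 (by linarith)) hμ1 hμn hK1 hP
      have h2 := err_le (C := C1) hN hδ0 hμ1 hμ2 hK1 hu hu' hC1 hQ
      linarith
  have pa : ∀ i, ∫ x, (P x).trace * (Ki β τ i x).trace / (Real.pi * (n : ℝ) ^ 2) ∂gam (Edge n)
      ≤ 1 := fun i => by
    calc _ ≤ ∫ _x, (1 : ℝ) ∂gam (Edge n) := by
          refine integral_mono (i2 i) (integrable_const _) fun x => ?_
          have h1 := tr_Ki_le (β := β) h0 hτ.le i x
          refine (div_le_one (by positivity)).2 ?_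
          rw [hP.tr x]
          have h2 := mul_le_mul_of_nonneg_left h1 hN0.le
          nlinarith [Real.pi_gt_three]
      _ = 1 := by simp
  have pb : ∀ i, ∫ x, μ * K / 2 * ((sh (Bm β τ x) (μ * K))⁻¹ * Ki β τ i x).trace ∂gam (Edge n)
      ≤ (1 + C2) * K ^ 2 * μ := fun i => by
    rw [integral_const_mul]
    have h1 := part_b (β := β) (k := k) h_gcont h_comp h_momeg h0 hτ.le hη0 (by linarith : 0 < K) i
      (hmom n τ (Real.pi / 2) i h0 hτ.le).1
    refine (mul_le_mul_of_nonneg_left h1 (by positivity)).trans ?_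
    have h2 : μ * K / 2 * (K + n / (μ * K) * C2 / K ^ k) = K ^ 2 * μ / 2 + C2 / 2 * (n / K ^ k) := by
      field_simp
    have h3 : n / K ^ k ≤ 1 :=
      (div_le_one hQ).2 ((le_self_pow₀ hN (by norm_num)).trans hKk)
    have h4 : 1 ≤ K ^ 2 * μ := one_le_mul_of_one_le_of_one_le (one_le_pow₀ hK1) hμ1
    rw [h2]
    nlinarith [mul_le_mul_of_nonneg_left h3 hC2, mul_le_mul_of_nonneg_left h4 hC2]
  have sa := Finset.sum_le_sum fun i (_ : i ∈ Finset.univ) => pa i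
  have sb := Finset.sum_le_sum fun i (_ : i ∈ Finset.univ) => pb i
  simp only [Finset.sum_const, Finset.card_univ, Fintype.card_fin, nsmul_eq_mul] at sa sb
  have hW : (n : ℝ) ≤ K ^ 2 * (n * μ) :=
    (le_mul_of_one_le_right hN0.le hμ1).trans
      (le_mul_of_one_le_left (by positivity) (one_le_pow₀ hK1))
  have l1 : 96 * K * (n * μ) * Real.log (1 + (n : ℝ) ^ 2) ≤
      96 * (1 + 2 / ε) * (K ^ 2 * (n * μ)) := by
    have := log_le hN hε
    rw [← hKd] at this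
    refine (mul_le_mul_of_nonneg_left this (by positivity)).trans (le_of_eq ?_)
    ring
  have l2 : 8 * C1 * (n : ℝ) ^ 7 * (1 + (n : ℝ) ^ 2) / K ^ k * (n : ℝ) ^ 2 ≤
      16 * C1 * (K ^ 2 * (n * μ)) := by
    have h1 : (n : ℝ) ^ 7 * (1 + (n : ℝ) ^ 2) * (n : ℝ) ^ 2 ≤ 2 * K ^ k := by
      have h2 : 1 + (n : ℝ) ^ 2 ≤ 2 * (n : ℝ) ^ 2 := by nlinarith
      calc _ ≤ (n : ℝ) ^ 7 * (2 * (n : ℝ) ^ 2) * (n : ℝ) ^ 2 := by gcongr
        _ = 2 * (n : ℝ) ^ 11 := by ring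
        _ ≤ _ := by linarith
    have h3 : (n : ℝ) ^ 7 * (1 + (n : ℝ) ^ 2) * (n : ℝ) ^ 2 / K ^ k ≤ 2 :=
      (div_le_iff₀ hQ).2 h1
    calc _ = 8 * C1 * ((n : ℝ) ^ 7 * (1 + (n : ℝ) ^ 2) * (n : ℝ) ^ 2 / K ^ k) := by ring
      _ ≤ 8 * C1 * 2 := by gcongr
      _ = 16 * C1 * 1 := by ring
      _ ≤ _ := by gcongr; linarith
  have e2 : (96 * (1 + 2 / ε) + 16 * C1 + 1 + (1 + C2)) * K ^ 2 * (n * μ) =
      96 * (1 + 2 / ε) * (K ^ 2 * (n * μ)) + 16 * C1 * (K ^ 2 * (n * μ)) + K ^ 2 * (n * μ)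
        + n * ((1 + C2) * K ^ 2 * μ) := by ring
  rw [e2]
  linarith

end Vale.Agent.P146
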