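import Vale.Agent.P146.Defs2

/-! # P146: regularity of the resolvent kernels -/

namespace Vale.Agent.P146

open MeasureTheory ProbabilityTheory Matrix

namespace Gc1Aux

variable {κ : Type} [Fintype κ] [DecidableEq κ]

/-- Coercive matrices. -/
def Co (c : ℝ) (N : Matrix κ κ ℝ) : Prop := ∀ v : κ → ℝ, c * (v ⬝ᵥ v) ≤ v ⬝ᵥ (N *ᵥ v)

theorem Co.det {c : ℝ} {N : Matrix κ κ ℝ} (h : Co c N) (hc : 0 < c) : N.det ≠ 0 := by
  intro h0
  obtain ⟨v, hv, e⟩ := Matrix.exists_mulVec_eq_zero_iff.2 h0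
  have h1 := h v
  rw [e, dotProduct_zero] at h1
  have h2 : 0 < v ⬝ᵥ v :=
    lt_of_le_of_ne (Finset.sum_nonneg fun i _ => mul_self_nonneg _)
      fun e => hv (dotProduct_self_eq_zero.1 e.symm)
  nlinarith

theorem Co.bd {c : ℝ} {N : Matrix κ κ ℝ} (h : Co c N) (hc : 0 < c) (j k : κ) :
    |N⁻¹ j k| ≤ 1 / c := by
  have h1 := h (N⁻¹ *ᵥ Pi.single k 1)
  rw [mulVec_mulVec, mul_nonsing_inv _ (h.det hc).isUnit, one_mulVec, dotProduct_single,
    mul_one] at h1
  have e : N⁻¹ j k = (N⁻¹ *ᵥ Pi.single k 1) j := by simp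
  rw [e]
  generalize N⁻¹ *ᵥ Pi.single k 1 = v at h1
  have h2 : ∀ i, v i * v i ≤ v ⬝ᵥ v := fun i =>
    Finset.single_le_sum (f := fun i => v i * v i) (fun i _ => mul_self_nonneg _)
      (Finset.mem_univ i)
  have h3 : c ^ 2 * (v ⬝ᵥ v) ≤ 1 := by
    nlinarith [h2 k, sq_nonneg (c * v k - 1), mul_le_mul_of_nonneg_left h1 hc.le,
      mul_le_mul_of_nonneg_left (h2 k) (sq_nonneg c)]
  rw [le_div_iff₀ hc, ← abs_of_pos hc, ← abs_mul, ← sq_le_one_iff_abs_le_one]
  nlinarith [mul_le_mul_of_nonneg_left (h2 j) (sq_nonneg c)]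

theorem co_sh {B : Matrix κ κ ℝ} (hB : B.PosSemidef) (η : ℝ) : Co η (sh B η) := fun v => by
  have := hB.dotProduct_mulVec_nonneg v
  simp only [star_trivial] at this
  rw [sh, add_mulVec, smul_mulVec, one_mulVec, dotProduct_add, dotProduct_smul, smul_eq_mul]
  linarith

theorem co_N {B : Matrix κ κ ℝ} (hB : B.PosSemidef) {η : ℝ} (hη : 0 < η) (u : ℝ) :
    Co (η ^ 2) (sh B η * sh B η + (u ^ 2) • (1 : Matrix κ κ ℝ)) := fun v => by
  have h1 := hB.dotProduct_mulVec_nonneg v
  have h2 := (hB.pow 2).dotProduct_mulVec_nonneg v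
  simp only [star_trivial] at h1 h2
  have h3 : 0 ≤ v ⬝ᵥ v := Finset.sum_nonneg fun i _ => mul_self_nonneg _
  have e : sh B η * sh B η = B ^ 2 + (2 * η) • B + (η ^ 2) • (1 : Matrix κ κ ℝ) := by
    simp only [sh, add_mul, mul_add, smul_mul_assoc, mul_smul_comm, one_mul, mul_one, sq,
      smul_add, smul_smul, two_mul, add_smul]
    abel
  simp only [e, add_mulVec, smul_mulVec, one_mulVec, dotProduct_add, dotProduct_smul, smul_eq_mul]
  nlinarith [mul_nonneg hη.le h1, mul_nonneg (sq_nonneg u) h3]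

section meg
variable {X : Type} [NormedAddCommGroup X] {F G : X → Matrix κ κ ℝ}

/-- Matrix fields of exponential growth. -/
def MEG (F : X → Matrix κ κ ℝ) : Prop := ∀ j k, EG fun x => F x j k

omit [Fintype κ] [DecidableEq κ] in
theorem MEG.add (hF : MEG F) (hG : MEG G) : MEG fun x => F x + G x :=
  fun j k => (hF j k).add (hG j k)

omit [Fintype κ] [DecidableEq κ] in
theorem MEG.neg (hF : MEG F) : MEG fun x => -F x := fun j k => (hF j k).neg

omit [DecidableEq κ] in
theorem MEG.mul (hF : MEG F) (hG : MEG G) : MEG fun x => F x * G x :=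
  fun j k => EG.sum Finset.univ fun a _ => (hF j a).mul (hG a k)

omit [Fintype κ] [DecidableEq κ] in
theorem MEG.smul {f : X → ℝ} (hf : EG f) (hF : MEG F) : MEG fun x => f x • F x :=
  fun j k => hf.mul (hF j k)

omit [Fintype κ] [DecidableEq κ] in
theorem MEG.const (A : Matrix κ κ ℝ) : MEG fun _ : X => A := fun _ _ => EG.const _

omit [DecidableEq κ] in
theorem MEG.trace (hF : MEG F) : EG fun x => (F x).trace := EG.sum Finset.univ fun a _ => hF a a

theorem MEG.inv (hF : MEG F) {c : ℝ} (hc : 0 < c) (h : ∀ x, Co c (F x)) :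
    MEG fun x => (F x)⁻¹ := fun j k => by
  have h0 : Continuous F := continuous_pi fun j => continuous_pi fun k => (hF j k).cont
  refine EG.of_bdd ?_ fun x => (h x).bd hc j k
  simp only [Matrix.inv_def, Ring.inverse_eq_inv, Matrix.smul_apply, smul_eq_mul]
  exact (h0.matrix_det.inv₀ fun x => (h x).det hc).mul (h0.matrix_adjugate.matrix_elem j k)

omit [Fintype κ] in
theorem MEG.sh (hF : MEG F) (η : ℝ) : MEG fun x => sh (F x) η := hF.add (MEG.const _)

end meg

section mc1
variable {ι : Type} [Fintype ι] {F G : (ι → ℝ) → Matrix κ κ ℝ}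
  {dF dG' : ι → (ι → ℝ) → Matrix κ κ ℝ}

/-- Differentiable matrix fields. -/
def MC1 (F : (ι → ℝ) → Matrix κ κ ℝ) (dF : ι → (ι → ℝ) → Matrix κ κ ℝ) : Prop :=
  ∀ j k, C1 (fun x => F x j k) fun e x => dF e x j k

omit [Fintype κ] [DecidableEq κ] in
theorem MC1.congr (h : MC1 F dF) (e : ∀ e x, dF e x = dG' e x) : MC1 F dG' := by
  rwa [show dG' = dF from funext fun a => funext fun x => (e a x).symm]

omit [Fintype κ] [DecidableEq κ] in
theorem MC1.add (hF : MC1 F dF) (hG : MC1 G dG') :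
    MC1 (fun x => F x + G x) fun e x => dF e x + dG' e x := fun j k => by
  refine ⟨(hF j k).eg.add (hG j k).eg, fun e => ((hF j k).egD e).add ((hG j k).egD e),
    fun x => (((hF j k).der x).add ((hG j k).der x)).congr_fderiv ?_⟩
  simp only [Matrix.add_apply, add_smul, Finset.sum_add_distrib]

omit [Fintype κ] [DecidableEq κ] in
theorem MC1.add_const (hF : MC1 F dF) (A : Matrix κ κ ℝ) : MC1 (fun x => F x + A) dF :=
  fun j k => ⟨(hF j k).eg.add (EG.const _), (hF j k).egD, fun x => ((hF j k).der x).add_const _⟩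

omit [Fintype κ] [DecidableEq κ] in
theorem MC1.smul (hF : MC1 F dF) (c : ℝ) : MC1 (fun x => c • F x) fun e x => c • dF e x :=
  fun j k => by
  refine ⟨(hF j k).eg.const_mul c, fun e => ((hF j k).egD e).const_mul c,
    fun x => (((hF j k).der x).const_mul c).congr_fderiv ?_⟩
  simp only [Matrix.smul_apply, smul_eq_mul, Finset.smul_sum, smul_smul]

omit [DecidableEq κ] in
theorem MC1.mul (hF : MC1 F dF) (hG : MC1 G dG') :
    MC1 (fun x => F x * G x) fun e x => dF e x * G x + F x * dG' e x := fun j k => by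
  have := c1lin ι κ Finset.univ (fun _ => 1) 0 _ _ fun a _ => c1mul ι _ _ _ _ (hF j a) (hG a k)
  simp only [one_mul, sub_zero, Finset.sum_add_distrib] at this
  exact this

theorem mul_der {E : Type} [NormedAddCommGroup E] [NormedSpace ℝ E] {f g : E → ℝ} {x : E}
    {g' : E →L[ℝ] ℝ} (hf : ContinuousAt f x) (hg : HasFDerivAt g g' x) :
    HasFDerivAt (fun y => f y * (g y - g x)) (f x • g') x := by
  rw [hasFDerivAt_iff_isLittleO]
  have h1 := hg.isLittleO.const_mul_left (f x)
  have h2 : (fun y => f y - f x) =o[nhds x] fun _ => (1 : ℝ) :=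
    (Asymptotics.isLittleO_one_iff ℝ).2 (tendsto_sub_nhds_zero_iff.2 hf)
  have h3 := h2.mul_isBigO hg.isBigO_sub.norm_right
  simp only [one_mul] at h3
  refine (h1.add h3.of_norm_right).congr_left fun y => ?_
  simp only [_root_.smul_apply, smul_eq_mul]
  ring

theorem MC1.inv (hF : MC1 F dF) {c : ℝ} (hc : 0 < c) (h : ∀ x, Co c (F x)) :
    MC1 (fun x => (F x)⁻¹) fun e x => -((F x)⁻¹ * dF e x * (F x)⁻¹) := fun j k => by
  have hI := MEG.inv (fun j k => (hF j k).eg) hc h
  refine ⟨hI j k, fun e => ((hI.mul fun j k => (hF j k).egD e).mul hI).neg j k, fun x => ?_⟩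
  have e : (fun y => (F y)⁻¹ j k) = fun y => (F x)⁻¹ j k
      - ∑ b, (∑ a, (F y)⁻¹ j a * (F y a b - F x a b)) * (F x)⁻¹ b k := by
    funext y
    have : (F y)⁻¹ = (F x)⁻¹ - (F y)⁻¹ * (F y - F x) * (F x)⁻¹ := by
      rw [mul_sub, sub_mul, nonsing_inv_mul _ ((h y).det hc).isUnit, one_mul, mul_assoc,
        mul_nonsing_inv _ ((h x).det hc).isUnit, mul_one, sub_sub_cancel]
    exact congrFun (congrFun this j) k
  rw [e]
  refine ((HasFDerivAt.fun_sum fun b _ => (HasFDerivAt.fun_sum fun a _ =>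
    mul_der (hI j a).cont.continuousAt ((hF a b).der x)).mul_const
      ((F x)⁻¹ b k)).const_sub _).congr_fderiv ?_
  ext v
  simp only [Matrix.neg_apply, Matrix.mul_apply, _root_.neg_apply,
    _root_.sum_apply, _root_.smul_apply, smul_eq_mul, neg_mul, Finset.sum_neg_distrib,
    Finset.mul_sum, Finset.sum_mul]
  rw [neg_inj, Finset.sum_comm (s := (Finset.univ : Finset ι))]
  refine Finset.sum_congr rfl fun b _ => ?_
  rw [Finset.sum_comm]
  exact Finset.sum_congr rfl fun a _ => Finset.sum_congr rfl fun e _ => by ring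

end mc1

theorem alg {A X : Matrix κ κ ℝ} {u : ℝ}
    (h : (A * A + (u ^ 2) • (1 : Matrix κ κ ℝ)).det ≠ 0) :
    X * Qm A u + A * -(Qm A u * (X * A + A * X) * Qm A u) = dC A u X ∧
      u • -(Qm A u * (X * A + A * X) * Qm A u) = dS A u X := by
  have h1 : Qm A u * (A * A + (u ^ 2) • (1 : Matrix κ κ ℝ)) = 1 := nonsing_inv_mul _ h.isUnit
  have h2 : (A * A + (u ^ 2) • (1 : Matrix κ κ ℝ)) * Qm A u = 1 := mul_nonsing_inv _ h.isUnit
  have h3 : A * (A * A + (u ^ 2) • (1 : Matrix κ κ ℝ))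
      = (A * A + (u ^ 2) • (1 : Matrix κ κ ℝ)) * A := by
    simp only [mul_add, add_mul, mul_smul_comm, smul_mul_assoc, mul_one, one_mul, mul_assoc]
  have h4 : Qm A u * A = A * Qm A u := by
    calc Qm A u * A = Qm A u * A * ((A * A + (u ^ 2) • (1 : Matrix κ κ ℝ)) * Qm A u) := by
          rw [h2, mul_one]
      _ = Qm A u * (A * (A * A + (u ^ 2) • (1 : Matrix κ κ ℝ))) * Qm A u := by
          simp only [mul_assoc]
      _ = A * Qm A u := by rw [h3, ← mul_assoc, h1, one_mul]
  have h5 : A * Qm A u * A = 1 - (u ^ 2) • Qm A u := by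
    rw [← h4, ← h1, mul_add, mul_smul_comm, mul_one, add_sub_cancel_right, mul_assoc]
  unfold dC dS Cm Sm
  generalize Qm A u = Q at *
  constructor
  · have : A * (Q * (X * A + A * X) * Q) = A * Q * X * (A * Q) + A * Q * A * X * Q := by
      simp only [mul_add, add_mul, mul_assoc]
    rw [mul_neg, this, h5]
    simp only [sub_mul, one_mul, smul_mul_assoc, mul_smul_comm, smul_smul, sq]
    abel
  · have : Q * (X * A + A * X) * Q = Q * X * (A * Q) + A * Q * X * Q := by
      rw [mul_add, add_mul, ← mul_assoc Q A X, h4]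
      simp only [mul_assoc]
    rw [this]
    simp only [smul_neg, smul_add, smul_mul_assoc, mul_smul_comm]
    abel

end Gc1Aux

open Gc1Aux

theorem gcont : S_gcont := by
  intro X κ _ _ _ B P η hB hP hp hη
  have hA : MEG fun p : ℝ × X => sh (B p.2) η := MEG.sh (fun j k => (hB j k).snd) η
  have hP' : MEG fun p : ℝ × X => P p.2 := fun j k => (hP j k).snd
  have hu : EG fun p : ℝ × X => p.1 :=
    EG.of_lin continuous_fst (a := 1) (b := 0) fun p => by simpa using norm_fst_le p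
  have hQ : MEG fun p : ℝ × X => Qm (sh (B p.2) η) p.1 :=
    ((hA.mul hA).add (MEG.smul hu.sq (MEG.const 1))).inv (pow_pos hη 2)
      fun p => co_N (hp _) hη _
  have hC := hA.mul hQ
  have hS := MEG.smul hu hQ
  exact ⟨((hC.mul hP').mul hC).add ((hS.mul hP').mul hS), hQ,
    (MEG.sh hB η).inv hη fun x => co_sh (hp x) η⟩

theorem gc1 (h_gcont : S_gcont) : S_gc1 := by
  intro ι κ _ _ _ B P dB dP η u hB hP hp hη
  have hA : MC1 (fun x => sh (B x) η) dB := MC1.add_const hB _
  have hN := fun x => co_N (hp x) hη u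
  have hQ := ((hA.mul hA).add_const _).inv (pow_pos hη 2) hN
  have hC : MC1 (fun x => Cm (sh (B x) η) u) fun e x => dC (sh (B x) η) u (dB e x) :=
    (hA.mul hQ).congr fun e x => (alg ((hN x).det (pow_pos hη 2))).1
  have hS : MC1 (fun x => Sm (sh (B x) η) u) fun e x => dS (sh (B x) η) u (dB e x) :=
    (hQ.smul u).congr fun e x => (alg ((hN x).det (pow_pos hη 2))).2
  refine (((hC.mul hP).mul hC).add ((hS.mul hP).mul hS)).congr fun e x => ?_
  simp only [dG, add_mul]
  abel

theorem Gc1Aux.eg_int {X : Type} [NormedAddCommGroup X] [SecondCountableTopology X]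
    {f : ℝ × X → ℝ} (hf : EG f) {U : ℝ} (hU : 0 < U) :
    EG fun x => ∫ u in (0 : ℝ)..U, f (u, x) := by
  obtain ⟨hc, C, c, hC, hc0, hb⟩ := hf
  refine ⟨intervalIntegral.continuous_parametric_intervalIntegral_of_continuous'
    (f := fun x u => f (u, x)) (hc.comp continuous_swap) 0 U,
    C * Real.exp (c * U) * U, c, by positivity, hc0, fun x => ?_⟩
  refine (intervalIntegral.norm_integral_le_of_norm_le_const (f := fun u => f (u, x))
    (C := C * Real.exp (c * U) * Real.exp (c * ‖x‖)) fun u hu => (hb (u, x)).trans ?_).trans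
    (le_of_eq ?_)
  · rw [Set.uIoc_of_le hU.le] at hu
    rw [mul_assoc, ← Real.exp_add, ← mul_add]
    refine mul_le_mul_of_nonneg_left (Real.exp_le_exp.2 (mul_le_mul_of_nonneg_left ?_ hc0)) hC
    rw [Prod.norm_def, Real.norm_of_nonneg hu.1.le]
    exact max_le (by linarith [norm_nonneg x, hu.2]) (by linarith)
  · rw [sub_zero, abs_of_pos hU]
    ring

theorem elleg (h_gcont : S_gcont) : S_elleg := by
  intro X κ _ _ _ _ B P N η U hB hP hN hp hη hU
  obtain ⟨h1, -, h3⟩ := h_gcont X κ B P η hB hP hp hη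
  have h4 : EG fun p : ℝ × X => (Gu (sh (B p.2) η) (P p.2) p.1 * N p.2).trace :=
    (MEG.mul h1 fun j k => (hN j k).snd).trace
  have hI := eg_int h4 hU
  simp only [ell, div_eq_mul_inv _ (Real.pi * U)]
  exact ((hI.const_mul _).add (((MEG.trace hP).mul (MEG.trace hN)).mul_const _)).add
    ((MEG.mul h3 hN).trace.const_mul _)

end Vale.Agent.P146
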