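import Vale.Agent.P146.Defs2

/-! # P146: moments of the density of one Gibbs measure with respect to another -/

namespace Vale.Agent.P146

open MeasureTheory ProbabilityTheory Matrix

namespace MomAux

variable {n : ℕ} {β : ℝ}

theorem wt_pos (β : ℝ) (g : Edge n → ℝ) (σ : Fin n → Bool) : 0 < wt β g σ :=
  div_pos (Real.exp_pos _) (SKAux.Z_pos β g)

theorem sum_wt (β : ℝ) (g : Edge n → ℝ) : ∑ σ, wt β g σ = 1 := by
  unfold wt
  rw [← Finset.sum_div, div_self (SKAux.Z_pos β g).ne']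

theorem eg_exp (c : ℝ) (σ : Fin n → Bool) :
    EG fun g : Edge n → ℝ => Real.exp (c * (β * ham g σ)) := by
  simp only [SKc1Aux.ham_eq]
  generalize SKc1Aux.lf (fun e : Edge n => β / √(n : ℝ) * SKc1Aux.se e σ) = L
  refine ⟨by fun_prop, 1, |c| * ‖L‖, zero_le_one, by positivity, fun g => ?_⟩
  rw [abs_of_pos (Real.exp_pos _), one_mul, Real.exp_le_exp, mul_assoc]
  refine (le_abs_self _).trans ?_
  rw [abs_mul]
  exact mul_le_mul_of_nonneg_left (L.le_opNorm g) (abs_nonneg c)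

theorem eg_wt (β : ℝ) (σ : Fin n → Bool) : EG fun g : Edge n → ℝ => wt β g σ := by
  have h : ∀ σ : Fin n → Bool, Continuous fun g : Edge n → ℝ => Real.exp (β * ham g σ) :=
    fun σ => by simpa only [one_mul] using (eg_exp (β := β) 1 σ).cont
  refine EG.of_bdd ((h σ).div (continuous_finset_sum _ fun σ _ => h σ)
    fun g => (SKAux.Z_pos β g).ne') (C := 1) fun g => ?_
  rw [abs_of_pos (wt_pos β g σ), ← sum_wt β g]
  exact Finset.single_le_sum (fun s _ => (wt_pos β g s).le) (Finset.mem_univ σ)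

theorem eg_inv (β : ℝ) (σ : Fin n → Bool) : EG fun g : Edge n → ℝ => (wt β g σ)⁻¹ := by
  have := (EG.sum Finset.univ fun s _ => eg_exp (β := β) 1 s).mul (eg_exp (β := β) (-1) σ)
  simp only [wt, inv_div]
  simpa only [one_mul, neg_mul, Real.exp_neg, div_eq_mul_inv] using this

theorem eg_pow {X : Type} [NormedAddCommGroup X] {f : X → ℝ} (h : EG f) (k : ℕ) :
    EG fun x => f x ^ k := by
  induction k with
  | zero => simpa only [pow_zero] using EG.const (X := X) 1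
  | succ k ih => simpa only [pow_succ] using ih.mul h

theorem eg_mom (β : ℝ) (k : ℕ) :
    EG fun p : (Edge n → ℝ) × (Edge n → ℝ) => mom β k p.1 p.2 := by
  simp only [mom, div_eq_mul_inv]
  exact EG.sum _ fun σ _ => (eg_wt β σ).snd.mul (eg_pow ((eg_wt β σ).fst.mul (eg_inv β σ).snd) k)

theorem mom_nonneg (β : ℝ) (k : ℕ) (a b : Edge n → ℝ) : 0 ≤ mom β k a b :=
  Finset.sum_nonneg fun σ _ => mul_nonneg (wt_pos β b σ).le
    (pow_nonneg (div_pos (wt_pos β a σ) (wt_pos β b σ)).le k)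

theorem norm_rot {ι : Type} [Fintype ι] [DecidableEq ι] (I : Finset ι) (θ : ℝ) (x y : ι → ℝ) :
    ‖rot I θ x y‖ ≤ ‖x‖ + ‖y‖ := by
  refine (pi_norm_le_iff_of_nonneg (by positivity)).2 fun e => ?_
  have h2 := norm_le_pi_norm x e
  have h3 := norm_le_pi_norm y e
  unfold rot
  split_ifs
  · refine (norm_add_le _ _).trans (add_le_add ?_ ?_) <;> rw [norm_mul]
    · exact (mul_le_of_le_one_left (norm_nonneg _) (Real.abs_cos_le_one θ)).trans h2
    · exact (mul_le_of_le_one_left (norm_nonneg _) (Real.abs_sin_le_one θ)).trans h3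
  · linarith [norm_nonneg y]

theorem cont_rot {ι : Type} [DecidableEq ι] (I : Finset ι) (θ : ℝ) :
    Continuous fun p : (ι → ℝ) × (ι → ℝ) => rot I θ p.1 p.2 := by
  refine continuous_pi fun e => ?_
  unfold rot
  split_ifs <;> fun_prop

theorem eg_gen {ι : Type} [Fintype ι] [DecidableEq ι] {a : ι → ℝ} (hu : U01 a) (I : Finset ι)
    (θ : ℝ) {f : (ι → ℝ) × (ι → ℝ) → ℝ} (hf : EG f) :
    EG fun q : ((ι → ℝ) × (ι → ℝ)) × (ι → ℝ) =>
      f (nz a (rot I θ q.1.1 q.1.2) q.2, nz a q.1.1 q.2) := by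
  have c0 : Continuous fun q : ((ι → ℝ) × (ι → ℝ)) × (ι → ℝ) => rot I θ q.1.1 q.1.2 :=
    (cont_rot I θ).comp continuous_fst
  refine hf.comp (φ := fun q : ((ι → ℝ) × (ι → ℝ)) × (ι → ℝ) =>
    (nz a (rot I θ q.1.1 q.1.2) q.2, nz a q.1.1 q.2)) (by unfold nz; fun_prop) (a := 3) (b := 0)
    fun q => ?_
  have a1 := norm_nz hu (rot I θ q.1.1 q.1.2) q.2
  have a2 := norm_nz hu q.1.1 q.2
  have a3 := norm_rot I θ q.1.1 q.1.2
  have a4 := norm_fst_le q
  have a5 := norm_snd_le q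
  have a6 := norm_fst_le q.1
  have a7 := norm_snd_le q.1
  have a8 := norm_nonneg q
  rw [Prod.norm_def]
  exact max_le (a1.trans (by linarith)) (a2.trans (by linarith))

theorem eg_in {τ : ℝ} (h0 : 0 ≤ τ) (h1 : τ ≤ 1) (β θ : ℝ) (k : ℕ) (i : Fin n) :
    EG fun q : ((Edge n → ℝ) × (Edge n → ℝ)) × (Edge n → ℝ) =>
      mom β k (nz (fun _ => τ) (rot (row i) θ q.1.1 q.1.2) q.2) (nz (fun _ => τ) q.1.1 q.2) :=
  eg_gen (u01_const h0 h1) (row i) θ (eg_mom β k)

theorem int_in {τ : ℝ} (h0 : 0 ≤ τ) (h1 : τ ≤ 1) (β θ : ℝ) (k : ℕ) (i : Fin n)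
    (x y : Edge n → ℝ) : Integrable (fun z => mom β k (nz (fun _ => τ) (rot (row i) θ x y) z)
      (nz (fun _ => τ) x z)) (gam (Edge n)) :=
  ((eg_in h0 h1 β θ k i).sec_right (x, y)).intg

theorem int_nz {ι : Type} [Fintype ι] {a : ι → ℝ} (hu : U01 a) {f : (ι → ℝ) → ℝ} (hf : EG f)
    (x : ι → ℝ) : Integrable (fun z => f (nz a x z)) (gam ι) := ((hf.nz hu).sec_right x).intg

/-- The quadratic form of the two-point matrix. -/
noncomputable def Qv (β : ℝ) (v : Fin n → ℝ) (g : Edge n → ℝ) : ℝ :=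
  ∑ σ, wt β g σ * (∑ j, v j * spin (σ j)) ^ 2

theorem eg_Qv (β : ℝ) (v : Fin n → ℝ) : EG (Qv β v) :=
  EG.sum _ fun σ _ => (eg_wt β σ).mul_const _

theorem qf_Bm {τ : ℝ} (h0 : 0 ≤ τ) (h1 : τ ≤ 1) (β : ℝ) (v : Fin n → ℝ) (x : Edge n → ℝ) :
    qf (Bm β τ x) v = T (fun _ => τ) (Qv β v) x := by
  have hu : U01 fun _ : Edge n => τ := u01_const h0 h1
  have hM : ∀ j k : Fin n, EG (M β j k) := fun j k => ((mc1 n β).1 j k).eg
  have e : Qv β v = fun g => ∑ j, ∑ k, v j * v k * M β j k g := by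
    funext g
    simp only [Qv, sq, Finset.sum_mul_sum]
    simp only [M, gb, wt, Finset.mul_sum, Finset.sum_div]
    rw [Finset.sum_comm]
    refine Finset.sum_congr rfl fun j _ => ?_
    rw [Finset.sum_comm]
    exact Finset.sum_congr rfl fun k _ => Finset.sum_congr rfl fun σ _ => by ring
  rw [e, T_sum _ (fun j _ => EG.sum _ fun k _ => (hM j k).const_mul _) hu]
  simp only [T_sum _ (fun k _ => (hM _ k).const_mul _) hu, T_const_mul, qf, dotProduct, mulVec,
    Bm, of_apply, Bf, Finset.mul_sum]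
  exact Finset.sum_congr rfl fun j _ => Finset.sum_congr rfl fun k _ => by ring

theorem Qv_le {K : ℝ} (hK : 0 < K) (β : ℝ) (k : ℕ) (v : Fin n → ℝ) (a b : Edge n → ℝ) :
    Qv β v a ≤ K * Qv β v b + n * (v ⬝ᵥ v) / K ^ k * mom β (k + 1) a b := by
  simp only [Qv, mom, Finset.mul_sum, ← Finset.sum_add_distrib]
  refine Finset.sum_le_sum fun σ _ => ?_
  have hs : (∑ j, v j * spin (σ j)) ^ 2 ≤ n * (v ⬝ᵥ v) := by
    have := Finset.sum_mul_sq_le_sq_mul_sq Finset.univ v fun j => spin (σ j)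
    simpa only [sq, SKAux.spin_sq, Finset.sum_const, Finset.card_univ, Fintype.card_fin,
      nsmul_eq_mul, mul_one, dotProduct, mul_comm _ (n : ℝ)] using this
  have pb := wt_pos β b σ
  have pL := div_pos (wt_pos β a σ) pb
  have ea : wt β a σ = wt β b σ * (wt β a σ / wt β b σ) := (mul_div_cancel₀ _ pb.ne').symm
  generalize wt β a σ / wt β b σ = L at pL ea ⊢
  have hL : L ≤ K + L ^ (k + 1) / K ^ k := by
    rcases le_total L K with h | h
    · exact h.trans (le_add_of_nonneg_right (by positivity))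
    · refine le_add_of_nonneg_of_le hK.le ?_
      rw [le_div_iff₀ (by positivity), pow_succ']
      exact mul_le_mul_of_nonneg_left (pow_le_pow_left₀ hK.le h k) pL.le
  have f1 := mul_le_mul_of_nonneg_left hL (mul_nonneg pb.le (sq_nonneg (∑ j, v j * spin (σ j))))
  have f2 := mul_le_mul_of_nonneg_left hs
    (show 0 ≤ wt β b σ * (L ^ (k + 1) / K ^ k) by positivity)
  rw [ea]
  calc _ ≤ K * (wt β b σ * (∑ j, v j * spin (σ j)) ^ 2) +
        wt β b σ * (L ^ (k + 1) / K ^ k) * (n * (v ⬝ᵥ v)) := by linarith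
    _ = _ := by ring

theorem row_sq {B : Matrix (Fin n) (Fin n) ℝ} (hB : B.PosSemidef) (i : Fin n) (h1 : B i i = 1)
    (v : Fin n → ℝ) : (B i ⬝ᵥ v) ^ 2 ≤ qf B v := by
  have h := hB.dotProduct_mulVec_nonneg (v - (B i ⬝ᵥ v) • Pi.single i 1)
  have hs : Bᵀ = B := hB.1
  have e1 : Pi.single i 1 ⬝ᵥ B *ᵥ v = B i ⬝ᵥ v := by rw [single_one_dotProduct]; rfl
  have e2 : v ⬝ᵥ B *ᵥ Pi.single i 1 = B i ⬝ᵥ v := by
    rw [dotProduct_mulVec, ← mulVec_transpose, hs, dotProduct_comm, e1]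
  have e3 : Pi.single i 1 ⬝ᵥ B *ᵥ Pi.single i (1 : ℝ) = 1 := by
    rw [single_one_dotProduct, mulVec_single_one]
    exact h1
  simp only [star_trivial, mulVec_sub, mulVec_smul, sub_dotProduct, dotProduct_sub,
    smul_dotProduct, dotProduct_smul, smul_eq_mul, e1, e2, e3] at h
  unfold qf
  linarith

theorem mp_int {X Y : Type} [MeasurableSpace X] [MeasurableSpace Y] [TopologicalSpace Y]
    [OpensMeasurableSpace Y] {μ : Measure X} {ν : Measure Y} {φ : X → Y}
    (h : MeasurePreserving φ μ ν) {F : Y → ℝ} (hF : Continuous F) :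
    ∫ x, F (φ x) ∂μ = ∫ y, F y ∂ν := by
  rw [← h.map_eq, integral_map h.measurable.aemeasurable hF.measurable.aestronglyMeasurable]

theorem int_Pm (h_momeg : S_momeg) (h_momdet : S_momdet) (h_momg : S_momg) (h_rot : S_rot) (β : ℝ)
    (k : ℕ) : ∃ C : ℝ, 0 ≤ C ∧ ∀ (n : ℕ) (τ θ : ℝ) (i : Fin n), 0 ≤ τ → τ ≤ 1 →
      ∫ p : (Edge n → ℝ) × (Edge n → ℝ), Pm β τ k i θ p.1 p.2
        ∂(gam (Edge n)).prod (gam (Edge n)) ≤ C := by
  cases k with
  | zero => exact ⟨1, zero_le_one, fun n τ θ i _ _ => by simp [Pm, mom, sum_wt]⟩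
  | succ k =>
    refine ⟨Real.exp ((4 * (k + 1)) ^ 2 * β ^ 2 / 2) + Real.exp ((-(4 * k)) ^ 2 * β ^ 2 / 2) +
      Real.exp ((2 * k) ^ 2 * β ^ 2 / 2), by positivity, fun n τ θ i h0 h1 => ?_⟩
    have hu : U01 fun _ : Edge n => τ := u01_const h0 h1
    obtain ⟨e1, b1⟩ := h_momg n β (4 * (k + 1)) i
    obtain ⟨e2, b2⟩ := h_momg n β (-(4 * k)) i
    obtain ⟨e3, b3⟩ := h_momg n β (2 * k) i
    obtain ⟨r1, r2, -⟩ := h_rot (Edge n) _ _ _ (row i) θ (mc1 n β).2 (e1.T hu)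
    have i1 := r1.intg2
    have i2 := (e2.T hu).fst.intg2
    have i3 := (e3.T hu).fst.intg2
    refine (integral_mono (h_momeg n β τ θ (k + 1) i h0 h1).2.1.intg2 ((i1.add i2).add i3)
      fun p => ?_).trans ?_
    · have j1 := int_nz hu e1 (rot (row i) θ p.1 p.2)
      have j2 := int_nz hu e2 p.1
      have j3 := int_nz hu e3 p.1
      refine (integral_mono (int_in h0 h1 β θ (k + 1) i p.1 p.2) ((j1.add j2).add j3)
        fun z => h_momdet n β k i _ _ fun e he => ?_).trans (le_of_eq ?_)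
      · simp only [nz, rot, if_neg he]
      · rw [integral_add' (j1.add j2) j3, integral_add' j1 j2]
        rfl
    · rw [integral_add' (i1.add i2) i3, integral_add' i1 i2, mp_int r2 (e1.T hu).cont,
        integral_fun_fst (T _ _), integral_fun_fst (T _ _), (a_contr _ _ _ hu e1).1,
        (a_contr _ _ _ hu e2).1, (a_contr _ _ _ hu e3).1]
      simp only [probReal_univ, one_smul]
      exact add_le_add (add_le_add b1 b2) b3

theorem mom_sq (β : ℝ) (k : ℕ) (a b : Edge n → ℝ) (t : ℝ) :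
    mom β k a b * t ^ 2 ≤ (mom β (2 * k) a b + t ^ 4) / 2 := by
  have e : t ^ 4 = ∑ σ, wt β b σ * t ^ 4 := by rw [← Finset.sum_mul, sum_wt, one_mul]
  rw [e, mom, mom, Finset.sum_mul, ← Finset.sum_add_distrib, Finset.sum_div]
  refine Finset.sum_le_sum fun σ _ => ?_
  have := mul_nonneg (wt_pos β b σ).le (sq_nonneg ((wt β a σ / wt β b σ) ^ k - t ^ 2))
  rw [pow_mul']
  linarith

end MomAux

open MomAux

theorem momeg : S_momeg := fun _ β _ θ k i h0 h1 =>
  ⟨eg_mom β k, (eg_in h0 h1 β θ k i).int_right (nice_gam _),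
    fun _ _ => integral_nonneg fun _ => mom_nonneg β k _ _⟩

theorem comp (h_momeg : S_momeg) : S_comp := by
  intro n β τ η K θ k i x y h0 h1 hη hK
  have hu : U01 fun _ : Edge n => τ := u01_const h0 h1
  obtain ⟨-, -, b3, b4, -⟩ := a_B n β τ h0 h1
  have hP := (h_momeg n β τ θ (k + 1) i h0 h1).2.2 x y
  have hA : (sh (Bm β τ x) η).PosDef :=
    PosDef.posSemidef_add (b4 x) (PosDef.one.smul hη)
  obtain ⟨v, hv⟩ : ∃ v, v = (sh (Bm β τ x) η)⁻¹ *ᵥ wv β τ i θ x y := ⟨_, rfl⟩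
  have e1 : sh (Bm β τ x) η *ᵥ v = wv β τ i θ x y := by
    rw [hv, mulVec_mulVec, mul_nonsing_inv _ hA.det_pos.ne'.isUnit, one_mulVec]
  have e2 : wv β τ i θ x y ⬝ᵥ v = qf (Bm β τ x) v + η * (v ⬝ᵥ v) := by
    rw [dotProduct_comm, ← e1, sh, add_mulVec, dotProduct_add, smul_mulVec, one_mulVec,
      dotProduct_smul, smul_eq_mul, qf]
  have c1 : (wv β τ i θ x y ⬝ᵥ v) ^ 2 ≤ qf (Bm β τ (rot (row i) θ x y)) v :=
    row_sq (b4 _) i (b3 i _) v
  have c2 : qf (Bm β τ (rot (row i) θ x y)) v ≤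
      K * qf (Bm β τ x) v + n * (v ⬝ᵥ v) / K ^ k * Pm β τ (k + 1) i θ x y := by
    rw [qf_Bm h0 h1, qf_Bm h0 h1]
    have j1 := (int_nz hu (eg_Qv β v) x).const_mul K
    have j2 := (int_in h0 h1 β θ (k + 1) i x y).const_mul (n * (v ⬝ᵥ v) / K ^ k)
    refine (integral_mono (int_nz hu (eg_Qv β v) (rot (row i) θ x y)) (j1.add j2)
      fun z => Qv_le hK β k v _ _).trans (le_of_eq ?_)
    rw [integral_add' j1 j2, integral_const_mul, integral_const_mul]
    rfl
  have p1 : 0 ≤ qf (Bm β τ x) v := (b4 x).dotProduct_mulVec_nonneg v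
  have p2 : 0 ≤ v ⬝ᵥ v := Finset.sum_nonneg fun j _ => mul_self_nonneg _
  have pc : 0 ≤ n / η * Pm β τ (k + 1) i θ x y / K ^ k := by positivity
  have e3 : n * (v ⬝ᵥ v) / K ^ k * Pm β τ (k + 1) i θ x y =
      n / η * Pm β τ (k + 1) i θ x y / K ^ k * (η * (v ⬝ᵥ v)) := by
    field_simp
  rw [qf, ← hv]
  rw [e3] at c2
  generalize n / η * Pm β τ (k + 1) i θ x y / K ^ k = c at pc c2 ⊢
  have p3 := mul_nonneg hη.le p2
  refine le_of_not_gt fun hc => ?_
  have f1 := mul_nonneg hK.le p3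
  have f2 := mul_nonneg pc p1
  have f3 := mul_lt_mul_of_pos_right hc (show 0 < wv β τ i θ x y ⬝ᵥ v by linarith)
  rw [← sq] at f3
  rw [e2] at f3 c1
  linarith

theorem mom_bd (h_momeg : S_momeg) (h_momdet : S_momdet) (h_momg : S_momg) (h_rot : S_rot) :
    S_mom := by
  intro β k
  obtain ⟨C, hC, h⟩ := int_Pm h_momeg h_momdet h_momg h_rot β k
  obtain ⟨C', hC', h'⟩ := int_Pm h_momeg h_momdet h_momg h_rot β (2 * k)
  have p4 : 0 ≤ ∫ t : ℝ, t ^ 4 ∂gaussianReal 0 1 := integral_nonneg fun t => by positivity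
  refine ⟨C + (C' + ∫ t : ℝ, t ^ 4 ∂gaussianReal 0 1) / 2, by positivity, fun n τ θ i h0 h1 =>
    ⟨(h n τ θ i h0 h1).trans (le_add_of_nonneg_right (by positivity)), fun e => ?_⟩⟩
  refine le_add_of_nonneg_of_le hC ?_
  have i1 := (h_momeg n β τ θ (2 * k) i h0 h1).2.1.intg2
  have i2 := (eg_pow (EG.coord e) 4).snd.intg2
  refine (integral_mono ((h_momeg n β τ θ k i h0 h1).2.1.mul (EG.coord e).sq.snd).intg2
    ((i1.add i2).div_const 2) fun p => ?_).trans ?_
  · have j1 := int_in h0 h1 β θ (2 * k) i p.1 p.2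
    have j2 := (j1.add (integrable_const (p.2 e ^ 4))).div_const 2
    refine (integral_mul_const _ _).symm.trans_le ((integral_mono
      ((int_in h0 h1 β θ k i p.1 p.2).mul_const (p.2 e ^ 2)) j2
      fun z => mom_sq β k _ _ _).trans (le_of_eq ?_))
    rw [integral_div, integral_add' j1 (integrable_const _), integral_const, probReal_univ,
      one_smul]
    rfl
  · rw [integral_div, integral_add' i1 i2, integral_fun_snd fun y : Edge n → ℝ => y e ^ 4,
      probReal_univ, one_smul, mp_int (measurePreserving_eval (fun _ => gaussianReal 0 1) e)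
        (continuous_pow 4)]
    have := h' n τ θ i h0 h1
    linarith

end Vale.Agent.P146
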