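import Vale.Agent.P146.Defs2

/-! # P146: cavity moment bounds -/

namespace Vale.Agent.P146

open MeasureTheory ProbabilityTheory Matrix

namespace MomdetAux

theorem abstr {S : Type} [Fintype S] (w A B : S → ℝ) (k : ℕ) (hw : ∀ s, 0 < w s)
    (h1 : ∑ s, w s = 1) (za zb : ℝ) (ha : 1 ≤ za) (hb : zb = ∑ s, w s * Real.exp (B s)) :
    ∑ s, (w s * Real.exp (B s) / zb) *
        ((w s * Real.exp (A s) / za) / (w s * Real.exp (B s) / zb)) ^ (k + 1) ≤
      ∑ s, w s * Real.exp (4 * (k + 1) * A s) + ∑ s, w s * Real.exp (-(4 * k) * B s)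
        + ∑ s, w s * Real.exp (2 * k * B s) := by
  have hne : (Finset.univ : Finset S).Nonempty := by
    rw [Finset.nonempty_iff_ne_empty]
    intro h
    rw [h, Finset.sum_empty] at h1
    exact zero_ne_one h1
  have hb0 : 0 < zb := by
    rw [hb]
    exact Finset.sum_pos (fun s _ => mul_pos (hw s) (Real.exp_pos _)) hne
  have ha0 : 0 < za := by linarith
  set X : ℝ := ∑ s, w s * Real.exp ((k + 1) * A s - k * B s) with hX
  have e1 : ∀ s, (w s * Real.exp (B s) / zb) *
      ((w s * Real.exp (A s) / za) / (w s * Real.exp (B s) / zb)) ^ (k + 1)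
      = w s * Real.exp ((k + 1) * A s - k * B s) * (zb ^ k / za ^ (k + 1)) := fun s => by
    have h2 : (w s * Real.exp (A s) / za) / (w s * Real.exp (B s) / zb)
        = Real.exp (A s) * zb / (Real.exp (B s) * za) := by
      have := (hw s).ne'
      have := (Real.exp_pos (B s)).ne'
      field_simp
    have h3 : Real.exp ((k + 1) * A s) = Real.exp (A s) ^ (k + 1) := by
      rw [← Real.exp_nat_mul]
      push_cast
      rfl
    rw [h2, Real.exp_sub, h3, Real.exp_nat_mul, div_pow, mul_pow, mul_pow]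
    have := (Real.exp_pos (B s)).ne'
    field_simp
    ring
  simp only [e1]
  rw [← Finset.sum_mul, ← hX]
  have hX0 : 0 ≤ X := Finset.sum_nonneg fun s _ => (mul_pos (hw s) (Real.exp_pos _)).le
  have hY0 : 0 ≤ zb ^ k := by positivity
  have h4 : zb ^ k / za ^ (k + 1) ≤ zb ^ k := div_le_self hY0 (one_le_pow₀ ha)
  have h5 : X ^ 2 ≤ ∑ s, w s * Real.exp ((k + 1) * A s - k * B s) ^ 2 :=
    Real.pow_arith_mean_le_arith_mean_pow _ _ _ (fun s _ => (hw s).le) h1
      (fun s _ => (Real.exp_pos _).le) 2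
  have h6 : ∑ s, w s * Real.exp ((k + 1) * A s - k * B s) ^ 2 ≤
      ∑ s, w s * Real.exp (4 * (k + 1) * A s) + ∑ s, w s * Real.exp (-(4 * k) * B s) := by
    rw [← Finset.sum_add_distrib]
    refine Finset.sum_le_sum fun s _ => ?_
    rw [← mul_add]
    refine mul_le_mul_of_nonneg_left ?_ (hw s).le
    have p1 : Real.exp ((k + 1) * A s - k * B s) ^ 2
        = Real.exp (2 * (k + 1) * A s) * Real.exp (-(2 * k) * B s) := by
      rw [← Real.exp_add, pow_two, ← Real.exp_add]
      congr 1
      ring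
    have p2 : Real.exp (4 * (k + 1) * A s) = Real.exp (2 * (k + 1) * A s) ^ 2 := by
      rw [pow_two, ← Real.exp_add]
      congr 1
      ring
    have p3 : Real.exp (-(4 * k) * B s) = Real.exp (-(2 * k) * B s) ^ 2 := by
      rw [pow_two, ← Real.exp_add]
      congr 1
      ring
    rw [p1, p2, p3]
    nlinarith [sq_nonneg (Real.exp (2 * (k + 1) * A s) - Real.exp (-(2 * k) * B s)),
      mul_pos (Real.exp_pos (2 * (k + 1) * A s)) (Real.exp_pos (-(2 * k) * B s))]
  have h7 : (zb ^ k) ^ 2 ≤ ∑ s, w s * Real.exp (2 * k * B s) := by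
    have := Real.pow_arith_mean_le_arith_mean_pow Finset.univ w (fun s => Real.exp (B s))
      (fun s _ => (hw s).le) h1 (fun s _ => (Real.exp_pos _).le) (k * 2)
    rw [← hb, pow_mul] at this
    refine this.trans (le_of_eq (Finset.sum_congr rfl fun s _ => ?_))
    rw [← Real.exp_nat_mul]
    push_cast
    congr 2
    ring
  have h8 : X * (zb ^ k / za ^ (k + 1)) ≤ X * zb ^ k := mul_le_mul_of_nonneg_left h4 hX0
  nlinarith [sq_nonneg (X - zb ^ k), mul_nonneg hX0 hY0]

variable {n : ℕ}

theorem ham_add (g g' : Edge n → ℝ) (σ : Fin n → Bool) :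
    ham (g + g') σ = ham g σ + ham g' σ := by
  unfold ham
  rw [← mul_add, ← Finset.sum_add_distrib]
  congr 1
  exact Finset.sum_congr rfl fun e _ => by rw [Pi.add_apply]; ring

theorem ham_neg (g : Edge n → ℝ) (σ : Fin n → Bool) : ham (-g) σ = -ham g σ := by
  unfold ham
  rw [← mul_neg, ← Finset.sum_neg_distrib]
  congr 1
  exact Finset.sum_congr rfl fun e _ => by rw [Pi.neg_apply]; ring

theorem ham_split (o a : Edge n → ℝ) (σ : Fin n → Bool) :
    ham a σ = ham (o * a) σ + ham ((1 - o) * a) σ := by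
  rw [← ham_add]
  congr 1
  ring

theorem wt_pos (β : ℝ) (g : Edge n → ℝ) (σ : Fin n → Bool) : 0 < wt β g σ :=
  div_pos (Real.exp_pos _) (SKAux.Z_pos β g)

theorem sum_wt (β : ℝ) (g : Edge n → ℝ) : ∑ σ, wt β g σ = 1 := by
  unfold wt
  rw [← Finset.sum_div, div_self (SKAux.Z_pos β g).ne']

theorem gb_wt (β : ℝ) (g : Edge n → ℝ) (φ : (Fin n → Bool) → ℝ) :
    gb β g φ = ∑ σ, wt β g σ * φ σ := by
  unfold gb wt
  rw [Finset.sum_div]
  exact Finset.sum_congr rfl fun σ _ => by ring

theorem wt_split (β : ℝ) (o a : Edge n → ℝ) (σ : Fin n → Bool) :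
    wt β a σ = wt β (o * a) σ * Real.exp (β * ham ((1 - o) * a) σ) /
      ∑ s, wt β (o * a) s * Real.exp (β * ham ((1 - o) * a) s) := by
  have h : ∀ s, wt β (o * a) s * Real.exp (β * ham ((1 - o) * a) s) =
      Real.exp (β * ham a s) / ∑ σ' : Fin n → Bool, Real.exp (β * ham (o * a) σ') := fun s => by
    rw [ham_split o a s, mul_add, Real.exp_add, wt]
    ring
  simp only [h]
  rw [← Finset.sum_div, div_div_div_cancel_right₀ (SKAux.Z_pos β (o * a)).ne', wt]

theorem flp_off (i : Fin n) (a : Edge n → ℝ) : flp i * (off (row i) * a) = off (row i) * a := by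
  funext e
  simp only [Pi.mul_apply, flp, off]
  split_ifs <;> ring

theorem flp_on (i : Fin n) (a : Edge n → ℝ) :
    flp i * ((1 - off (row i)) * a) = -((1 - off (row i)) * a) := by
  funext e
  simp only [Pi.mul_apply, Pi.neg_apply, Pi.sub_apply, Pi.one_apply, flp, off]
  split_ifs <;> ring

theorem one_le_z (β : ℝ) (i : Fin n) (a : Edge n → ℝ) :
    1 ≤ ∑ s, wt β (off (row i) * a) s * Real.exp (β * ham ((1 - off (row i)) * a) s) := by
  have h1 := SKAux.sum_fl i
    fun s => wt β (off (row i) * a) s * Real.exp (β * ham ((1 - off (row i)) * a) s)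
  have h2 : ∀ s, wt β (off (row i) * a) (SKAux.fl i s) = wt β (off (row i) * a) s := fun s => by
    unfold wt
    rw [← SKAux.ham_flp, flp_off]
  have h3 : ∀ s, ham ((1 - off (row i)) * a) (SKAux.fl i s) = -ham ((1 - off (row i)) * a) s :=
    fun s => by rw [← SKAux.ham_flp, flp_on, ham_neg]
  simp only [h2, h3] at h1
  have h4 : ∑ s, 2 * wt β (off (row i) * a) s ≤
      ∑ s, (wt β (off (row i) * a) s * Real.exp (β * -ham ((1 - off (row i)) * a) s)
        + wt β (off (row i) * a) s * Real.exp (β * ham ((1 - off (row i)) * a) s)) := by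
    refine Finset.sum_le_sum fun s _ => ?_
    rw [← mul_add, mul_comm]
    refine mul_le_mul_of_nonneg_left ?_ (wt_pos _ _ _).le
    have p1 := Real.add_one_le_exp (β * -ham ((1 - off (row i)) * a) s)
    have p2 := Real.add_one_le_exp (β * ham ((1 - off (row i)) * a) s)
    linarith
  rw [Finset.sum_add_distrib, h1, ← Finset.mul_sum, sum_wt] at h4
  linarith

theorem exp_ham (t : ℝ) (o y : Edge n → ℝ) (σ : Fin n → Bool) :
    t * ham (o * y) σ =
      ∑ e, (t / √(n : ℝ) * (o e * (spin (σ e.1.1) * spin (σ e.1.2)))) * y e := by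
  unfold ham
  rw [← mul_assoc, Finset.mul_sum]
  exact Finset.sum_congr rfl fun e _ => by rw [Pi.mul_apply]; ring

theorem eg_exp_lin {ι : Type} [Fintype ι] (t : ι → ℝ) :
    EG fun y : ι → ℝ => Real.exp (∑ e, t e * y e) := by
  refine ⟨by fun_prop, 1, ∑ e, |t e|, zero_le_one,
    Finset.sum_nonneg fun e _ => abs_nonneg _, fun y => ?_⟩
  rw [one_mul, abs_of_pos (Real.exp_pos _), Finset.sum_mul]
  refine Real.exp_le_exp.2 (Finset.sum_le_sum fun e _ => ?_)
  refine (le_abs_self _).trans ?_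
  rw [abs_mul]
  exact mul_le_mul_of_nonneg_left (norm_le_pi_norm y e) (abs_nonneg _)

theorem int_exp_lin {ι : Type} [Fintype ι] (t : ι → ℝ) :
    ∫ y, Real.exp (∑ e, t e * y e) ∂gam ι = Real.exp ((∑ e, t e ^ 2) / 2) := by
  simp only [Real.exp_sum]
  rw [integral_fintype_prod_eq_prod (fun e (z : ℝ) => Real.exp (t e * z)), Finset.sum_div,
    Real.exp_sum]
  refine Finset.prod_congr rfl fun e _ => ?_
  have := congrFun (mgf_fun_id_gaussianReal (μ := 0) (v := 1)) (t e)
  simpa [mgf] using this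

theorem eg_wt (β : ℝ) (o : Edge n → ℝ) (σ : Fin n → Bool) :
    EG fun a : Edge n → ℝ => wt β (o * a) σ := by
  refine EG.of_bdd (C := 1) ?_ fun a => ?_
  · unfold wt
    refine Continuous.div ?_ ?_ fun a => (SKAux.Z_pos β (o * a)).ne'
    · unfold ham
      fun_prop
    · unfold ham
      fun_prop
  · rw [abs_of_pos (wt_pos _ _ _), ← sum_wt β (o * a)]
    exact Finset.single_le_sum (f := fun s => wt β (o * a) s) (fun s _ => (wt_pos _ _ _).le)
      (Finset.mem_univ σ)

theorem card_row (i : Fin n) : ∑ _e ∈ row i, (1 : ℝ) ≤ n := by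
  have h := SKAux.comb1 i (fun k => if k = i then 0 else 1) (by simp)
  have h2 : ∑ e ∈ row i, (if oth i e = i then (0 : ℝ) else 1) = ∑ _e ∈ row i, (1 : ℝ) :=
    Finset.sum_congr rfl fun e he => if_neg (SKAux.oth_ne he)
  rw [← h2, h]
  calc ∑ k : Fin n, (if k = i then (0 : ℝ) else 1) ≤ ∑ _k : Fin n, (1 : ℝ) :=
        Finset.sum_le_sum fun k _ => by split_ifs <;> norm_num
    _ = n := by simp

theorem sum_sq_le (t : ℝ) (i : Fin n) (σ : Fin n → Bool) :
    ∑ e : Edge n, (t / √(n : ℝ) * ((1 - off (row i)) e * (spin (σ e.1.1) * spin (σ e.1.2)))) ^ 2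
      ≤ t ^ 2 := by
  have hn : (0 : ℝ) < n := by exact_mod_cast Fin.pos i
  have h1 : ∀ e : Edge n,
      (t / √(n : ℝ) * ((1 - off (row i)) e * (spin (σ e.1.1) * spin (σ e.1.2)))) ^ 2
      = if e ∈ row i then t ^ 2 / n * 1 else 0 := fun e => by
    have p1 := SKAux.spin_sq (σ e.1.1)
    have p2 := SKAux.spin_sq (σ e.1.2)
    simp only [Pi.sub_apply, Pi.one_apply, off]
    split_ifs
    · rw [mul_pow, div_pow, Real.sq_sqrt hn.le]
      congr 1
      calc _ = (spin (σ e.1.1) * spin (σ e.1.1)) * (spin (σ e.1.2) * spin (σ e.1.2)) := by ring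
        _ = 1 := by rw [p1, p2, one_mul]
    · simp
  simp only [h1]
  rw [Finset.sum_ite_mem, Finset.univ_inter, ← Finset.mul_sum]
  calc t ^ 2 / n * ∑ _e ∈ row i, (1 : ℝ) ≤ t ^ 2 / n * n :=
        mul_le_mul_of_nonneg_left (card_row i) (by positivity)
    _ = t ^ 2 := by field_simp

end MomdetAux

open MomdetAux

theorem momdet : S_momdet := by
  intro n β k i a b hab
  have hc : off (row i) * a = off (row i) * b := by
    funext e
    simp only [Pi.mul_apply, off]
    split_ifs with he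
    · simp
    · rw [hab e he]
  have h := abstr (wt β (off (row i) * b)) (fun σ => β * ham ((1 - off (row i)) * a) σ)
    (fun σ => β * ham ((1 - off (row i)) * b) σ) k (wt_pos β _) (sum_wt β _) _ _
    (hc ▸ one_le_z β i a) rfl
  rw [hc, gb_wt, gb_wt, gb_wt]
  refine le_trans (le_of_eq ?_) h
  unfold mom
  refine Finset.sum_congr rfl fun σ _ => ?_
  rw [← wt_split β (off (row i)) b σ, ← hc, ← wt_split β (off (row i)) a σ]

theorem momg : S_momg := by
  intro n β c i
  have e1 : ∀ (a y : Edge n → ℝ),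
      (∑ σ, wt β (off (row i) * a) σ * Real.exp (c * (β * ham ((1 - off (row i)) * y) σ))) =
      ∑ σ, wt β (off (row i) * a) σ * Real.exp (∑ e, (c * β / √(n : ℝ) *
        ((1 - off (row i)) e * (spin (σ e.1.1) * spin (σ e.1.2)))) * y e) := fun a y =>
    Finset.sum_congr rfl fun σ _ => by rw [← mul_assoc c β, exp_ham]
  have heg : EG fun a : Edge n → ℝ =>
      gb β (off (row i) * a) fun σ => Real.exp (c * (β * ham ((1 - off (row i)) * a) σ)) := by
    simp only [gb_wt, e1]
    exact EG.sum _ fun σ _ => (eg_wt β _ σ).mul (eg_exp_lin _)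
  refine ⟨heg, ?_⟩
  rw [← (a_contr _ (off (row i)) _ (u01_off _) heg).1]
  have hb : ∀ x, |T (off (row i)) (fun a : Edge n → ℝ => gb β (off (row i) * a)
      fun σ => Real.exp (c * (β * ham ((1 - off (row i)) * a) σ))) x|
      ≤ Real.exp (c ^ 2 * β ^ 2 / 2) := fun x => by
    have p1 : ∀ y, off (row i) * nz (off (row i)) x y = off (row i) * x := fun y => by
      funext e
      simp only [Pi.mul_apply, nz_off]
      unfold off
      split_ifs <;> simp
    have p2 : ∀ y, (1 - off (row i)) * nz (off (row i)) x y = (1 - off (row i)) * y := fun y => by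
      funext e
      simp only [Pi.mul_apply, Pi.sub_apply, Pi.one_apply, nz_off]
      unfold off
      split_ifs <;> simp
    unfold T
    simp only [p1, p2, gb_wt, e1]
    rw [integral_finsetSum _ fun σ _ => ((eg_exp_lin _).const_mul _).intg]
    simp only [integral_const_mul, int_exp_lin]
    rw [abs_of_nonneg (Finset.sum_nonneg fun σ _ => (mul_pos (wt_pos _ _ _) (Real.exp_pos _)).le)]
    calc _ ≤ ∑ σ, wt β (off (row i) * x) σ * Real.exp (c ^ 2 * β ^ 2 / 2) := by
          refine Finset.sum_le_sum fun σ _ => mul_le_mul_of_nonneg_left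
            (Real.exp_le_exp.2 ?_) (wt_pos _ _ _).le
          have := sum_sq_le (c * β) i σ
          rw [mul_pow] at this
          linarith
      _ = _ := by rw [← Finset.sum_mul, sum_wt, one_mul]
  have := norm_integral_le_of_norm_le_const (μ := gam (Edge n)) (C := Real.exp (c ^ 2 * β ^ 2 / 2))
    (f := T (off (row i)) fun a : Edge n → ℝ => gb β (off (row i) * a)
      fun σ => Real.exp (c * (β * ham ((1 - off (row i)) * a) σ))) (ae_of_all _ hb)
  refine (le_abs_self _).trans ?_
  simpa using this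

end Vale.Agent.P146
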