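import Vale.Agent.P146.Defs2

/-! # P146: Perron-Frobenius admissibility of the tangent pair -/

namespace Vale.Agent.P146

open MeasureTheory ProbabilityTheory Matrix

namespace PfAux

theorem exists_min {E : Type} [NormedAddCommGroup E] [NormedSpace ℝ E] [FiniteDimensional ℝ E]
    (f g : E → ℝ) (hf : Continuous f) (hg : Continuous g)
    (hfh : ∀ (t : ℝ) v, f (t • v) = t ^ 2 * f v) (hgh : ∀ (t : ℝ) v, g (t • v) = t ^ 2 * g v)
    (hpos : ∀ v, v ≠ 0 → 0 < g v) (v₀ : E) (h₀ : v₀ ≠ 0) :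
    ∃ (r : ℝ) (v : E), v ≠ 0 ∧ f v = r * g v ∧ ∀ w, r * g w ≤ f w := by
  have hne : ∀ v ∈ Metric.sphere (0 : E) 1, v ≠ 0 := fun v hv => by
    rintro rfl
    simp at hv
  have hmem : ∀ w : E, w ≠ 0 → ‖w‖⁻¹ • w ∈ Metric.sphere (0 : E) 1 := fun w hw => by
    rw [mem_sphere_zero_iff_norm, norm_smul, norm_inv, norm_norm,
      inv_mul_cancel₀ (norm_ne_zero_iff.2 hw)]
  obtain ⟨v, hv, hmin⟩ := (isCompact_sphere (0 : E) 1).exists_isMinOn ⟨_, hmem v₀ h₀⟩
    (f := fun v => f v / g v)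
    (hf.continuousOn.div hg.continuousOn fun v hv => (hpos v (hne v hv)).ne')
  refine ⟨f v / g v, v, hne v hv, (div_mul_cancel₀ _ (hpos v (hne v hv)).ne').symm, fun w => ?_⟩
  by_cases hw : w = 0
  · have h1 := hfh 0 w
    have h2 := hgh 0 w
    rw [zero_smul] at h1 h2
    rw [hw, h1, h2]
    simp
  · have h1 : f v / g v ≤ f (‖w‖⁻¹ • w) / g (‖w‖⁻¹ • w) := hmin (hmem w hw)
    have h2 : (‖w‖⁻¹ ^ 2 : ℝ) ≠ 0 := pow_ne_zero _ (inv_ne_zero (norm_ne_zero_iff.2 hw))
    rw [hfh, hgh, mul_div_mul_left _ _ h2, le_div_iff₀ (hpos w hw)] at h1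
    exact h1

variable {κ : Type} [Fintype κ] [DecidableEq κ]

omit [DecidableEq κ] in
theorem tr_sq_pos {S : Matrix κ κ ℝ} (hS : Sᵀ = S) : 0 ≤ (S * S).trace ∧
    ((S * S).trace = 0 → S = 0) := by
  have h : Sᴴ = S := by rw [conjTranspose_eq_transpose_of_trivial, hS]
  refine ⟨?_, fun h0 => ?_⟩
  · have := (posSemidef_conjTranspose_mul_self S).trace_nonneg
    rwa [h] at this
  · rw [← trace_conjTranspose_mul_self_eq_zero_iff, h, h0]

omit [DecidableEq κ] in
theorem psd_of {M : Matrix κ κ ℝ} (hM : Mᵀ = M) (h : ∀ w, 0 ≤ w ⬝ᵥ M *ᵥ w) : M.PosSemidef :=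
  PosSemidef.of_dotProduct_mulVec_nonneg
    (by rw [IsHermitian, conjTranspose_eq_transpose_of_trivial, hM]) fun w => by simpa using h w

omit [Fintype κ] [DecidableEq κ] in
theorem sym_of {M : Matrix κ κ ℝ} (hM : M.IsHermitian) : Mᵀ = M := by
  rw [← conjTranspose_eq_transpose_of_trivial]
  exact hM

omit [DecidableEq κ] in
theorem ratio [Nonempty κ] {A : Matrix κ κ ℝ} (hA : A.PosDef) (M : Matrix κ κ ℝ) :
    ∃ (r : ℝ) (v : κ → ℝ), v ≠ 0 ∧ v ⬝ᵥ (r • A - M) *ᵥ v = 0 ∧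
      ∀ t, r ≤ t → ∀ w, 0 ≤ w ⬝ᵥ (t • A - M) *ᵥ w := by
  have hp : ∀ v : κ → ℝ, v ≠ 0 → 0 < v ⬝ᵥ A *ᵥ v := fun v hv => by
    simpa using hA.dotProduct_mulVec_pos hv
  have hn : ∀ v : κ → ℝ, 0 ≤ v ⬝ᵥ A *ᵥ v := fun v => by
    simpa using hA.posSemidef.dotProduct_mulVec_nonneg v
  obtain ⟨r, v, hv, h1, h2⟩ := exists_min (fun v : κ → ℝ => -(v ⬝ᵥ M *ᵥ v))
    (fun v => v ⬝ᵥ A *ᵥ v) (by fun_prop) (by fun_prop)
    (fun t v => by simp only [mulVec_smul, dotProduct_smul, smul_dotProduct, smul_eq_mul]; ring)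
    (fun t v => by simp only [mulVec_smul, dotProduct_smul, smul_dotProduct, smul_eq_mul]; ring)
    hp (fun _ => 1) (fun h => one_ne_zero (congrFun h (Classical.arbitrary κ)))
  refine ⟨-r, v, hv, ?_, fun t ht w => ?_⟩
  · simp only [sub_mulVec, smul_mulVec, dotProduct_sub, dotProduct_smul, smul_eq_mul]
    linarith
  · simp only [sub_mulVec, smul_mulVec, dotProduct_sub, dotProduct_smul, smul_eq_mul]
    have h3 := h2 w
    have h4 := mul_le_mul_of_nonneg_right ht (hn w)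
    linarith

omit [DecidableEq κ] in
theorem core {A A' G S S' : Matrix κ κ ℝ} {c t : ℝ} (hc : 0 < c) (ht : 0 < t) (hA : A.PosDef)
    (hS : Sᵀ = S) (hAG : A * G + G * A = A') (hE : G * S + S * G + (2 * c) • S = S')
    (hZ : ∀ w, 0 ≤ w ⬝ᵥ (t • A - S) *ᵥ w) (hZ' : ∀ w, 0 ≤ w ⬝ᵥ (t • A' - S') *ᵥ w)
    {v : κ → ℝ} (hv : v ≠ 0) (h0 : v ⬝ᵥ (t • A - S) *ᵥ v = 0) : False := by
  have hsym : (t • A - S)ᵀ = t • A - S := by
    rw [transpose_sub, transpose_smul, sym_of hA.isHermitian, hS]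
  have hk : (t • A - S) *ᵥ v = 0 :=
    ((psd_of hsym hZ).dotProduct_mulVec_zero_iff v).1 (by simpa using h0)
  have e : (t • A' - S') + (2 * c * t) • A
      = G * (t • A - S) + (t • A - S) * G + (2 * c) • (t • A - S) := by
    rw [← hAG, ← hE]
    simp only [Matrix.mul_sub, Matrix.sub_mul, Matrix.mul_smul, Matrix.smul_mul, smul_add,
      smul_sub, smul_smul]
    abel
  have h1 : v ⬝ᵥ ((t • A - S) * G) *ᵥ v = 0 := by
    rw [← mulVec_mulVec, dotProduct_mulVec, ← mulVec_transpose, hsym, hk, zero_dotProduct]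
  have h2 : v ⬝ᵥ (G * (t • A - S)) *ᵥ v = 0 := by
    rw [← mulVec_mulVec, hk, mulVec_zero, dotProduct_zero]
  have h3 : v ⬝ᵥ ((t • A' - S') + (2 * c * t) • A) *ᵥ v = 0 := by
    rw [e, add_mulVec, add_mulVec, dotProduct_add, dotProduct_add, h1, h2, smul_mulVec, hk]
    simp
  rw [add_mulVec, dotProduct_add, smul_mulVec, dotProduct_smul, smul_eq_mul] at h3
  have h4 : 0 < v ⬝ᵥ A *ᵥ v := by simpa using hA.dotProduct_mulVec_pos hv
  have h5 := hZ' v
  have h6 : 0 < 2 * c * t * (v ⬝ᵥ A *ᵥ v) := by positivity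
  linarith

omit [DecidableEq κ] in
theorem zero_of {A S : Matrix κ κ ℝ} {t : ℝ} (ht : t ≤ 0) (hA : A.PosDef) (hS : Sᵀ = S)
    (h1 : ∀ w, 0 ≤ w ⬝ᵥ (t • A - S) *ᵥ w) (h2 : ∀ w, 0 ≤ w ⬝ᵥ (t • A - -S) *ᵥ w) : S = 0 := by
  classical
  have hn : ∀ v : κ → ℝ, t * (v ⬝ᵥ A *ᵥ v) ≤ 0 := fun v =>
    mul_nonpos_of_nonpos_of_nonneg ht (by simpa using hA.posSemidef.dotProduct_mulVec_nonneg v)
  have p1 : S.PosSemidef := psd_of hS fun w => by
    have := h2 w
    simp only [sub_mulVec, smul_mulVec, neg_mulVec, dotProduct_sub, dotProduct_smul,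
      dotProduct_neg, smul_eq_mul] at this
    linarith [hn w]
  have p2 : (-S).PosSemidef := psd_of (by rw [transpose_neg, hS]) fun w => by
    have := h1 w
    simp only [sub_mulVec, smul_mulVec, dotProduct_sub, dotProduct_smul, smul_eq_mul] at this
    rw [neg_mulVec, dotProduct_neg]
    linarith [hn w]
  have h3 := PertAux.trace_mul_nonneg p1 p2
  rw [Matrix.mul_neg, trace_neg] at h3
  exact (tr_sq_pos hS).2 (le_antisymm (by linarith) (tr_sq_pos hS).1)

omit [DecidableEq κ] in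
theorem no_eig [Nonempty κ] {A A' G G' S S' : Matrix κ κ ℝ} {c : ℝ} (hc : 0 < c) (hA : A.PosDef)
    (hA' : A'.PosDef) (hS : Sᵀ = S) (hS' : S'ᵀ = S') (hAG : A * G + G * A = A')
    (hAG' : A' * G' + G' * A' = A) (hE : G * S + S * G + (2 * c) • S = S')
    (hE' : G' * S' + S' * G' + (2 * c) • S' = S) : S = 0 ∧ S' = 0 := by
  obtain ⟨r1, v1, n1, z1, p1⟩ := ratio hA S
  obtain ⟨r2, v2, n2, z2, p2⟩ := ratio hA (-S)
  obtain ⟨r3, v3, n3, z3, p3⟩ := ratio hA' S'
  obtain ⟨r4, v4, n4, z4, p4⟩ := ratio hA' (-S')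
  set t : ℝ := max (max r1 r2) (max r3 r4) with htd
  have q1 := p1 t ((le_max_left _ _).trans (le_max_left _ _))
  have q2 := p2 t ((le_max_right _ _).trans (le_max_left _ _))
  have q3 := p3 t ((le_max_left _ _).trans (le_max_right _ _))
  have q4 := p4 t ((le_max_right _ _).trans (le_max_right _ _))
  by_cases ht : t ≤ 0
  · exact ⟨zero_of ht hA hS q1 q2, zero_of ht hA' hS' q3 q4⟩
  have ht' : 0 < t := lt_of_not_ge ht
  have hN : G * -S + -S * G + (2 * c) • -S = -S' := by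
    rw [← hE, Matrix.mul_neg, Matrix.neg_mul, smul_neg]
    abel
  have hN' : G' * -S' + -S' * G' + (2 * c) • -S' = -S := by
    rw [← hE', Matrix.mul_neg, Matrix.neg_mul, smul_neg]
    abel
  have hcase : t = r1 ∨ t = r2 ∨ t = r3 ∨ t = r4 := by
    rcases max_choice (max r1 r2) (max r3 r4) with h | h
    · rcases max_choice r1 r2 with h' | h'
      · exact Or.inl (h.trans h')
      · exact Or.inr (Or.inl (h.trans h'))
    · rcases max_choice r3 r4 with h' | h'
      · exact Or.inr (Or.inr (Or.inl (h.trans h')))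
      · exact Or.inr (Or.inr (Or.inr (h.trans h')))
  exfalso
  rcases hcase with h | h | h | h
  · exact core hc ht' hA hS hAG hE q1 q3 n1 (h ▸ z1)
  · exact core hc ht' hA (by rw [transpose_neg, hS]) hAG hN q2 q4 n2 (h ▸ z2)
  · exact core hc ht' hA' hS' hAG' hE' q3 q1 n3 (h ▸ z3)
  · exact core hc ht' hA' (by rw [transpose_neg, hS']) hAG' hN' q4 q2 n4 (h ▸ z4)

theorem lin_zero {a b : ℝ} (h : ∀ t : ℝ, 0 ≤ t * a + t ^ 2 * b) : a = 0 := by
  by_contra ha
  have hb : 0 < |b| + 1 := by positivity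
  have h1 := h (-a / (|b| + 1))
  have h2 : -a / (|b| + 1) * a + (-a / (|b| + 1)) ^ 2 * b
      = a ^ 2 / (|b| + 1) ^ 2 * (b - (|b| + 1)) := by
    field_simp
    ring
  have h3 : 0 < a ^ 2 / (|b| + 1) ^ 2 := by positivity
  have h4 : b - (|b| + 1) < 0 := by linarith [le_abs_self b]
  rw [h2] at h1
  nlinarith

/-- the quadratic form -/
def pfq (G G' S S' : Matrix κ κ ℝ) : ℝ :=
  (G * (S * S)).trace + (G' * (S' * S')).trace - (S * S').trace

/-- the squared norm -/
def pfn (S S' : Matrix κ κ ℝ) : ℝ := (S * S).trace + (S' * S').trace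

omit [DecidableEq κ] in
theorem first_order {G G' S S' : Matrix κ κ ℝ} {c : ℝ} (hG : Gᵀ = G) (hG' : G'ᵀ = G')
    (hS : Sᵀ = S) (hS' : S'ᵀ = S') (h0 : pfq G G' S S' = -c * pfn S S')
    (h : ∀ T T' : Matrix κ κ ℝ, Tᵀ = T → T'ᵀ = T' → -c * pfn T T' ≤ pfq G G' T T') :
    G * S + S * G + (2 * c) • S = S' ∧ G' * S' + S' * G' + (2 * c) • S' = S := by
  set R : Matrix κ κ ℝ := G * S + S * G + (2 * c) • S - S' with hR
  set R' : Matrix κ κ ℝ := G' * S' + S' * G' + (2 * c) • S' - S with hR'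
  have sR : Rᵀ = R := by
    rw [hR, transpose_sub, transpose_add, transpose_add, transpose_mul, transpose_mul,
      transpose_smul, hG, hS, hS', add_comm (S * G)]
  have sR' : R'ᵀ = R' := by
    rw [hR', transpose_sub, transpose_add, transpose_add, transpose_mul, transpose_mul,
      transpose_smul, hG', hS, hS', add_comm (S' * G')]
  have e1 : (R * R).trace = (G * (S * R)).trace + (G * (R * S)).trace + 2 * c * (S * R).trace
      - (R * S').trace := by
    nth_rewrite 1 [hR]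
    rw [Matrix.sub_mul, Matrix.add_mul, Matrix.add_mul, Matrix.smul_mul, trace_sub, trace_add,
      trace_add, trace_smul, smul_eq_mul, Matrix.mul_assoc, Matrix.mul_assoc,
      trace_mul_comm S (G * R), Matrix.mul_assoc, trace_mul_comm S' R]
  have e2 : (R' * R').trace = (G' * (S' * R')).trace + (G' * (R' * S')).trace
      + 2 * c * (S' * R').trace - (S * R').trace := by
    nth_rewrite 1 [hR']
    rw [Matrix.sub_mul, Matrix.add_mul, Matrix.add_mul, Matrix.smul_mul, trace_sub, trace_add,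
      trace_add, trace_smul, smul_eq_mul, Matrix.mul_assoc, Matrix.mul_assoc,
      trace_mul_comm S' (G' * R'), Matrix.mul_assoc]
  have key : (R * R).trace + (R' * R').trace = 0 := by
    refine lin_zero (b := pfq G G' R R' + c * pfn R R') fun t => ?_
    have h1 := h (S + t • R) (S' + t • R') (by rw [transpose_add, transpose_smul, hS, sR])
      (by rw [transpose_add, transpose_smul, hS', sR'])
    unfold pfq pfn at h0 h1 ⊢
    simp only [Matrix.add_mul, Matrix.mul_add, Matrix.smul_mul, Matrix.mul_smul, trace_add,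
      trace_smul, smul_eq_mul] at h1
    rw [trace_mul_comm R S, trace_mul_comm R' S'] at h1
    rw [e1, e2] at h1 ⊢
    nlinarith
  have k1 := tr_sq_pos sR
  have k2 := tr_sq_pos sR'
  exact ⟨sub_eq_zero.1 (k1.2 (by linarith [k1.1, k2.1])),
    sub_eq_zero.1 (k2.2 (by linarith [k1.1, k2.1]))⟩

/-- pairs of symmetric matrices -/
def W (κ : Type) : Submodule ℝ ((κ → κ → ℝ) × (κ → κ → ℝ)) where
  carrier := {p | (Matrix.of p.1)ᵀ = Matrix.of p.1 ∧ (Matrix.of p.2)ᵀ = Matrix.of p.2}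
  add_mem' := fun {a b} ha hb => ⟨by
    change (Matrix.of a.1 + Matrix.of b.1)ᵀ = Matrix.of a.1 + Matrix.of b.1
    rw [transpose_add, ha.1, hb.1], by
    change (Matrix.of a.2 + Matrix.of b.2)ᵀ = Matrix.of a.2 + Matrix.of b.2
    rw [transpose_add, ha.2, hb.2]⟩
  zero_mem' := ⟨rfl, rfl⟩
  smul_mem' := fun c a ha => ⟨by
    change (c • Matrix.of a.1)ᵀ = c • Matrix.of a.1
    rw [transpose_smul, ha.1], by
    change (c • Matrix.of a.2)ᵀ = c • Matrix.of a.2
    rw [transpose_smul, ha.2]⟩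

omit [Fintype κ] [DecidableEq κ] in
theorem cont1 : Continuous fun p : W κ => Matrix.of p.1.1 :=
  continuous_matrix fun i j => by
    change Continuous fun p : W κ => p.1.1 i j
    fun_prop

omit [Fintype κ] [DecidableEq κ] in
theorem cont2 : Continuous fun p : W κ => Matrix.of p.1.2 :=
  continuous_matrix fun i j => by
    change Continuous fun p : W κ => p.1.2 i j
    fun_prop

end PfAux

open PfAux

theorem pf : S_pf := by
  intro κ _ _ A A' G G' S S' hA hA' hG hG' hAG hAG' hS hS'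
  by_contra hneg
  have hq : pfq G G' S S' < 0 := by
    unfold pfq
    linarith [lt_of_not_ge hneg]
  rcases isEmpty_or_nonempty κ with hκ | hκ
  · simp [pfq, Matrix.trace] at hq
  have hpos : ∀ p : W κ, p ≠ 0 → 0 < pfn (Matrix.of p.1.1) (Matrix.of p.1.2) := by
    intro p hp
    have k1 := tr_sq_pos p.2.1
    have k2 := tr_sq_pos p.2.2
    unfold pfn
    by_contra hle
    have hle' := le_of_not_gt hle
    have z1 := k1.2 (by linarith [k1.1, k2.1])
    have z2 := k2.2 (by linarith [k1.1, k2.1])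
    exact hp (Subtype.ext (Prod.ext z1 z2))
  let p₀ : W κ := ⟨(S, S'), hS, hS'⟩
  have hp₀ : p₀ ≠ 0 := by
    intro h
    have h1 : S = 0 := congrArg (fun p : W κ => p.1.1) h
    have h2 : S' = 0 := congrArg (fun p : W κ => p.1.2) h
    rw [h1, h2] at hq
    simp [pfq] at hq
  obtain ⟨r, p, hp, h1, h2⟩ := exists_min
    (fun p : W κ => pfq G G' (Matrix.of p.1.1) (Matrix.of p.1.2))
    (fun p : W κ => pfn (Matrix.of p.1.1) (Matrix.of p.1.2))
    ((((continuous_const.matrix_mul (cont1.matrix_mul cont1)).matrix_trace).add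
      ((continuous_const.matrix_mul (cont2.matrix_mul cont2)).matrix_trace)).sub
      (cont1.matrix_mul cont2).matrix_trace)
    ((cont1.matrix_mul cont1).matrix_trace.add (cont2.matrix_mul cont2).matrix_trace)
    (fun t v => by
      change pfq G G' (t • Matrix.of v.1.1) (t • Matrix.of v.1.2) = _
      unfold pfq
      simp only [Matrix.smul_mul, Matrix.mul_smul, trace_smul, smul_eq_mul]
      ring)
    (fun t v => by
      change pfn (t • Matrix.of v.1.1) (t • Matrix.of v.1.2) = _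
      unfold pfn
      simp only [Matrix.smul_mul, Matrix.mul_smul, trace_smul, smul_eq_mul]
      ring) hpos p₀ hp₀
  have hr : 0 < -r := by
    have h3 : r * pfn S S' ≤ pfq G G' S S' := h2 p₀
    have h4 : 0 < pfn S S' := hpos p₀ hp₀
    by_contra hc
    have h5 : 0 ≤ r := by linarith [le_of_not_gt hc]
    linarith [mul_nonneg h5 h4.le]
  obtain ⟨e1, e2⟩ := first_order (c := -r) hG hG' p.2.1 p.2.2 (by rw [neg_neg]; exact h1)
    fun T T' hT hT' => by
      rw [neg_neg]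
      exact h2 ⟨(T, T'), hT, hT'⟩
  obtain ⟨z1, z2⟩ := no_eig hr hA hA' p.2.1 p.2.2 hAG hAG' e1 e2
  exact hp (Subtype.ext (Prod.ext z1 z2))

end Vale.Agent.P146
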