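import Vale.Agent.P146.Defs2

/-! # P146, second round: the pointwise inequality for one row -/

namespace Vale.Agent.P146

open MeasureTheory ProbabilityTheory Matrix

namespace Point2Aux

section lin
variable {κ : Type} [Fintype κ] [DecidableEq κ]

omit [DecidableEq κ] in
theorem tr_left {R : Matrix κ κ ℝ} (hR : R.PosSemidef) (D : Matrix κ κ ℝ) :
    0 ≤ (Dᵀ * R * D).trace := by
  have h := (hR.conjTranspose_mul_mul_same D).trace_nonneg
  rwa [conjTranspose_eq_transpose_of_trivial] at h

omit [DecidableEq κ] in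
theorem tr_right {R : Matrix κ κ ℝ} (hR : R.PosSemidef) (E : Matrix κ κ ℝ) :
    0 ≤ (E * R * Eᵀ).trace := by
  have h := (hR.mul_mul_conjTranspose_same E).trace_nonneg
  rwa [conjTranspose_eq_transpose_of_trivial] at h

omit [DecidableEq κ] in
theorem enlarge {q : κ × κ → κ × κ → ℝ} {N N' R R' : Matrix κ κ ℝ} (hR : R.PosSemidef)
    (hR' : R'.PosSemidef)
    (h : ∀ D E : Matrix κ κ ℝ, 2 * QF q D E ≤ (Dᵀ * N * D).trace + (E * N' * Eᵀ).trace)
    (D E : Matrix κ κ ℝ) :
    2 * QF q D E ≤ (Dᵀ * (N + R) * D).trace + (E * (N' + R') * Eᵀ).trace := by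
  have h1 := tr_left hR D
  have h2 := tr_right hR' E
  have h3 := h D E
  simp only [Matrix.mul_add, Matrix.add_mul, Matrix.trace_add]
  linarith

omit [Fintype κ] in
theorem pd_smul [Finite κ] {t : ℝ} (ht : 0 < t) : (t • (1 : Matrix κ κ ℝ)).PosDef :=
  PosDef.one.smul ht

omit [Fintype κ] in
theorem pd_sh [Finite κ] {B : Matrix κ κ ℝ} (hB : B.PosSemidef) {t : ℝ} (ht : 0 < t) :
    (sh B t).PosDef :=
  PosDef.posSemidef_add hB (pd_smul ht)

omit [Fintype κ] [DecidableEq κ] in
theorem symm_of {S : Matrix κ κ ℝ} (hS : S.PosSemidef) : Sᵀ = S := by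
  have h := hS.1.eq
  rwa [conjTranspose_eq_transpose_of_trivial] at h

end lin

variable {n : ℕ}

/-- The family concentrated on the row `i`. -/
noncomputable def W1 (β τ : ℝ) (i : Fin n) (x : Edge n → ℝ) (a j : Fin n) (y : Edge n → ℝ) : ℝ :=
  if a = i then PointAux.W β τ x a j y else 0

/-- Its derivatives. -/
noncomputable def H1 (β τ : ℝ) (i : Fin n) (x : Edge n → ℝ) (a j k : Fin n)
    (y : Edge n → ℝ) : ℝ :=
  if a = i then PointAux.H β τ x a j k y else 0

theorem W1_self (β τ : ℝ) (i : Fin n) (x : Edge n → ℝ) (j : Fin n) :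
    W1 β τ i x i j = PointAux.W β τ x i j := by
  funext y
  simp [W1]

theorem W1_ne (β τ : ℝ) {i a : Fin n} (h : a ≠ i) (x : Edge n → ℝ) (j : Fin n) :
    W1 β τ i x a j = fun _ => 0 := by
  funext y
  simp [W1, h]

theorem H1_self (β τ : ℝ) (i : Fin n) (x : Edge n → ℝ) (j k : Fin n) :
    H1 β τ i x i j k = PointAux.H β τ x i j k := by
  funext y
  simp [H1]

theorem H1_ne (β τ : ℝ) {i a : Fin n} (h : a ≠ i) (x : Edge n → ℝ) (j k : Fin n) :
    H1 β τ i x a j k = fun _ => 0 := by
  funext y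
  simp [H1, h]

theorem c1_zero {ι : Type} [Fintype ι] : C1 (fun _ : ι → ℝ => (0 : ℝ)) fun _ _ => 0 :=
  ⟨EG.const 0, fun _ => EG.const 0, fun x => by
    simp only [zero_smul, Finset.sum_const_zero]
    exact hasFDerivAt_const 0 x⟩

theorem gf1 {β τ : ℝ} (h0 : 0 ≤ τ) (h1 : τ ≤ 1) (i : Fin n) (x : Edge n → ℝ) :
    GF row oth (W1 β τ i x) (H1 β τ i x) := by
  have g := PointAux.gf (β := β) mfacts mc1 a_B c1T c1mix h0 h1 x
  refine ⟨fun a j => ?_, fun a j k => ?_, fun a j k => ?_, fun a j => ?_, fun a j => ?_⟩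
  · by_cases h : a = i
    · subst h
      simp only [W1_self, H1_self]
      exact g.c1 a j
    · simp only [W1_ne β τ h, H1_ne β τ h, ite_self]
      exact c1_zero
  · by_cases h : a = i
    · subst h
      rw [H1_self]
      exact g.eg a j k
    · rw [H1_ne β τ h]
      exact EG.const 0
  · by_cases h : a = i
    · subst h
      rw [H1_self, H1_self]
      exact g.sym a j k
    · rw [H1_ne β τ h, H1_ne β τ h]
  · by_cases h : a = i
    · subst h
      rw [H1_self]
      exact g.diag a j
    · rw [H1_ne β τ h]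
  · by_cases h : a = i
    · subst h
      rw [W1_self]
      exact g.mean a j
    · rw [W1_ne β τ h]
      simp

theorem key {β τ : ℝ} (h0 : 0 ≤ τ) (h1 : τ ≤ 1) (x : Edge n → ℝ) (a j k : Fin n) :
    ∫ y, PointAux.W β τ x a j y * PointAux.W β τ x a k y ∂gam (Edge n) =
      T (off (row a)) (fun z => Bf β τ a j z * Bf β τ a k z) x
        - (if a = j then 1 else 0) * (if a = k then 1 else 0) := by
  have h5 := (a_B n β τ h0 h1).2.2.2.2
  have ej := PointAux.eg_B (β := β) mc1 h0 h1 x a j
  have ek := PointAux.eg_B (β := β) mc1 h0 h1 x a k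
  have e : ∀ y, PointAux.W β τ x a j y * PointAux.W β τ x a k y =
      (Bf β τ a j (nz (off (row a)) x y) * Bf β τ a k (nz (off (row a)) x y)
        - (if a = k then 1 else 0) * Bf β τ a j (nz (off (row a)) x y))
        - ((if a = j then 1 else 0) * Bf β τ a k (nz (off (row a)) x y)
        - (if a = j then 1 else 0) * (if a = k then 1 else 0)) := fun y => by
    unfold PointAux.W
    ring
  simp only [e]
  rw [integral_sub ((ej.mul ek).sub (ej.const_mul _)).intg
      ((ek.const_mul _).sub (EG.const _)).intg,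
    integral_sub (ej.mul ek).intg (ej.const_mul _).intg,
    integral_sub (ek.const_mul _).intg (integrable_const _), integral_const_mul,
    integral_const_mul]
  have hj := h5 a j x
  have hk := h5 a k x
  unfold T at hj hk ⊢
  rw [hj, hk]
  simp only [integral_const, probReal_univ, smul_eq_mul, one_mul]
  ring

theorem ki_eq {β τ : ℝ} (h0 : 0 ≤ τ) (h1 : τ ≤ 1) (i : Fin n) (x : Edge n → ℝ) :
    Ki β τ i x = gram (W1 β τ i x) + diagonal fun j => if i = j then (1 : ℝ) else 0 := by
  ext j k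
  simp only [Ki, gram, Matrix.add_apply, Matrix.of_apply]
  rw [Finset.sum_eq_single i (fun a _ h => by rw [W1_ne β τ h]; simp) (by simp), W1_self, W1_self,
    key h0 h1, diagonal_apply]
  by_cases e1 : i = j
  · subst e1
    by_cases e2 : i = k <;> simp [e2]
  · simp [e1]

theorem psd_diag (i : Fin n) : (diagonal fun j => if i = j then (1 : ℝ) else 0).PosSemidef :=
  PosSemidef.diagonal fun j => by
    by_cases h : i = j <;> simp [h]

end Point2Aux

open Point2Aux in
theorem lin (h_pf : S_pf) (h_rep : S_rep) : S_lin := by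
  intro κ _ _ q N N' B B' η U hq hN hN' hB hB' hη hU hle
  obtain ⟨G, g1, g2, g3⟩ := h_rep κ B B' η U hB hB' hη hU
  obtain ⟨G', g1', g2', g3'⟩ := h_rep κ B' B η U hB' hB hη hU
  have main : ∀ t : ℝ, 0 < t →
      QF q 1 1 ≤ ell B B' N η U + ell B' B N' η U + t * (G.trace + G'.trace) := by
    intro t ht
    obtain ⟨S, S', s1, s2, s3, s4, s5⟩ := nc κ q (sh N t) (sh N' t) hq (pd_sh hN ht) (pd_sh hN' ht)
      (enlarge (pd_smul ht).posSemidef (pd_smul ht).posSemidef hle)
    have h := h_pf κ (sh B η) (sh B' η) G G' S S' (pd_sh hB hη) (pd_sh hB' hη) g1 g1' g2 g2'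
      (symm_of s1) (symm_of s2)
    rw [s3, s4] at h
    simp only [sh, Matrix.mul_add, Matrix.mul_smul, Matrix.mul_one, Matrix.trace_add,
      Matrix.trace_smul, smul_eq_mul] at h
    have a1 := g3 N hN
    have a2 := g3' N' hN'
    linarith
  refine le_of_forall_pos_le_add fun ε hε => ?_
  have hp : 0 < |G.trace + G'.trace| + 1 := by positivity
  refine (main (ε / (|G.trace + G'.trace| + 1)) (by positivity)).trans ?_
  have h1 : G.trace + G'.trace ≤ |G.trace + G'.trace| + 1 := by
    linarith [le_abs_self (G.trace + G'.trace)]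
  have h2 := mul_le_mul_of_nonneg_left h1 (div_pos hε hp).le
  rw [div_mul_cancel₀ _ hp.ne'] at h2
  linarith

open Point2Aux in
theorem point2 (h_lin : S_lin) : S_point2 := by
  intro n β τ ρ η U i x x' h0 h1 r0 r1 hη hU
  have g := gf1 (β := β) h0 h1 i x
  have g' := gf1 (β := β) h0 h1 i x'
  obtain ⟨q, hq, hle, heq⟩ := a_grad _ _ row oth _ _ _ _ ρ (comb n).1 g g' r0 r1
  have p := PointAux.gram_psd fun a j => (g.c1 a j).eg
  have p' := PointAux.gram_psd fun a j => (g'.c1 a j).eg
  have k := ki_eq (β := β) h0 h1 i x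
  have k' := ki_eq (β := β) h0 h1 i x'
  have hB := (a_B n β τ h0 h1).2.2.2.1
  have hK : (Ki β τ i x).PosSemidef := by
    rw [k]
    exact p.add (psd_diag i)
  have hK' : (Ki β τ i x').PosSemidef := by
    rw [k']
    exact p'.add (psd_diag i)
  refine ⟨hK, ?_⟩
  have hd := h_lin _ q (Ki β τ i x) (Ki β τ i x') (Bm β τ x) (Bm β τ x') η U hq hK hK' (hB x)
    (hB x') hη hU fun D E => by
      rw [k, k']
      exact enlarge (psd_diag i) (psd_diag i) hle D E
  rw [Finset.sum_eq_single i (fun a _ h => by simp only [W1_ne β τ h, cov_zero_left,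
    Finset.sum_const_zero]) (by simp)] at heq
  simp only [W1_self] at heq
  exact heq.le.trans (mul_le_mul_of_nonneg_left hd r0)

end Vale.Agent.P146
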