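import Vale.Agent.P146.Defs2

/-! # P146: rotation of a block of Gaussian coordinates -/

namespace Vale.Agent.P146

open MeasureTheory ProbabilityTheory

namespace RotAux

variable {ι : Type} [Fintype ι] [DecidableEq ι]

omit [Fintype ι] in
theorem continuous_rot (I : Finset ι) (t : ℝ) :
    Continuous fun p : (ι → ℝ) × (ι → ℝ) => rot I t p.1 p.2 := by
  refine continuous_pi fun e => ?_
  unfold rot
  split_ifs <;> fun_prop

theorem abs_comb {a b : ℝ} (ha : |a| ≤ 1) (hb : |b| ≤ 1) (x y : ℝ) :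
    |a * x + b * y| ≤ |x| + |y| := by
  refine (abs_add_le _ _).trans (add_le_add ?_ ?_) <;> rw [abs_mul]
  · exact mul_le_of_le_one_left (abs_nonneg _) ha
  · exact mul_le_of_le_one_left (abs_nonneg _) hb

theorem norm_rot (I : Finset ι) (t : ℝ) (x y : ι → ℝ) : ‖rot I t x y‖ ≤ ‖x‖ + ‖y‖ := by
  refine (pi_norm_le_iff_of_nonneg (by positivity)).2 fun e => ?_
  have h2 := norm_le_pi_norm x e
  have h3 := norm_le_pi_norm y e
  unfold rot
  split_ifs
  · exact (abs_comb (Real.abs_cos_le_one t) (Real.abs_sin_le_one t) _ _).trans (add_le_add h2 h3)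
  · linarith [norm_nonneg y]

theorem eg_rot {f : (ι → ℝ) → ℝ} (hf : EG f) (I : Finset ι) (t : ℝ) :
    EG fun p : (ι → ℝ) × (ι → ℝ) => f (rot I t p.1 p.2) :=
  hf.comp (continuous_rot I t) (a := 2) (b := 0) fun p => by
    linarith [norm_rot I t p.1 p.2, norm_fst_le p, norm_snd_le p]

/-- the rotation of the pair -/
noncomputable def R (I : Finset ι) (t : ℝ) (p : (ι → ℝ) × (ι → ℝ)) : (ι → ℝ) × (ι → ℝ) :=
  (rot I t p.1 p.2, rot I (-t) p.2 p.1)

theorem mp (I : Finset ι) (t : ℝ) :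
    MeasurePreserving (R I t) ((gam ι).prod (gam ι)) ((gam ι).prod (gam ι)) := by
  have h := orth ι (fun e => if e ∈ I then Real.cos t else 1)
    (fun e => if e ∈ I then Real.sin t else 0) (fun e => if e ∈ I then -Real.sin t else 0)
    (fun e => if e ∈ I then Real.cos t else 1) (fun e => by split_ifs <;> simp)
    (fun e => by split_ifs <;> simp) fun e => by split_ifs <;> ring
  convert h using 1
  funext p
  refine Prod.ext (funext fun e => ?_) (funext fun e => ?_)
  · simp only [R, rot]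
    split_ifs <;> simp
  · simp only [R, rot, Real.cos_neg, Real.sin_neg]
    split_ifs <;> ring

theorem cv (I : Finset ι) (t : ℝ) {F : (ι → ℝ) × (ι → ℝ) → ℝ} (hF : Continuous F) :
    ∫ p, F (R I t p) ∂(gam ι).prod (gam ι) = ∫ p, F p ∂(gam ι).prod (gam ι) := by
  rw [← integral_map (mp I t).measurable.aemeasurable hF.aestronglyMeasurable, (mp I t).map_eq]

omit [Fintype ι] in
theorem back (I : Finset ι) (t : ℝ) (p : (ι → ℝ) × (ι → ℝ)) :
    rot I (-t) (R I t p).1 (R I t p).2 = p.1 := by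
  funext e
  simp only [R, rot, Real.cos_neg, Real.sin_neg]
  split_ifs
  · linear_combination (p.1 e) * Real.cos_sq_add_sin_sq t
  · rfl

omit [Fintype ι] in
theorem back2 (I : Finset ι) (t : ℝ) (p : (ι → ℝ) × (ι → ℝ)) {e : ι} (he : e ∈ I) :
    Real.sin t * (R I t p).1 e + Real.cos t * (R I t p).2 e = p.2 e := by
  simp only [R, rot, Real.cos_neg, Real.sin_neg, he, if_true]
  linear_combination (p.2 e) * Real.cos_sq_add_sin_sq t

theorem hasDerivAt_pt {F : (ι → ℝ) → ℝ} {D : ι → (ι → ℝ) → ℝ} (hF : C1 F D) (I : Finset ι)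
    (c : ℝ) (a b : ι → ℝ) (t : ℝ) :
    HasDerivAt (fun t : ℝ => F (rot I (-t) a b) * c)
      (-((∑ e ∈ I, D e (rot I (-t) a b) * (Real.sin t * a e + Real.cos t * b e)) * c)) t := by
  have h0 : HasDerivAt (fun t : ℝ => rot I (-t) a b)
      (fun e => if e ∈ I then -(Real.sin t * a e + Real.cos t * b e) else 0) t := by
    refine hasDerivAt_pi.2 fun e => ?_
    simp only [rot, Real.cos_neg, Real.sin_neg]
    split_ifs
    · refine (((Real.hasDerivAt_cos t).mul_const (a e)).fun_add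
        ((Real.hasDerivAt_sin t).fun_neg.mul_const (b e))).congr_deriv ?_
      ring
    · exact hasDerivAt_const _ _
  refine (((hF.der _).comp_hasDerivAt t h0).mul_const c).congr_deriv ?_
  simp only [sum_apply, smul_apply, ContinuousLinearMap.proj_apply, smul_eq_mul, mul_ite,
    mul_zero, Finset.sum_ite_mem, Finset.univ_inter, mul_neg, Finset.sum_neg_distrib, neg_mul]

end RotAux

open RotAux in
theorem rotd : S_rot := by
  intro ι _ _ F h D I θ hF hh
  refine ⟨eg_rot hh I θ, measurePreserving_fst.comp (mp I θ), ?_⟩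
  choose C c hC hc hb using fun e => (hF.egD e).2
  have eF : ∀ t, EG fun p : (ι → ℝ) × (ι → ℝ) => F (rot I (-t) p.1 p.2) * h p.1 :=
    fun t => (eg_rot hF.eg I (-t)).mul hh.fst
  have eF' : EG fun p : (ι → ℝ) × (ι → ℝ) => (∑ e ∈ I, D e (rot I (-θ) p.1 p.2) *
      (Real.sin θ * p.1 e + Real.cos θ * p.2 e)) * h p.1 :=
    (EG.sum _ fun e _ => (eg_rot (hF.egD e) I (-θ)).mul
      (((EG.coord e).fst.const_mul _).add ((EG.coord e).snd.const_mul _))).mul hh.fst
  have eB : EG fun p : (ι → ℝ) × (ι → ℝ) => (∑ e ∈ I,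
      C e * Real.exp (c e * (‖p.1‖ + ‖p.2‖)) * (|p.1 e| + |p.2 e|)) * |h p.1| :=
    (EG.sum _ fun e _ => ((InterpAux.eg_exp _ (hc e)).const_mul _).mul
      ((EG.coord e).fst.abs.add (EG.coord e).snd.abs)).mul hh.fst.abs
  have hd := hasDerivAt_integral_of_dominated_loc_of_deriv_le (μ := (gam ι).prod (gam ι))
    (F := fun (t : ℝ) (p : (ι → ℝ) × (ι → ℝ)) => F (rot I (-t) p.1 p.2) * h p.1)
    (F' := fun (t : ℝ) (p : (ι → ℝ) × (ι → ℝ)) => -((∑ e ∈ I, D e (rot I (-t) p.1 p.2) *
      (Real.sin t * p.1 e + Real.cos t * p.2 e)) * h p.1))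
    (x₀ := θ) Filter.univ_mem
    (Filter.Eventually.of_forall fun t => (eF t).cont.aestronglyMeasurable) (eF θ).intg2
    eF'.neg.cont.aestronglyMeasurable ?_ eB.intg2
    (ae_of_all _ fun p t _ => hasDerivAt_pt hF I _ _ _ t)
  · have h2 := hd.2
    rw [integral_neg, ← cv I θ eF'.cont] at h2
    simp only [back] at h2
    have e1 : ∀ p : (ι → ℝ) × (ι → ℝ), ∑ e ∈ I, D e p.1 *
        (Real.sin θ * (R I θ p).1 e + Real.cos θ * (R I θ p).2 e) = ∑ e ∈ I, D e p.1 * p.2 e :=
      fun p => Finset.sum_congr rfl fun e he => by rw [back2 I θ p he]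
    simp only [e1] at h2
    refine h2.congr_of_eventuallyEq (Filter.Eventually.of_forall fun t => ?_)
    have h3 := cv I t (eF t).cont
    simp only [back] at h3
    exact h3
  · refine ae_of_all _ fun p t _ => ?_
    rw [norm_neg, Real.norm_eq_abs, abs_mul]
    refine mul_le_mul_of_nonneg_right ((Finset.abs_sum_le_sum_abs _ _).trans
      (Finset.sum_le_sum fun e _ => ?_)) (abs_nonneg _)
    rw [abs_mul]
    refine mul_le_mul ((hb e _).trans ?_)
      (abs_comb (Real.abs_sin_le_one t) (Real.abs_cos_le_one t) _ _) (abs_nonneg _)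
      (mul_nonneg (hC e) (Real.exp_pos _).le)
    exact mul_le_mul_of_nonneg_left (Real.exp_le_exp.2 (mul_le_mul_of_nonneg_left
      (norm_rot I (-t) _ _) (hc e))) (hC e)

end Vale.Agent.P146
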