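import Vale.Agent.P146.Defs2

/-! # P146, second round: the one-step inequality -/

namespace Vale.Agent.P146

open MeasureTheory ProbabilityTheory Matrix

namespace Step2Aux

/-- the pair of correlated vectors is exchangeable -/
theorem exch {ι : Type} [Fintype ι] {ρ : ℝ} (h0 : 0 ≤ ρ) (h1 : ρ ≤ 1)
    (F : (ι → ℝ) → (ι → ℝ) → ℝ)
    (hF : EG fun p : (ι → ℝ) × (ι → ℝ) => F p.1 (nz (fun _ => ρ) p.1 p.2)) :
    ∫ p : (ι → ℝ) × (ι → ℝ), F (nz (fun _ => ρ) p.1 p.2) p.1 ∂(gam ι).prod (gam ι) =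
      ∫ p : (ι → ℝ) × (ι → ℝ), F p.1 (nz (fun _ => ρ) p.1 p.2) ∂(gam ι).prod (gam ι) := by
  have hs : √(1 - ρ ^ 2) ^ 2 = 1 - ρ ^ 2 := Real.sq_sqrt (by nlinarith)
  have h := orth ι (fun _ => ρ) (fun _ => √(1 - ρ ^ 2)) (fun _ => √(1 - ρ ^ 2)) (fun _ => -ρ)
    (fun _ => by linarith) (fun _ => by linarith) fun _ => by ring
  conv_rhs => rw [← h.map_eq]
  rw [integral_map h.measurable.aemeasurable hF.cont.aestronglyMeasurable]
  refine integral_congr_ae (ae_of_all _ fun p => ?_)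
  have e : nz (fun _ => ρ) (fun e => ρ * p.1 e + √(1 - ρ ^ 2) * p.2 e)
      (fun e => √(1 - ρ ^ 2) * p.1 e + -ρ * p.2 e) = p.1 := by
    funext e
    simp only [nz]
    linear_combination p.1 e * hs
  simp only [e]
  rfl

end Step2Aux

theorem step2 (h_point2 : S_point2) (h_elleg : S_elleg) (h_good : S_good) (h_ellz : S_ellz) :
    S_step2 := by
  intro β ε hε
  obtain ⟨C, hC, hz⟩ := h_ellz β ε hε
  refine ⟨2 * C, by positivity, fun n τ ρ hn hτ0 hτ hρ0 hρ1 => ?_⟩
  have hn0 : (0 : ℝ) < n := by exact_mod_cast hn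
  have hδ : 0 < 1 - τ ^ 2 := lt_of_lt_of_le (by positivity) hτ
  have hτ1 : τ ≤ 1 := by nlinarith
  set η := √(n / (1 - τ ^ 2)) * (n : ℝ) ^ ε with hη
  have hη0 : 0 < η := by positivity
  have hU : 0 < (n : ℝ) ^ 2 := by positivity
  have hρ : U01 fun _ : Edge n => ρ := u01_const hρ0 hρ1
  obtain ⟨-, hsym, hdiag, hpsd, -⟩ := a_B n β τ hτ0 hτ1
  have hM : ∀ i j : Fin n, EG (M β i j) := fun i j => ((mc1 n β).1 i j).eg
  have hB : ∀ i j : Fin n, EG (Bf β τ i j) := fun i j => (hM i j).T (u01_const hτ0 hτ1)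
  have hK : ∀ i j k : Fin n, EG fun x => Ki β τ i x j k := fun i j k =>
    ((hB i j).mul (hB i k)).T (u01_off _)
  have hV : ∀ i j : Fin n, EG fun x => Bf β τ i j x - if i = j then 1 else 0 :=
    fun i j => (hB i j).sub (EG.const _)
  have hPhi : Phi n β (ρ * τ ^ 2) = ∑ i : Fin n, ∑ j : Fin n, cov ρ (Bf β τ i j) (Bf β τ i j) :=
    Finset.sum_congr rfl fun i _ => Finset.sum_congr rfl fun j _ =>
      a_covT _ ρ τ _ _ hρ0 hρ1 hτ0 hτ1 (hM i j) (hM i j)
  have hsplit : ∀ i j : Fin n, cov ρ (Bf β τ i j) (Bf β τ i j) = (if i = j then 1 else 0) +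
      cov ρ (fun x => Bf β τ i j x - if i = j then 1 else 0)
        (fun x => Bf β τ i j x - if i = j then 1 else 0) := by
    intro i j
    by_cases h : i = j
    · subst h
      have e : Bf β τ i i = fun _ => 1 := funext (hdiag i)
      simp [e, cov, T_const]
    · simp [h]
  have hres := fun i j : Fin n => a_resample (Edge n) _ _ (row i) ρ (hV i j) (hV i j) hρ0 hρ1
  have hP1 : Phi n β (ρ * τ ^ 2) = n + ∑ i, ∫ p : (Edge n → ℝ) × (Edge n → ℝ), ∑ j,
      cov ρ (fun y => Bf β τ i j (nz (off (row i)) p.1 y) - if i = j then 1 else 0)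
        (fun y => Bf β τ i j (nz (off (row i)) (nz (fun _ => ρ) p.1 p.2) y) -
          if i = j then 1 else 0) ∂(gam (Edge n)).prod (gam (Edge n)) := by
    rw [hPhi]
    simp only [hsplit, Finset.sum_add_distrib, Finset.sum_ite_eq, Finset.mem_univ, if_true,
      Finset.sum_const, Finset.card_univ, Fintype.card_fin, nsmul_eq_mul, mul_one]
    congr 1
    refine Finset.sum_congr rfl fun i _ => ?_
    rw [integral_finsetSum _ fun j _ => (hres i j).1.intg2]
    exact Finset.sum_congr rfl fun j _ => (hres i j).2.symm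
  have htr : ∀ x x' : Edge n → ℝ, (Bm β τ x * Bm β τ x').trace =
      ∑ i, ∑ j, Bf β τ i j x * Bf β τ i j x' := by
    intro x x'
    simp only [Matrix.trace, Matrix.diag, Matrix.mul_apply, Bm, Matrix.of_apply]
    exact Finset.sum_congr rfl fun i _ => Finset.sum_congr rfl fun j _ => by rw [hsym j i]
  have hE1 : EG fun p : (Edge n → ℝ) × (Edge n → ℝ) =>
      (Bm β τ p.1 * Bm β τ (nz (fun _ => ρ) p.1 p.2)).trace := by
    simp only [htr]
    exact EG.sum _ fun i _ => EG.sum _ fun j _ => (hB i j).fst.mul ((hB i j).nz hρ)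
  have hI1 : ∫ p : (Edge n → ℝ) × (Edge n → ℝ),
      (Bm β τ p.1 * Bm β τ (nz (fun _ => ρ) p.1 p.2)).trace ∂(gam (Edge n)).prod (gam (Edge n)) =
      Phi n β (ρ * τ ^ 2) := by
    simp only [htr]
    rw [hPhi, integral_finsetSum _ fun i _ =>
      (EG.sum _ fun j _ => (hB i j).fst.mul ((hB i j).nz hρ)).intg2]
    refine Finset.sum_congr rfl fun i _ => ?_
    rw [integral_finsetSum _ fun j _ => ((hB i j).fst.mul ((hB i j).nz hρ)).intg2]
    exact Finset.sum_congr rfl fun j _ => (cov_eq_prod hρ0 hρ1 (hB i j) (hB i j)).symm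
  have hL1 : ∀ i, EG fun p : (Edge n → ℝ) × (Edge n → ℝ) =>
      ell (Bm β τ p.1) (Bm β τ (nz (fun _ => ρ) p.1 p.2)) (Ki β τ i p.1) η (n ^ 2) := fun i =>
    h_elleg _ _ _ _ _ η _ (fun j k => (hB j k).fst) (fun j k => (hB j k).nz hρ)
      (fun j k => (hK i j k).fst) (fun _ => hpsd _) hη0 hU
  have hL2 : ∀ i, EG fun p : (Edge n → ℝ) × (Edge n → ℝ) =>
      ell (Bm β τ (nz (fun _ => ρ) p.1 p.2)) (Bm β τ p.1) (Ki β τ i (nz (fun _ => ρ) p.1 p.2)) η
        (n ^ 2) := fun i =>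
    h_elleg _ _ _ _ _ η _ (fun j k => (hB j k).nz hρ) (fun j k => (hB j k).fst)
      (fun j k => (hK i j k).nz hρ) (fun _ => hpsd _) hη0 hU
  have hmono := fun i => integral_mono (EG.sum Finset.univ fun j _ => (hres i j).1).intg2
    (((hL1 i).add (hL2 i)).const_mul ρ).intg2
    fun p => (h_point2 n β τ ρ η (n ^ 2) i p.1 (nz (fun _ => ρ) p.1 p.2) hτ0 hτ1 hρ0 hρ1 hη0 hU).2
  have hsum := Finset.sum_le_sum fun i (_ : i ∈ Finset.univ) => (hmono i).trans (le_of_eq (by
    rw [integral_const_mul, integral_add (hL1 i).intg2 (hL2 i).intg2,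
      Step2Aux.exch hρ0 hρ1 (fun x x' => ell (Bm β τ x) (Bm β τ x') (Ki β τ i x) η (n ^ 2)) (hL1 i),
      integral_prod_symm _ (hL1 i).intg2]))
  have hin := fun i => ((hL1 i).swap.int_right (nice_gam _)).intg
  have htz := (hE1.swap.int_right (nice_gam _)).intg
  have hfin := integral_mono (integrable_finsetSum Finset.univ fun i _ => hin i)
    ((htz.div_const 2).add (integrable_const _))
    fun z => hz n τ _ _ hn hτ0 hτ ((h_good n β τ hn hτ0 hτ1).2.1 ρ z hρ0 hρ1)
  simp only [Pi.add_apply] at hfin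
  rw [integral_finsetSum _ fun i _ => hin i, integral_add (htz.div_const 2) (integrable_const _),
    integral_div, ← integral_prod_symm _ hE1.intg2, hI1, integral_const] at hfin
  simp only [probReal_univ, smul_eq_mul, one_mul] at hfin
  rw [← Finset.mul_sum, Finset.sum_add_distrib] at hsum
  have := mul_le_mul_of_nonneg_left (add_le_add hfin hfin) hρ0
  linarith

end Vale.Agent.P146
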