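import Vale.Agent.P146.Eig
import Vale.Agent.P146.Avbd
import Vale.Agent.P146.Ellz
import Vale.Agent.P146.Step2
import Vale.Agent.P146.Pf
import Vale.Agent.P146.Gc1
import Vale.Agent.P146.Rot
import Vale.Agent.P146.Bessel
import Vale.Agent.P146.Mom
import Vale.Agent.P146.Momdet
import Vale.Agent.P146.Core
import Vale.Agent.P146.Point2
import Vale.Agent.P146.DG
import Vale.Agent.P146.Calc2

/-! # P146: assembly of the second round -/

namespace Vale.Agent.P146

theorem b_good : S_good := good bessel
theorem b_comp : S_comp := comp momeg
theorem b_mom : S_mom := mom_bd momeg momdet momg rotd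
theorem b_avder : S_avder := avder rotd (gc1 gcont) b_good
theorem b_avbd : S_avbd := avbd dG_bd gfacts gcont rotd gq b_good b_comp momeg b_mom
theorem b_core : S_core := core2 b_avder b_avbd gfacts gcont b_good
theorem b_ellz : S_ellz := ellz b_core gint gcont b_comp momeg b_mom b_good
theorem b_point2 : S_point2 := point2 (lin pf rep)
theorem b_step2 : S_step2 := step2 b_point2 (elleg gcont) b_good b_ellz
theorem main2 : S_main2 := main2_of b_step2 calc2

end Vale.Agent.P146
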