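import Vale.Agent.P146.All

/-! # P146, second round: exponent `2/3 + ε`.  Objects and intermediate statements -/

namespace Vale.Agent.P146

open MeasureTheory ProbabilityTheory Matrix

/-! ## Resolvent kernels -/

section res
variable {κ : Type} [Fintype κ] [DecidableEq κ]

/-- `(A² + u²)⁻¹`. -/
noncomputable def Qm (A : Matrix κ κ ℝ) (u : ℝ) : Matrix κ κ ℝ := (A * A + (u ^ 2) • (1 : Matrix κ κ ℝ))⁻¹

/-- Real part of `(A + i u)⁻¹`. -/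
noncomputable def Cm (A : Matrix κ κ ℝ) (u : ℝ) : Matrix κ κ ℝ := A * Qm A u

/-- Minus the imaginary part of `(A + i u)⁻¹`. -/
noncomputable def Sm (A : Matrix κ κ ℝ) (u : ℝ) : Matrix κ κ ℝ := u • Qm A u

/-- Real part of `(A + i u)⁻¹ P (A - i u)⁻¹`. -/
noncomputable def Gu (A P : Matrix κ κ ℝ) (u : ℝ) : Matrix κ κ ℝ :=
  Cm A u * P * Cm A u + Sm A u * P * Sm A u

/-- Derivative of `Cm` in the direction `X`. -/
noncomputable def dC (A : Matrix κ κ ℝ) (u : ℝ) (X : Matrix κ κ ℝ) : Matrix κ κ ℝ :=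
  Sm A u * X * Sm A u - Cm A u * X * Cm A u

/-- Derivative of `Sm` in the direction `X`. -/
noncomputable def dS (A : Matrix κ κ ℝ) (u : ℝ) (X : Matrix κ κ ℝ) : Matrix κ κ ℝ :=
  -(Cm A u * X * Sm A u + Sm A u * X * Cm A u)

/-- Derivative of `Gu` in the direction `(X, Y)`. -/
noncomputable def dG (A P : Matrix κ κ ℝ) (u : ℝ) (X Y : Matrix κ κ ℝ) : Matrix κ κ ℝ :=
  dC A u X * P * Cm A u + Cm A u * P * dC A u X + dS A u X * P * Sm A u + Sm A u * P * dS A u X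
    + Cm A u * Y * Cm A u + Sm A u * Y * Sm A u

/-- The shifted matrix `B + η`. -/
def sh (B : Matrix κ κ ℝ) (η : ℝ) : Matrix κ κ ℝ := B + η • (1 : Matrix κ κ ℝ)

/-- Quadratic form. -/
def qf (G : Matrix κ κ ℝ) (w : κ → ℝ) : ℝ := w ⬝ᵥ (G *ᵥ w)

/-- The linear functional of `N` bounding the tangent plane at `(B + η, P + η)`. -/
noncomputable def ell (B P N : Matrix κ κ ℝ) (η U : ℝ) : ℝ :=
  (1 / Real.pi) * (∫ u in (0 : ℝ)..U, (Gu (sh B η) P u * N).trace)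
    + P.trace * N.trace / (Real.pi * U) + η / 2 * ((sh B η)⁻¹ * N).trace

end res

/-! ## Rotations, Gibbs weights -/

/-- Rotation of the coordinates in `I` by the angle `θ`. -/
noncomputable def rot {ι : Type} [DecidableEq ι] (I : Finset ι) (θ : ℝ) (x y : ι → ℝ) : ι → ℝ :=
  fun e => if e ∈ I then Real.cos θ * x e + Real.sin θ * y e else x e

section model
variable {n : ℕ}

/-- Gibbs weight. -/
noncomputable def wt (β : ℝ) (g : Edge n → ℝ) (σ : Fin n → Bool) : ℝ :=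
  Real.exp (β * ham g σ) / ∑ σ' : Fin n → Bool, Real.exp (β * ham g σ')

/-- Moments of the density of one Gibbs measure with respect to another. -/
noncomputable def mom (β : ℝ) (k : ℕ) (a b : Edge n → ℝ) : ℝ :=
  ∑ σ, wt β b σ * (wt β a σ / wt β b σ) ^ k

/-- The smoothed moment along a row rotation. -/
noncomputable def Pm (β τ : ℝ) (k : ℕ) (i : Fin n) (θ : ℝ) (x y : Edge n → ℝ) : ℝ :=
  ∫ z, mom β k (nz (fun _ => τ) (rot (row i) θ x y) z) (nz (fun _ => τ) x z) ∂gam (Edge n)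

/-- Partial derivative of `Bm`. -/
noncomputable def dB (β τ : ℝ) (e : Edge n) (x : Edge n → ℝ) : Matrix (Fin n) (Fin n) ℝ :=
  Matrix.of fun j k => τ * T (fun _ => τ) (DM β j k e) x

/-- Row `i` of `Bm` at the rotated point. -/
noncomputable def wv (β τ : ℝ) (i : Fin n) (θ : ℝ) (x y : Edge n → ℝ) : Fin n → ℝ :=
  fun j => Bf β τ i j (rot (row i) θ x y)

/-- The second-moment matrix of the resampled row `i`. -/
noncomputable def Ki (β τ : ℝ) (i : Fin n) (x : Edge n → ℝ) : Matrix (Fin n) (Fin n) ℝ :=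
  Matrix.of fun j k => T (off (row i)) (fun z => Bf β τ i j z * Bf β τ i k z) x

/-- Matrix fields with the properties of the smoothed two-point matrix. -/
structure Good (n : ℕ) (β δ : ℝ) (P : (Edge n → ℝ) → Matrix (Fin n) (Fin n) ℝ)
    (dP : Edge n → (Edge n → ℝ) → Matrix (Fin n) (Fin n) ℝ) : Prop where
  c1 : ∀ j k, C1 (fun x => P x j k) fun e x => dP e x j k
  psd : ∀ x, (P x).PosSemidef
  tr : ∀ x, (P x).trace = n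
  sym : ∀ e x, (dP e x)ᵀ = dP e x
  bes : ∀ x, δ * ∑ e, fro (dP e x) ≤ (n : ℝ) ^ 2
  bd : ∀ e x j k, |dP e x j k| ≤ 2 * |β|

/-- The interpolated quantity at scale `u` and angle `θ`. -/
noncomputable def av (β τ η u : ℝ) (P : (Edge n → ℝ) → Matrix (Fin n) (Fin n) ℝ) (θ : ℝ) : ℝ :=
  ∑ i, ∫ p : (Edge n → ℝ) × (Edge n → ℝ),
    qf (Gu (sh (Bm β τ p.1) η) (P p.1) u) (wv β τ i θ p.1 p.2) ∂(gam (Edge n)).prod (gam (Edge n))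

end model

/-! ## Linear algebra -/

/-- Perron-Frobenius admissibility of the tangent pair. -/
def S_pf : Prop := ∀ (κ : Type) [Fintype κ] [DecidableEq κ] (A A' G G' S S' : Matrix κ κ ℝ),
  A.PosDef → A'.PosDef → Gᵀ = G → G'ᵀ = G' → A * G + G * A = A' → A' * G' + G' * A' = A →
  Sᵀ = S → S'ᵀ = S' → (S * S').trace ≤ (G * (S * S)).trace + (G' * (S' * S')).trace

/-- Lyapunov equation: solution and resolvent upper bound. -/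
def S_rep : Prop := ∀ (κ : Type) [Fintype κ] [DecidableEq κ] (B P : Matrix κ κ ℝ) (η U : ℝ),
  B.PosSemidef → P.PosSemidef → 0 < η → 0 < U →
  ∃ G : Matrix κ κ ℝ, Gᵀ = G ∧ sh B η * G + G * sh B η = sh P η ∧
    ∀ N : Matrix κ κ ℝ, N.PosSemidef → (G * N).trace ≤ ell B P N η U

def S_lin : Prop := ∀ (κ : Type) [Fintype κ] [DecidableEq κ] (q : κ × κ → κ × κ → ℝ)
  (N N' B B' : Matrix κ κ ℝ) (η U : ℝ), (∀ p p', q p p' = q p' p) →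
  N.PosSemidef → N'.PosSemidef → B.PosSemidef → B'.PosSemidef → 0 < η → 0 < U →
  (∀ D E : Matrix κ κ ℝ, 2 * QF q D E ≤ (Dᵀ * N * D).trace + (E * N' * Eᵀ).trace) →
  QF q 1 1 ≤ ell B B' N η U + ell B' B N' η U

def S_gfacts : Prop := ∀ (κ : Type) [Fintype κ] [DecidableEq κ] (B P : Matrix κ κ ℝ) (η u : ℝ),
  B.PosSemidef → P.PosSemidef → 0 < η → 0 ≤ u →
  (Gu (sh B η) P u).PosSemidef ∧ (Qm (sh B η) u).PosSemidef ∧ ((sh B η)⁻¹).PosSemidef ∧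
  (∀ w, qf (Qm (sh B η) u) w ≤ 2 / (η + u) * qf (sh B η)⁻¹ w) ∧
  (Gu (sh B η) P u * B).trace ≤ 2 / (η + u) * P.trace ∧
  (Gu (sh B η) P u * (B * B)).trace ≤ P.trace ∧
  (Gu (sh B η) P u).trace ≤ P.trace / η ^ 2

def S_gint : Prop := ∀ (κ : Type) [Fintype κ] [DecidableEq κ] (B P : Matrix κ κ ℝ) (η U : ℝ),
  B.PosSemidef → P.PosSemidef → 0 < η → 0 ≤ U →
  (1 / Real.pi) * (∫ u in (0 : ℝ)..U, (Gu (sh B η) P u * (B * B)).trace) ≤ (B * P).trace / 2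

def S_dG : Prop := ∀ (κ : Type) [Fintype κ] [DecidableEq κ] (A P X Y : Matrix κ κ ℝ)
  (u l m : ℝ) (w : κ → ℝ), A.PosDef → P.PosSemidef → Xᵀ = X → Yᵀ = Y → 0 < l → 0 < m →
  |qf (dG A P u X Y) w| ≤ l * qf (Gu A P u) w + (Gu A P u * (X * X)).trace * qf (Qm A u) w / l
    + qf (Qm A u) w * (m + fro Y / m) / 2

/-! ## Gaussian analysis -/

/-- Regularity of the resolvent kernels along matrix fields. -/
def S_gc1 : Prop := ∀ (ι κ : Type) [Fintype ι] [Fintype κ] [DecidableEq κ]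
  (B P : (ι → ℝ) → Matrix κ κ ℝ) (dB dP : ι → (ι → ℝ) → Matrix κ κ ℝ) (η u : ℝ),
  (∀ j k, C1 (fun x => B x j k) fun e x => dB e x j k) →
  (∀ j k, C1 (fun x => P x j k) fun e x => dP e x j k) →
  (∀ x, (B x).PosSemidef) → 0 < η →
  ∀ j k, C1 (fun x => Gu (sh (B x) η) (P x) u j k)
    fun e x => dG (sh (B x) η) (P x) u (dB e x) (dP e x) j k

/-- Joint continuity and boundedness. -/
def S_gcont : Prop := ∀ (X κ : Type) [NormedAddCommGroup X] [Fintype κ] [DecidableEq κ]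
  (B P : X → Matrix κ κ ℝ) (η : ℝ), (∀ j k, EG fun x => B x j k) → (∀ j k, EG fun x => P x j k) →
  (∀ x, (B x).PosSemidef) → 0 < η →
  (∀ j k, EG fun p : ℝ × X => Gu (sh (B p.2) η) (P p.2) p.1 j k) ∧
  (∀ j k, EG fun p : ℝ × X => Qm (sh (B p.2) η) p.1 j k) ∧
  (∀ j k, EG fun x => (sh (B x) η)⁻¹ j k)

def S_rot : Prop := ∀ (ι : Type) [Fintype ι] [DecidableEq ι] (F h : (ι → ℝ) → ℝ)
  (D : ι → (ι → ℝ) → ℝ) (I : Finset ι) (θ : ℝ), C1 F D → EG h →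
  (EG fun p : (ι → ℝ) × (ι → ℝ) => h (rot I θ p.1 p.2)) ∧
  MeasurePreserving (fun p : (ι → ℝ) × (ι → ℝ) => rot I θ p.1 p.2) ((gam ι).prod (gam ι)) (gam ι) ∧
  HasDerivAt (fun t => ∫ p : (ι → ℝ) × (ι → ℝ), F p.1 * h (rot I t p.1 p.2) ∂(gam ι).prod (gam ι))
    (-∫ p : (ι → ℝ) × (ι → ℝ), (∑ e ∈ I, D e p.1 * p.2 e) * h (rot I θ p.1 p.2)
      ∂(gam ι).prod (gam ι)) θ

/-- Pointwise Bessel inequality for the smoothed gradient. -/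
def S_bessel : Prop := ∀ (ι : Type) [Fintype ι] (f : (ι → ℝ) → ℝ) (D : ι → (ι → ℝ) → ℝ) (τ : ℝ)
  (x : ι → ℝ), C1 f D → 0 ≤ τ → τ ≤ 1 →
  (1 - τ ^ 2) * ∑ e, T (fun _ => τ) (D e) x ^ 2 ≤ T (fun _ => τ) (fun y => f y ^ 2) x

/-- Gaussian average of a quadratic form in the second variable. -/
def S_gq : Prop := ∀ (ι : Type) [Fintype ι] (I : Finset ι) (c : ι → ι → (ι → ℝ) → ℝ),
  (∀ e e', EG (c e e')) →
  ∫ p : (ι → ℝ) × (ι → ℝ), ∑ e ∈ I, ∑ e' ∈ I, c e e' p.1 * (p.2 e * p.2 e') ∂(gam ι).prod (gam ι)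
    = ∑ e ∈ I, ∫ x, c e e x ∂gam ι

/-! ## The model -/

def S_good : Prop := ∀ (n : ℕ) (β τ : ℝ), 1 ≤ n → 0 ≤ τ → τ ≤ 1 →
  Good n β (1 - τ ^ 2) (Bm β τ) (dB β τ) ∧
  (∀ (ρ : ℝ) (z : Edge n → ℝ), 0 ≤ ρ → ρ ≤ 1 →
    Good n β (1 - τ ^ 2) (fun x => Bm β τ (nz (fun _ => ρ) x z))
      fun e x => ρ • dB β τ e (nz (fun _ => ρ) x z)) ∧
  ∀ (x : Edge n → ℝ) (G : Matrix (Fin n) (Fin n) ℝ), G.PosSemidef →
    (1 - τ ^ 2) * ∑ e, (G * (dB β τ e x * dB β τ e x)).trace ≤ n * (G * Bm β τ x).trace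

/-- Comparability of the smoothed matrices at two disorders differing in one row. -/
def S_comp : Prop := ∀ (n : ℕ) (β τ η K θ : ℝ) (k : ℕ) (i : Fin n) (x y : Edge n → ℝ),
  0 ≤ τ → τ ≤ 1 → 0 < η → 0 < K →
  qf (sh (Bm β τ x) η)⁻¹ (wv β τ i θ x y) ≤ K + n / η * Pm β τ (k + 1) i θ x y / K ^ k

def S_momeg : Prop := ∀ (n : ℕ) (β τ θ : ℝ) (k : ℕ) (i : Fin n), 0 ≤ τ → τ ≤ 1 →
  (EG fun p : (Edge n → ℝ) × (Edge n → ℝ) => mom β k p.1 p.2) ∧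
  (EG fun p : (Edge n → ℝ) × (Edge n → ℝ) => Pm β τ k i θ p.1 p.2) ∧
  ∀ x y, 0 ≤ Pm β τ k i θ x y

/-- The deterministic part of the moment bound: `a`, `b` agree off row `i`. -/
def S_momdet : Prop := ∀ (n : ℕ) (β : ℝ) (k : ℕ) (i : Fin n) (a b : Edge n → ℝ),
  (∀ e, e ∉ row i → a e = b e) →
  mom β (k + 1) a b ≤
    gb β (off (row i) * a) (fun σ => Real.exp (4 * (k + 1) * (β * ham ((1 - off (row i)) * a) σ)))
    + gb β (off (row i) * b) (fun σ => Real.exp (-(4 * k) * (β * ham ((1 - off (row i)) * b) σ)))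
    + gb β (off (row i) * b) (fun σ => Real.exp (2 * k * (β * ham ((1 - off (row i)) * b) σ)))

/-- Gaussian average of the cavity exponential moments. -/
def S_momg : Prop := ∀ (n : ℕ) (β c : ℝ) (i : Fin n),
  (EG fun a : Edge n → ℝ =>
    gb β (off (row i) * a) fun σ => Real.exp (c * (β * ham ((1 - off (row i)) * a) σ))) ∧
  ∫ a, gb β (off (row i) * a) (fun σ => Real.exp (c * (β * ham ((1 - off (row i)) * a) σ)))
    ∂gam (Edge n) ≤ Real.exp (c ^ 2 * β ^ 2 / 2)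

def S_mom : Prop := ∀ (β : ℝ) (k : ℕ), ∃ C : ℝ, 0 ≤ C ∧ ∀ (n : ℕ) (τ θ : ℝ) (i : Fin n),
  0 ≤ τ → τ ≤ 1 →
  ∫ p : (Edge n → ℝ) × (Edge n → ℝ), Pm β τ k i θ p.1 p.2 ∂(gam (Edge n)).prod (gam (Edge n)) ≤ C ∧
  ∀ e, ∫ p : (Edge n → ℝ) × (Edge n → ℝ), Pm β τ k i θ p.1 p.2 * p.2 e ^ 2
    ∂(gam (Edge n)).prod (gam (Edge n)) ≤ C

/-- The derivative of `av` in the angle. -/
def S_avder : Prop := ∀ (n : ℕ) (β τ η u θ : ℝ) (P : (Edge n → ℝ) → Matrix (Fin n) (Fin n) ℝ)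
  (dP : Edge n → (Edge n → ℝ) → Matrix (Fin n) (Fin n) ℝ), 1 ≤ n → 0 ≤ τ → τ ≤ 1 → 0 < η →
  Good n β (1 - τ ^ 2) P dP →
  HasDerivAt (av β τ η u P)
    (-∑ i, ∫ p : (Edge n → ℝ) × (Edge n → ℝ),
      qf (dG (sh (Bm β τ p.1) η) (P p.1) u (∑ e ∈ row i, p.2 e • dB β τ e p.1)
        (∑ e ∈ row i, p.2 e • dP e p.1)) (wv β τ i θ p.1 p.2)
      ∂(gam (Edge n)).prod (gam (Edge n))) θ

/-- The size of the derivative. -/
def S_avbd : Prop := ∀ (β : ℝ) (k : ℕ), ∃ C : ℝ, 0 ≤ C ∧ ∀ (n : ℕ) (τ η u θ l m K : ℝ)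
  (P : (Edge n → ℝ) → Matrix (Fin n) (Fin n) ℝ)
  (dP : Edge n → (Edge n → ℝ) → Matrix (Fin n) (Fin n) ℝ), 1 ≤ n → 0 ≤ τ → τ < 1 → 1 ≤ η →
  0 ≤ u → 0 < l → l ≤ 1 → 1 ≤ m → m ≤ n → 1 ≤ K → Good n β (1 - τ ^ 2) P dP →
  |∑ i, ∫ p : (Edge n → ℝ) × (Edge n → ℝ),
      qf (dG (sh (Bm β τ p.1) η) (P p.1) u (∑ e ∈ row i, p.2 e • dB β τ e p.1)
        (∑ e ∈ row i, p.2 e • dP e p.1)) (wv β τ i θ p.1 p.2)
      ∂(gam (Edge n)).prod (gam (Edge n))| ≤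
    l * av β τ η u P θ + (8 * K * n ^ 2 / ((1 - τ ^ 2) * l * (η + u) ^ 2)
      + K / (η + u) * (n * m + 2 * n ^ 2 / ((1 - τ ^ 2) * m)) + C * n ^ 7 / (l * K ^ k))

/-- Gronwall in the angle. -/
def S_core : Prop := ∀ (β : ℝ) (k : ℕ), ∃ C : ℝ, 0 ≤ C ∧ ∀ (n : ℕ) (τ η u l m K : ℝ)
  (P : (Edge n → ℝ) → Matrix (Fin n) (Fin n) ℝ)
  (dP : Edge n → (Edge n → ℝ) → Matrix (Fin n) (Fin n) ℝ), 1 ≤ n → 0 ≤ τ → τ < 1 → 1 ≤ η →
  0 ≤ u → 0 < l → l ≤ 1 → 1 ≤ m → m ≤ n → 1 ≤ K → Good n β (1 - τ ^ 2) P dP →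
  ∑ i, ∫ x, (Gu (sh (Bm β τ x) η) (P x) u * Ki β τ i x).trace ∂gam (Edge n) ≤
    ∫ x, (Gu (sh (Bm β τ x) η) (P x) u * (Bm β τ x * Bm β τ x)).trace ∂gam (Edge n)
    + 8 * l * n + 8 * (8 * K * n ^ 2 / ((1 - τ ^ 2) * l * (η + u) ^ 2)
      + K / (η + u) * (n * m + 2 * n ^ 2 / ((1 - τ ^ 2) * m)) + C * n ^ 7 / (l * K ^ k))

/-- The averaged tangent functional for a fixed second matrix field. -/
def S_ellz : Prop := ∀ (β ε : ℝ), 0 < ε → ∃ C : ℝ, 0 ≤ C ∧ ∀ (n : ℕ) (τ : ℝ)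
  (P : (Edge n → ℝ) → Matrix (Fin n) (Fin n) ℝ)
  (dP : Edge n → (Edge n → ℝ) → Matrix (Fin n) (Fin n) ℝ), 1 ≤ n → 0 ≤ τ → 1 / (n : ℝ) ≤ 1 - τ ^ 2 →
  Good n β (1 - τ ^ 2) P dP →
  ∑ i, ∫ x, ell (Bm β τ x) (P x) (Ki β τ i x) (√(n / (1 - τ ^ 2)) * (n : ℝ) ^ ε) ((n : ℝ) ^ 2)
      ∂gam (Edge n) ≤
    (∫ x, (Bm β τ x * P x).trace ∂gam (Edge n)) / 2
      + C * (n : ℝ) ^ (2 * ε) * (n * √(n / (1 - τ ^ 2)))

/-- The pointwise inequality for one row. -/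
def S_point2 : Prop := ∀ (n : ℕ) (β τ ρ η U : ℝ) (i : Fin n) (x x' : Edge n → ℝ),
  0 ≤ τ → τ ≤ 1 → 0 ≤ ρ → ρ ≤ 1 → 0 < η → 0 < U →
  (Ki β τ i x).PosSemidef ∧
  ∑ j, cov ρ (fun y => Bf β τ i j (nz (off (row i)) x y) - if i = j then 1 else 0)
      (fun y => Bf β τ i j (nz (off (row i)) x' y) - if i = j then 1 else 0) ≤
    ρ * (ell (Bm β τ x) (Bm β τ x') (Ki β τ i x) η U + ell (Bm β τ x') (Bm β τ x) (Ki β τ i x') η U)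

/-- `ell` along matrix fields is of exponential growth. -/
def S_elleg : Prop := ∀ (X κ : Type) [NormedAddCommGroup X] [SecondCountableTopology X] [Fintype κ]
  [DecidableEq κ] (B P N : X → Matrix κ κ ℝ) (η U : ℝ), (∀ j k, EG fun x => B x j k) →
  (∀ j k, EG fun x => P x j k) → (∀ j k, EG fun x => N x j k) → (∀ x, (B x).PosSemidef) →
  0 < η → 0 < U → EG fun x => ell (B x) (P x) (N x) η U

def S_step2 : Prop := ∀ (β ε : ℝ), 0 < ε → ∃ C : ℝ, 0 ≤ C ∧ ∀ (n : ℕ) (τ ρ : ℝ), 1 ≤ n →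
  0 ≤ τ → 1 / (n : ℝ) ≤ 1 - τ ^ 2 → 0 ≤ ρ → ρ ≤ 1 →
  Phi n β (ρ * τ ^ 2) ≤ n + ρ * (Phi n β (ρ * τ ^ 2)
    + C * (n : ℝ) ^ (2 * ε) * (n * √(n / (1 - τ ^ 2))))

def S_calc2 : Prop := ∃ C₀ : ℝ, 0 ≤ C₀ ∧ ∀ (N L : ℝ) (Φ : ℝ → ℝ), 1 ≤ N → 0 ≤ L →
  ContinuousOn Φ (Set.Icc 0 1) → (∀ r, 0 ≤ r → r ≤ 1 → 0 ≤ Φ r ∧ Φ r ≤ N ^ 2) →
  (∀ τ ρ : ℝ, 0 ≤ τ → 1 / N ≤ 1 - τ ^ 2 → 0 ≤ ρ → ρ ≤ 1 →
    Φ (ρ * τ ^ 2) ≤ N + ρ * (Φ (ρ * τ ^ 2) + L * (N * √(N / (1 - τ ^ 2))))) →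
  ∫ r in (0 : ℝ)..1, Φ r ≤ C₀ * (1 + L) * N ^ (5 / 3 : ℝ)

def S_main2 : Prop := ∀ (β ε : ℝ), 0 < ε → ∃ C : ℝ, ∀ n : ℕ, 1 ≤ n →
  variance (freeEnergy n β) (disorder n) ≤ C * (n : ℝ) ^ (2 / 3 + ε)

theorem main2_of (h_step2 : S_step2) (h_calc2 : S_calc2) : S_main2 := by
  intro β ε hε
  obtain ⟨C₀, hC₀, h⟩ := h_calc2
  obtain ⟨C, hC, hs⟩ := h_step2 β (ε / 2) (by linarith)
  refine ⟨β ^ 2 * C₀ * (1 + C), fun n hn => ?_⟩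
  obtain ⟨h1, h2, h3⟩ := a_var n β hn
  have hn1 : (1 : ℝ) ≤ n := by exact_mod_cast hn
  have hn0 : (0 : ℝ) < n := by linarith
  have he : 2 * (ε / 2) = ε := by ring
  have hp : (1 : ℝ) ≤ (n : ℝ) ^ ε := Real.one_le_rpow hn1 hε.le
  have h4 := h n (C * (n : ℝ) ^ ε) (Phi n β) hn1 (by positivity) h1 h2 fun τ ρ a b c d => by
    have := hs n τ ρ hn a b c d
    rwa [he] at this
  refine h3.trans ((mul_le_mul_of_nonneg_left h4 (by positivity)).trans ?_)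
  have e1 : (n : ℝ) ^ (5 / 3 : ℝ) = (n : ℝ) ^ (2 / 3 : ℝ) * n := by
    rw [← Real.rpow_add_one hn0.ne']
    norm_num
  rw [e1, Real.rpow_add hn0]
  have h5 : 1 + C * (n : ℝ) ^ ε ≤ (1 + C) * (n : ℝ) ^ ε := by nlinarith
  have h6 : (0 : ℝ) ≤ (n : ℝ) ^ (2 / 3 : ℝ) := by positivity
  calc β ^ 2 / n * (C₀ * (1 + C * (n : ℝ) ^ ε) * ((n : ℝ) ^ (2 / 3 : ℝ) * n))
      = β ^ 2 * C₀ * (n : ℝ) ^ (2 / 3 : ℝ) * (1 + C * (n : ℝ) ^ ε) := by field_simp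
    _ ≤ β ^ 2 * C₀ * (n : ℝ) ^ (2 / 3 : ℝ) * ((1 + C) * (n : ℝ) ^ ε) :=
        mul_le_mul_of_nonneg_left h5 (by positivity)
    _ = _ := by ring

end Vale.Agent.P146
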