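import Vale.Agent.P146.Defs2

/-! # P146: resolvent kernels in an eigenbasis -/

namespace Vale.Agent.P146

open Matrix MeasureTheory Filter Topology

namespace EigAux

variable {κ : Type} [Fintype κ] [DecidableEq κ]

/-- Conjugated diagonal matrix. -/
def cj (U : Matrix κ κ ℝ) (f : κ → ℝ) : Matrix κ κ ℝ := U * diagonal f * Uᵀ

/-- Orthogonal matrices. -/
structure Orth (U : Matrix κ κ ℝ) : Prop where
  l : Uᵀ * U = 1
  r : U * Uᵀ = 1

variable {U : Matrix κ κ ℝ}

theorem spectral {B : Matrix κ κ ℝ} (hB : B.PosSemidef) :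
    ∃ (U : Matrix κ κ ℝ) (b : κ → ℝ), Orth U ∧ (∀ a, 0 ≤ b a) ∧ B = cj U b := by
  refine ⟨hB.1.eigenvectorUnitary, hB.1.eigenvalues, ⟨?_, ?_⟩, hB.eigenvalues_nonneg, ?_⟩
  · simpa [star_eq_conjTranspose] using Unitary.coe_star_mul_self hB.1.eigenvectorUnitary
  · simpa [star_eq_conjTranspose] using Unitary.coe_mul_star_self hB.1.eigenvectorUnitary
  · have := hB.1.spectral_theorem
    simpa [cj, Unitary.conjStarAlgAut_apply, star_eq_conjTranspose] using this

theorem cj_mul (hU : Orth U) (f g : κ → ℝ) : cj U f * cj U g = cj U fun a => f a * g a := by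
  unfold cj
  calc U * diagonal f * Uᵀ * (U * diagonal g * Uᵀ)
      = U * (diagonal f * (Uᵀ * U) * diagonal g) * Uᵀ := by simp only [Matrix.mul_assoc]
    _ = _ := by rw [hU.l, Matrix.mul_one, diagonal_mul_diagonal]

theorem cj_add (f g : κ → ℝ) : cj U f + cj U g = cj U fun a => f a + g a := by
  unfold cj
  rw [← Matrix.add_mul, ← Matrix.mul_add, diagonal_add]

theorem cj_smul (c : ℝ) (f : κ → ℝ) : c • cj U f = cj U fun a => c * f a := by
  unfold cj
  rw [← Matrix.smul_mul, ← Matrix.mul_smul, ← diagonal_smul]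
  rfl

theorem cj_one (hU : Orth U) : cj U (fun _ => 1) = 1 := by
  unfold cj
  rw [diagonal_one, Matrix.mul_one, hU.r]

theorem cj_inv (hU : Orth U) {f : κ → ℝ} (hf : ∀ a, f a ≠ 0) :
    (cj U f)⁻¹ = cj U fun a => (f a)⁻¹ := by
  refine inv_eq_right_inv ?_
  rw [cj_mul hU, ← cj_one hU]
  congr 1
  funext a
  exact mul_inv_cancel₀ (hf a)

theorem cj_T (f : κ → ℝ) : (cj U f)ᵀ = cj U f := by
  simp [cj, Matrix.transpose_mul, Matrix.mul_assoc]

theorem cj_psd {f : κ → ℝ} (hf : ∀ a, 0 ≤ f a) : (cj U f).PosSemidef := by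
  have := (PosSemidef.diagonal (d := f) hf).mul_mul_conjTranspose_same U
  simpa [cj] using this

theorem qf_cj (f w : κ → ℝ) : qf (cj U f) w = ∑ a, f a * (Uᵀ *ᵥ w) a ^ 2 := by
  unfold qf cj
  rw [← mulVec_mulVec, ← mulVec_mulVec, dotProduct_mulVec, ← mulVec_transpose]
  simp only [dotProduct, mulVec_diagonal]
  exact Finset.sum_congr rfl fun a _ => by ring

theorem trace_cj (P : Matrix κ κ ℝ) (f : κ → ℝ) :
    (P * cj U f).trace = ∑ a, f a * (Uᵀ * P * U) a a := by
  unfold cj
  rw [← Matrix.mul_assoc, trace_mul_comm, ← Matrix.mul_assoc, ← Matrix.mul_assoc]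
  simp only [trace, diag, mul_diagonal]
  exact Finset.sum_congr rfl fun a _ => by ring

theorem trace_conj (hU : Orth U) (P : Matrix κ κ ℝ) : ∑ a, (Uᵀ * P * U) a a = P.trace := by
  have := trace_cj (U := U) P fun _ => 1
  rw [cj_one hU, Matrix.mul_one] at this
  simpa using this.symm

omit [DecidableEq κ] in
theorem conj_nonneg {P : Matrix κ κ ℝ} (hP : P.PosSemidef) (a : κ) : 0 ≤ (Uᵀ * P * U) a a := by
  have := (hP.conjTranspose_mul_mul_same U).diag_nonneg (i := a)
  simpa using this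

theorem trace_cj2 (P N : Matrix κ κ ℝ) (f g : κ → ℝ) :
    (cj U f * P * cj U g * N).trace
      = ∑ a, ∑ b, f a * g b * ((Uᵀ * P * U) a b * (Uᵀ * N * U) b a) := by
  have e : (cj U f * P * cj U g * N).trace
      = (diagonal f * (Uᵀ * P * U) * diagonal g * (Uᵀ * N * U)).trace := by
    unfold cj
    simp only [Matrix.mul_assoc]
    rw [trace_mul_comm]
    simp only [Matrix.mul_assoc]
  rw [e]
  simp only [trace, diag]
  refine Finset.sum_congr rfl fun a _ => ?_
  rw [mul_apply]
  exact Finset.sum_congr rfl fun b _ => by rw [mul_diagonal, diagonal_mul]; ring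

theorem trace_mul_le_mul {X N : Matrix κ κ ℝ} (hX : X.PosSemidef) (hN : N.PosSemidef) :
    (X * N).trace ≤ X.trace * N.trace := by
  obtain ⟨V, b, hV, hb, rfl⟩ := spectral hN
  have h1 : (cj V b).trace = ∑ a, b a := by
    have := trace_cj (U := V) 1 b
    rw [Matrix.one_mul, Matrix.mul_one, hV.l] at this
    simpa using this
  rw [trace_cj, h1, ← trace_conj hV X, Finset.sum_mul]
  refine Finset.sum_le_sum fun a _ => ?_
  rw [mul_comm]
  exact mul_le_mul_of_nonneg_left (Finset.single_le_sum (fun c _ => hb c) (Finset.mem_univ a))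
    (conj_nonneg hX a)

theorem sh_cj (hU : Orth U) (b : κ → ℝ) (η : ℝ) : sh (cj U b) η = cj U fun a => b a + η := by
  rw [sh, ← cj_one hU, cj_smul, cj_add]
  simp

theorem Qm_cj (hU : Orth U) {α : κ → ℝ} (hα : ∀ a, 0 < α a) (u : ℝ) :
    Qm (cj U α) u = cj U fun a => (α a ^ 2 + u ^ 2)⁻¹ := by
  rw [Qm, cj_mul hU, ← cj_one hU, cj_smul, cj_add, cj_inv hU fun a => by
    have := hα a
    positivity]
  congr 1
  funext a
  ring

theorem Cm_cj (hU : Orth U) {α : κ → ℝ} (hα : ∀ a, 0 < α a) (u : ℝ) :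
    Cm (cj U α) u = cj U fun a => α a * (α a ^ 2 + u ^ 2)⁻¹ := by
  rw [Cm, Qm_cj hU hα, cj_mul hU]

theorem Sm_cj (hU : Orth U) {α : κ → ℝ} (hα : ∀ a, 0 < α a) (u : ℝ) :
    Sm (cj U α) u = cj U fun a => u * (α a ^ 2 + u ^ 2)⁻¹ := by
  rw [Sm, Qm_cj hU hα, cj_smul]

theorem Gu_psd (hU : Orth U) {α : κ → ℝ} (hα : ∀ a, 0 < α a) (u : ℝ) {P : Matrix κ κ ℝ}
    (hP : P.PosSemidef) : (Gu (cj U α) P u).PosSemidef := by
  rw [Gu, Cm_cj hU hα, Sm_cj hU hα]
  have h : ∀ f : κ → ℝ, (cj U f * P * cj U f).PosSemidef := fun f => by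
    have := hP.mul_mul_conjTranspose_same (cj U f)
    rwa [conjTranspose_eq_transpose_of_trivial, cj_T] at this
  exact (h _).add (h _)

theorem trace_Gu (hU : Orth U) {α : κ → ℝ} (hα : ∀ a, 0 < α a) (u : ℝ) (P : Matrix κ κ ℝ)
    (f : κ → ℝ) : (Gu (cj U α) P u * cj U f).trace
      = ∑ a, f a * (α a ^ 2 + u ^ 2)⁻¹ * (Uᵀ * P * U) a a := by
  have h : ∀ g : κ → ℝ, (cj U g * P * cj U g * cj U f).trace
      = ∑ a, g a * f a * g a * (Uᵀ * P * U) a a := fun g => by
    rw [Matrix.mul_assoc, Matrix.mul_assoc, trace_mul_comm, Matrix.mul_assoc, cj_mul hU, cj_mul hU,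
      trace_cj]
  rw [Gu, Cm_cj hU hα, Sm_cj hU hα, Matrix.add_mul, trace_add, h, h, ← Finset.sum_add_distrib]
  refine Finset.sum_congr rfl fun a _ => ?_
  have := hα a
  field_simp

theorem trace_Gu2 (hU : Orth U) {α : κ → ℝ} (hα : ∀ a, 0 < α a) (u : ℝ) (P N : Matrix κ κ ℝ) :
    (Gu (cj U α) P u * N).trace = ∑ a, ∑ b, (α a * α b + u ^ 2) / ((α a ^ 2 + u ^ 2) *
      (α b ^ 2 + u ^ 2)) * ((Uᵀ * P * U) a b * (Uᵀ * N * U) b a) := by
  rw [Gu, Cm_cj hU hα, Sm_cj hU hα, Matrix.add_mul, trace_add, trace_cj2, trace_cj2,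
    ← Finset.sum_add_distrib]
  refine Finset.sum_congr rfl fun a _ => ?_
  rw [← Finset.sum_add_distrib]
  refine Finset.sum_congr rfl fun b _ => ?_
  have := hα a
  have := hα b
  field_simp

theorem sum_le (hU : Orth U) {P : Matrix κ κ ℝ} (hP : P.PosSemidef) {f : κ → ℝ} {c : ℝ}
    (h : ∀ a, f a ≤ c) : ∑ a, f a * (Uᵀ * P * U) a a ≤ c * P.trace := by
  rw [← trace_conj hU, Finset.mul_sum]
  exact Finset.sum_le_sum fun a _ => mul_le_mul_of_nonneg_right (h a) (conj_nonneg hP a)

theorem trace_Gu_le (hU : Orth U) {α : κ → ℝ} (hα : ∀ a, 0 < α a) (u : ℝ) {P : Matrix κ κ ℝ}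
    (hP : P.PosSemidef) {c : ℝ} (hc : 0 < c) (h : ∀ a, c ≤ α a ^ 2 + u ^ 2) :
    (Gu (cj U α) P u).trace ≤ P.trace / c := by
  have := trace_Gu hU hα u P fun _ => 1
  rw [cj_one hU, Matrix.mul_one] at this
  rw [this, div_eq_inv_mul]
  exact sum_le hU hP fun a => by rw [one_mul]; exact inv_anti₀ hc (h a)

theorem der_k {x y : ℝ} (hx : 0 < x) (hy : 0 < y) (u : ℝ) :
    HasDerivAt (fun u => (Real.arctan (u / x) + Real.arctan (u / y)) / (x + y))
      ((x * y + u ^ 2) / ((x ^ 2 + u ^ 2) * (y ^ 2 + u ^ 2))) u := by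
  have h1 := ((hasDerivAt_id u).div_const x).arctan
  have h2 := ((hasDerivAt_id u).div_const y).arctan
  refine ((h1.add h2).div_const (x + y)).congr_deriv ?_
  simp only [id]
  field_simp
  ring

theorem cont_k {x y : ℝ} (hx : 0 < x) (hy : 0 < y) :
    Continuous fun u : ℝ => (x * y + u ^ 2) / ((x ^ 2 + u ^ 2) * (y ^ 2 + u ^ 2)) :=
  Continuous.div (by fun_prop) (by fun_prop) fun u => by positivity

theorem int_k {x y : ℝ} (hx : 0 < x) (hy : 0 < y) (V : ℝ) :
    ∫ u in (0 : ℝ)..V, (x * y + u ^ 2) / ((x ^ 2 + u ^ 2) * (y ^ 2 + u ^ 2))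
      = (Real.arctan (V / x) + Real.arctan (V / y)) / (x + y) := by
  rw [intervalIntegral.integral_eq_sub_of_hasDerivAt (fun u _ => der_k hx hy u)
    ((cont_k hx hy).intervalIntegrable _ _)]
  simp

theorem lim_k {x y : ℝ} (hx : 0 < x) (hy : 0 < y) :
    Tendsto (fun V => (Real.arctan (V / x) + Real.arctan (V / y)) / (x + y)) atTop
      (𝓝 (Real.pi / (x + y))) := by
  have h : ∀ z : ℝ, 0 < z → Tendsto (fun V => Real.arctan (V / z)) atTop (𝓝 (Real.pi / 2)) :=
    fun z hz => (Real.tendsto_arctan_atTop.mono_right nhdsWithin_le_nhds).comp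
      (tendsto_id.atTop_div_const hz)
  have := ((h x hx).add (h y hy)).div_const (x + y)
  rwa [add_halves] at this

theorem cont_tr (hU : Orth U) {α : κ → ℝ} (hα : ∀ a, 0 < α a) (P N : Matrix κ κ ℝ) :
    Continuous fun u => (Gu (cj U α) P u * N).trace := by
  simp only [trace_Gu2 hU hα]
  exact continuous_finset_sum _ fun a _ => continuous_finset_sum _ fun b _ =>
    (cont_k (hα a) (hα b)).mul continuous_const

theorem int_tr (hU : Orth U) {α : κ → ℝ} (hα : ∀ a, 0 < α a) (P N : Matrix κ κ ℝ) (V : ℝ) :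
    ∫ u in (0 : ℝ)..V, (Gu (cj U α) P u * N).trace = ∑ a, ∑ b,
      (Real.arctan (V / α a) + Real.arctan (V / α b)) / (α a + α b)
        * ((Uᵀ * P * U) a b * (Uᵀ * N * U) b a) := by
  simp only [trace_Gu2 hU hα]
  rw [intervalIntegral.integral_finset_sum fun a _ => (continuous_finset_sum _ fun b _ =>
    (cont_k (hα a) (hα b)).mul_const _).intervalIntegrable _ _]
  refine Finset.sum_congr rfl fun a _ => ?_
  rw [intervalIntegral.integral_finset_sum fun b _ =>
    ((cont_k (hα a) (hα b)).mul_const _).intervalIntegrable _ _]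
  refine Finset.sum_congr rfl fun b _ => ?_
  rw [intervalIntegral.integral_mul_const, int_k (hα a) (hα b)]

theorem tail (hU : Orth U) {α : κ → ℝ} (hα : ∀ a, 0 < α a) {P N : Matrix κ κ ℝ}
    (hP : P.PosSemidef) (hN : N.PosSemidef) {W V : ℝ} (hW : 0 < W) (hV : W ≤ V) :
    ∫ u in (0 : ℝ)..V, (Gu (cj U α) P u * N).trace
      ≤ (∫ u in (0 : ℝ)..W, (Gu (cj U α) P u * N).trace) + P.trace * N.trace / W := by
  have hc := cont_tr hU hα P N
  rw [← intervalIntegral.integral_add_adjacent_intervals (hc.intervalIntegrable 0 W)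
    (hc.intervalIntegrable W V)]
  refine add_le_add_right ?_ _
  have hT : 0 ≤ P.trace * N.trace := mul_nonneg hP.trace_nonneg hN.trace_nonneg
  have hd : ∀ u ∈ Set.uIcc W V, HasDerivAt (fun u : ℝ => -(P.trace * N.trace) * u⁻¹)
      (P.trace * N.trace / u ^ 2) u := fun u hu => by
    rw [Set.uIcc_of_le hV] at hu
    have : u ≠ 0 := by linarith [hu.1]
    refine ((hasDerivAt_inv this).const_mul _).congr_deriv ?_
    field_simp
  have hi : IntervalIntegrable (fun u : ℝ => P.trace * N.trace / u ^ 2) volume W V := by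
    refine (ContinuousOn.div continuousOn_const (by fun_prop) fun u hu => ?_).intervalIntegrable
    rw [Set.uIcc_of_le hV] at hu
    have : 0 < u := by linarith [hu.1]
    positivity
  refine (intervalIntegral.integral_mono_on hV (hc.intervalIntegrable W V) hi fun u hu => ?_).trans ?_
  · have hu0 : 0 < u := by linarith [hu.1]
    refine (trace_mul_le_mul (Gu_psd hU hα u hP) hN).trans ?_
    rw [mul_div_right_comm]
    exact mul_le_mul_of_nonneg_right (trace_Gu_le hU hα u hP (by positivity) fun a =>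
      le_add_of_nonneg_left (sq_nonneg _)) hN.trace_nonneg
  · rw [intervalIntegral.integral_eq_sub_of_hasDerivAt hd hi]
    have : 0 ≤ P.trace * N.trace * V⁻¹ := mul_nonneg hT (inv_nonneg.2 (by linarith))
    rw [div_eq_mul_inv]
    linarith

end EigAux

open EigAux in
theorem gfacts : S_gfacts := by
  intro κ _ _ B P η u hB hP hη hu
  obtain ⟨U, b, hU, hb, rfl⟩ := spectral hB
  have hα : ∀ a, 0 < b a + η := fun a => by linarith [hb a]
  have key : ∀ a, (b a + η) * ((b a + η) ^ 2 + u ^ 2)⁻¹ ≤ 2 / (η + u) := fun a => by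
    have := hα a
    rw [← div_eq_mul_inv, div_le_div_iff₀ (by positivity) (by positivity)]
    nlinarith [hb a, sq_nonneg (b a + η - u), mul_nonneg (hb a) this.le]
  rw [sh_cj hU]
  refine ⟨Gu_psd hU hα u hP, ?_, ?_, fun w => ?_, ?_, ?_, ?_⟩
  · rw [Qm_cj hU hα]
    exact cj_psd fun a => by positivity
  · rw [cj_inv hU fun a => (hα a).ne']
    exact cj_psd fun a => inv_nonneg.2 (hα a).le
  · rw [Qm_cj hU hα, cj_inv hU fun a => (hα a).ne', qf_cj, qf_cj, Finset.mul_sum]
    refine Finset.sum_le_sum fun a _ => ?_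
    rw [← mul_assoc]
    refine mul_le_mul_of_nonneg_right ?_ (sq_nonneg _)
    rw [← div_eq_mul_inv, le_div_iff₀ (hα a), mul_comm]
    exact key a
  · rw [trace_Gu hU hα]
    refine sum_le hU hP fun a => le_trans ?_ (key a)
    exact mul_le_mul_of_nonneg_right (by linarith) (by positivity)
  · rw [cj_mul hU, trace_Gu hU hα]
    refine (sum_le hU hP (c := 1) fun a => ?_).trans (by simp)
    have := hα a
    rw [← div_eq_mul_inv, div_le_one (by positivity)]
    nlinarith [hb a, sq_nonneg u]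
  · exact trace_Gu_le hU hα u hP (by positivity) fun a => by nlinarith [hb a, sq_nonneg u]

open EigAux in
theorem gint : S_gint := by
  intro κ _ _ B P η V hB hP hη hV
  obtain ⟨U, b, hU, hb, rfl⟩ := spectral hB
  have hα : ∀ a, 0 < b a + η := fun a => by linarith [hb a]
  have hπ := Real.pi_pos
  rw [sh_cj hU, cj_mul hU, trace_mul_comm (cj U b), trace_cj]
  simp only [trace_Gu hU hα]
  have hc : ∀ a, Continuous fun u : ℝ => ((b a + η) ^ 2 + u ^ 2)⁻¹ := fun a =>
    Continuous.inv₀ (by fun_prop) fun u => by have := hα a; positivity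
  rw [intervalIntegral.integral_finset_sum fun a _ =>
    (((hc a).const_mul _).mul_const _).intervalIntegrable _ _, Finset.mul_sum,
    Finset.sum_div]
  refine Finset.sum_le_sum fun a _ => ?_
  have h1 : ∫ u in (0 : ℝ)..V, ((b a + η) ^ 2 + u ^ 2)⁻¹ ≤ Real.pi / (2 * (b a + η)) := by
    have h := int_k (hα a) (hα a) V
    have e : ∀ u : ℝ, ((b a + η) * (b a + η) + u ^ 2) / (((b a + η) ^ 2 + u ^ 2) *
        ((b a + η) ^ 2 + u ^ 2)) = ((b a + η) ^ 2 + u ^ 2)⁻¹ := fun u => by
      have := hα a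
      field_simp
    simp only [e] at h
    rw [h, two_mul]
    have := hα a
    exact div_le_div_of_nonneg_right (by linarith [Real.arctan_lt_pi_div_two (V / (b a + η))])
      (by positivity)
  rw [intervalIntegral.integral_mul_const, intervalIntegral.integral_const_mul]
  have h2 := conj_nonneg (U := U) hP a
  have h3 := hb a
  have h4 := hα a
  calc 1 / Real.pi * (b a * b a * (∫ u in (0 : ℝ)..V, ((b a + η) ^ 2 + u ^ 2)⁻¹) * (Uᵀ * P * U) a a)
      ≤ 1 / Real.pi * (b a * (b a + η) * (Real.pi / (2 * (b a + η))) * (Uᵀ * P * U) a a) := by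
        gcongr
        · exact intervalIntegral.integral_nonneg hV fun u _ => by positivity
        · linarith
    _ = _ := by field_simp

open EigAux in
theorem rep : S_rep := by
  intro κ _ _ B P η W hB hP hη hW
  obtain ⟨U, b, hU, hb, rfl⟩ := spectral hB
  have hα : ∀ a, 0 < b a + η := fun a => by linarith [hb a]
  have hπ := Real.pi_pos
  have hPs : Pᵀ = P := by simpa using hP.1.eq
  set α : κ → ℝ := fun a => b a + η with hαd
  set Z : Matrix κ κ ℝ := Matrix.of fun a c => (Uᵀ * P * U) a c / (α a + α c) with hZ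
  have hZs : Zᵀ = Z := by
    ext a c
    have : (Uᵀ * P * U) c a = (Uᵀ * P * U) a c := by
      have h0 : (Uᵀ * P * U)ᵀ = Uᵀ * P * U := by
        rw [Matrix.transpose_mul, Matrix.transpose_mul, hPs, transpose_transpose, Matrix.mul_assoc]
      rw [← transpose_apply (Uᵀ * P * U) a c, h0]
    simp only [hZ, transpose_apply, of_apply, this, add_comm]
  have hinv : (cj U α)⁻¹ = cj U fun a => (α a)⁻¹ := cj_inv hU fun a => (hα a).ne'
  unfold ell
  rw [sh_cj hU]
  refine ⟨U * Z * Uᵀ + (η / 2) • (cj U α)⁻¹, ?_, ?_, fun N hN => ?_⟩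
  · rw [transpose_add, transpose_smul, hinv, cj_T]
    simp [Matrix.transpose_mul, hZs, Matrix.mul_assoc]
  · have e1 : cj U α * (U * Z * Uᵀ) + U * Z * Uᵀ * cj U α = P := by
      have e2 : diagonal α * Z + Z * diagonal α = Uᵀ * P * U := by
        ext a c
        have := hα a
        have := hα c
        simp only [hZ, Matrix.add_apply, diagonal_mul, mul_diagonal, of_apply]
        have h3 : α a + α c ≠ 0 := by simp only [hαd]; positivity
        field_simp
      calc cj U α * (U * Z * Uᵀ) + U * Z * Uᵀ * cj U α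
          = U * (diagonal α * (Uᵀ * U) * Z + Z * (Uᵀ * U) * diagonal α) * Uᵀ := by
            simp only [cj, Matrix.mul_assoc, Matrix.mul_add, Matrix.add_mul]
        _ = (U * Uᵀ) * P * (U * Uᵀ) := by
            rw [hU.l, Matrix.mul_one, Matrix.mul_one, e2]
            simp only [Matrix.mul_assoc]
        _ = P := by rw [hU.r, Matrix.one_mul, Matrix.mul_one]
    have e3 : cj U α * (cj U α)⁻¹ = 1 := by
      rw [hinv, cj_mul hU, ← cj_one hU]
      congr 1
      funext a
      exact mul_inv_cancel₀ (hα a).ne'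
    have e4 : (cj U α)⁻¹ * cj U α = 1 := by
      rw [hinv, cj_mul hU, ← cj_one hU]
      congr 1
      funext a
      exact inv_mul_cancel₀ (hα a).ne'
    rw [Matrix.mul_add, Matrix.add_mul, Matrix.mul_smul, Matrix.smul_mul, e3, e4, sh, ← e1,
      add_add_add_comm, ← add_smul, add_halves, e1]
  · rw [Matrix.add_mul, trace_add, Matrix.smul_mul, trace_smul, smul_eq_mul]
    refine add_le_add_left ?_ _
    have e5 : Real.pi * (U * Z * Uᵀ * N).trace
        = ∑ a, ∑ c, Real.pi / (α a + α c) * ((Uᵀ * P * U) a c * (Uᵀ * N * U) c a) := by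
      have : (U * Z * Uᵀ * N).trace = (Z * (Uᵀ * N * U)).trace := by
        simp only [Matrix.mul_assoc]
        rw [trace_mul_comm]
        simp only [Matrix.mul_assoc]
      rw [this]
      simp only [trace, diag, Finset.mul_sum]
      refine Finset.sum_congr rfl fun a _ => ?_
      rw [mul_apply, Finset.mul_sum]
      exact Finset.sum_congr rfl fun c _ => by simp only [hZ, of_apply]; ring
    have hl : Tendsto (fun V => ∫ u in (0 : ℝ)..V, (Gu (cj U α) P u * N).trace) atTop
        (𝓝 (Real.pi * (U * Z * Uᵀ * N).trace)) := by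
      simp only [int_tr (α := α) hU hα, e5]
      exact tendsto_finset_sum _ fun a _ => tendsto_finset_sum _ fun c _ =>
        (lim_k (hα a) (hα c)).mul_const _
    have h6 := le_of_tendsto hl ((eventually_ge_atTop W).mono fun V hV =>
      tail (α := α) hU hα hP hN hW hV)
    have e7 : 1 / Real.pi * (∫ u in (0 : ℝ)..W, (Gu (cj U α) P u * N).trace)
        + P.trace * N.trace / (Real.pi * W) = ((∫ u in (0 : ℝ)..W, (Gu (cj U α) P u * N).trace)
          + P.trace * N.trace / W) / Real.pi := by field_simp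
    rw [e7, le_div_iff₀ hπ, mul_comm]
    exact h6

end Vale.Agent.P146
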