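import Vale.Agent.P146.Stmt

/-! # P146: continuous functions of exponential growth, Gaussian smoothing operators -/

namespace Vale.Agent.P146

open MeasureTheory ProbabilityTheory

/-- The standard Gaussian measure on `ι → ℝ`. -/
noncomputable abbrev gam (ι : Type) [Fintype ι] : Measure (ι → ℝ) :=
  Measure.pi fun _ => gaussianReal 0 1

/-- Continuous with exponential growth. -/
def EG {X : Type} [NormedAddCommGroup X] (f : X → ℝ) : Prop :=
  Continuous f ∧ ∃ C c : ℝ, 0 ≤ C ∧ 0 ≤ c ∧ ∀ x, |f x| ≤ C * Real.exp (c * ‖x‖)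

/-- Probability measures with all exponential moments. -/
structure Nice {X : Type} [NormedAddCommGroup X] [MeasurableSpace X] (μ : Measure X) : Prop where
  prob : IsProbabilityMeasure μ
  ex : ∀ c : ℝ, Integrable (fun x => Real.exp (c * ‖x‖)) μ

section eg
variable {X Y : Type} [NormedAddCommGroup X] [NormedAddCommGroup Y] {f g : X → ℝ}

theorem EG.cont (h : EG f) : Continuous f := h.1

theorem EG.of_bdd (hc : Continuous f) {C : ℝ} (h : ∀ x, |f x| ≤ C) : EG f :=
  ⟨hc, |C|, 0, abs_nonneg _, le_rfl, fun x => by simpa using (h x).trans (le_abs_self C)⟩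

theorem EG.const (a : ℝ) : EG fun _ : X => a := EG.of_bdd continuous_const fun _ => le_rfl

theorem EG.mul (hf : EG f) (hg : EG g) : EG fun x => f x * g x := by
  obtain ⟨h1, C, c, hC, hc, h⟩ := hf
  obtain ⟨h2, C', c', hC', hc', h'⟩ := hg
  refine ⟨h1.mul h2, C * C', c + c', by positivity, by positivity, fun x => ?_⟩
  rw [abs_mul, add_mul, Real.exp_add]
  calc _ ≤ (C * Real.exp (c * ‖x‖)) * (C' * Real.exp (c' * ‖x‖)) :=
        mul_le_mul (h x) (h' x) (abs_nonneg _) (by positivity)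
    _ = _ := by ring

theorem EG.add (hf : EG f) (hg : EG g) : EG fun x => f x + g x := by
  obtain ⟨h1, C, c, hC, hc, h⟩ := hf
  obtain ⟨h2, C', c', hC', hc', h'⟩ := hg
  refine ⟨h1.add h2, C + C', c + c', by positivity, by positivity, fun x => ?_⟩
  have e1 : Real.exp (c * ‖x‖) ≤ Real.exp ((c + c') * ‖x‖) :=
    Real.exp_le_exp.2 (mul_le_mul_of_nonneg_right (by linarith) (norm_nonneg _))
  have e2 : Real.exp (c' * ‖x‖) ≤ Real.exp ((c + c') * ‖x‖) :=
    Real.exp_le_exp.2 (mul_le_mul_of_nonneg_right (by linarith) (norm_nonneg _))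
  calc _ ≤ |f x| + |g x| := abs_add_le _ _
    _ ≤ C * Real.exp ((c + c') * ‖x‖) + C' * Real.exp ((c + c') * ‖x‖) :=
        add_le_add ((h x).trans (mul_le_mul_of_nonneg_left e1 hC))
          ((h' x).trans (mul_le_mul_of_nonneg_left e2 hC'))
    _ = _ := by ring

theorem EG.const_mul (a : ℝ) (hf : EG f) : EG fun x => a * f x := (EG.const a).mul hf

theorem EG.mul_const (hf : EG f) (a : ℝ) : EG fun x => f x * a := hf.mul (EG.const a)

theorem EG.neg (hf : EG f) : EG fun x => -f x := by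
  simpa using hf.const_mul (-1)

theorem EG.sub (hf : EG f) (hg : EG g) : EG fun x => f x - g x := by
  simpa [sub_eq_add_neg] using hf.add hg.neg

theorem EG.sq (hf : EG f) : EG fun x => f x ^ 2 := by
  simpa [pow_two] using hf.mul hf

theorem EG.abs (hf : EG f) : EG fun x => |f x| := by
  obtain ⟨h1, C, c, hC, hc, h⟩ := hf
  exact ⟨h1.abs, C, c, hC, hc, fun x => by simpa using h x⟩

theorem EG.sum {α : Type} (s : Finset α) {F : α → X → ℝ} (h : ∀ a ∈ s, EG (F a)) :
    EG fun x => ∑ a ∈ s, F a x := by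
  classical
  induction s using Finset.induction_on with
  | empty => simpa using EG.const (X := X) 0
  | insert a s ha ih =>
    simp only [Finset.sum_insert ha]
    exact (h a (Finset.mem_insert_self _ _)).add
      (ih fun b hb => h b (Finset.mem_insert_of_mem hb))

theorem EG.ite (p : Prop) [Decidable p] (hf : EG f) (hg : EG g) :
    EG fun x => if p then f x else g x := by
  split_ifs
  · exact hf
  · exact hg

/-- Linear growth implies exponential growth. -/
theorem EG.of_lin (hc : Continuous f) {a b : ℝ} (h : ∀ x, |f x| ≤ a * ‖x‖ + b) : EG f := by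
  refine ⟨hc, |a| + |b|, 1, by positivity, zero_le_one, fun x => (h x).trans ?_⟩
  have h1 := Real.add_one_le_exp ‖x‖
  have h0 := norm_nonneg x
  rw [one_mul, add_mul]
  refine add_le_add (mul_le_mul (le_abs_self a) (by linarith) h0 (abs_nonneg a)) ?_
  exact (le_abs_self b).trans (le_mul_of_one_le_right (abs_nonneg b) (by linarith))

/-- Composition with a continuous map of linear growth. -/
theorem EG.comp {f : Y → ℝ} (hf : EG f) {φ : X → Y} (hφ : Continuous φ) {a b : ℝ}
    (h : ∀ x, ‖φ x‖ ≤ a * ‖x‖ + b) : EG fun x => f (φ x) := by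
  obtain ⟨h1, C, c, hC, hc, h'⟩ := hf
  refine ⟨h1.comp hφ, C * Real.exp (c * b), c * |a|, by positivity, by positivity, fun x => ?_⟩
  refine (h' _).trans ?_
  rw [mul_assoc, ← Real.exp_add]
  refine mul_le_mul_of_nonneg_left (Real.exp_le_exp.2 ?_) hC
  have : ‖φ x‖ ≤ |a| * ‖x‖ + b :=
    (h x).trans (add_le_add_left (mul_le_mul_of_nonneg_right (le_abs_self a) (norm_nonneg _)) _)
  nlinarith

theorem EG.fst (hf : EG f) : EG fun p : X × Y => f p.1 :=
  hf.comp continuous_fst (a := 1) (b := 0) fun p => by simpa using norm_fst_le p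

theorem EG.snd {f : Y → ℝ} (hf : EG f) : EG fun p : X × Y => f p.2 :=
  hf.comp continuous_snd (a := 1) (b := 0) fun p => by simpa using norm_snd_le p

theorem EG.swap {f : X × Y → ℝ} (hf : EG f) : EG fun p : Y × X => f (p.2, p.1) :=
  hf.comp (by fun_prop) (a := 1) (b := 0) fun p => by
    simp [Prod.norm_def, max_comm]

/-- Sections. -/
theorem EG.sec_right {f : X × Y → ℝ} (hf : EG f) (x : X) : EG fun y => f (x, y) :=
  hf.comp (by fun_prop) (a := 1) (b := ‖x‖) fun y => by
    rw [Prod.norm_def, one_mul]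
    exact max_le (by linarith [norm_nonneg y]) (by linarith [norm_nonneg x])

theorem EG.sec_left {f : X × Y → ℝ} (hf : EG f) (y : Y) : EG fun x => f (x, y) :=
  hf.comp (by fun_prop) (a := 1) (b := ‖y‖) fun x => by
    rw [Prod.norm_def, one_mul]
    exact max_le (by linarith [norm_nonneg y]) (by linarith [norm_nonneg x])

theorem EG.coord {ι : Type} [Fintype ι] (e : ι) : EG fun x : ι → ℝ => x e :=
  EG.of_lin (continuous_apply e) (a := 1) (b := 0) fun x => by
    simpa using norm_le_pi_norm x e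

variable [MeasurableSpace X] [BorelSpace X] [SecondCountableTopology X]
  [MeasurableSpace Y] [BorelSpace Y] [SecondCountableTopology Y]

theorem EG.integrable (hf : EG f) {μ : Measure X} (hμ : Nice μ) : Integrable f μ := by
  obtain ⟨h1, C, c, _, _, h⟩ := hf
  exact ((hμ.ex c).const_mul C).mono' h1.aestronglyMeasurable (ae_of_all _ h)

theorem Nice.prod {μ : Measure X} {ν : Measure Y} (hμ : Nice μ) (hν : Nice ν) :
    Nice (μ.prod ν) := by
  have := hμ.prob
  have := hν.prob
  refine ⟨inferInstance, fun c => ?_⟩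
  refine ((hμ.ex |c|).mul_prod (hν.ex |c|)).mono' (by fun_prop) (ae_of_all _ fun p => ?_)
  rw [Real.norm_of_nonneg (Real.exp_pos _).le, ← Real.exp_add, ← mul_add]
  refine Real.exp_le_exp.2 (mul_le_mul (le_abs_self c) ?_ (norm_nonneg _) (abs_nonneg _))
  rw [Prod.norm_def]
  exact max_le (by linarith [norm_nonneg p.2]) (by linarith [norm_nonneg p.1])

omit [MeasurableSpace X] [BorelSpace X] in
/-- Partial integrals. -/
theorem EG.int_right {f : X × Y → ℝ} (hf : EG f) {ν : Measure Y} (hν : Nice ν) :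
    EG fun x => ∫ y, f (x, y) ∂ν := by
  obtain ⟨h1, C, c, hC, hc, h⟩ := hf
  have hb : ∀ x y, |f (x, y)| ≤ C * Real.exp (c * ‖x‖) * Real.exp (c * ‖y‖) := fun x y => by
    refine (h _).trans ?_
    rw [mul_assoc, ← Real.exp_add, ← mul_add]
    refine mul_le_mul_of_nonneg_left (Real.exp_le_exp.2 (mul_le_mul_of_nonneg_left ?_ hc)) hC
    rw [Prod.norm_def]
    exact max_le (by linarith [norm_nonneg y]) (by linarith [norm_nonneg x])
  refine ⟨continuous_iff_continuousAt.2 fun x0 => ?_,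
    C * ∫ y, Real.exp (c * ‖y‖) ∂ν, c,
    mul_nonneg hC (integral_nonneg fun y => (Real.exp_pos _).le), hc, fun x => ?_⟩
  · refine continuousAt_of_dominated
      (bound := fun y => C * Real.exp (c * (‖x0‖ + 1)) * Real.exp (c * ‖y‖))
      (Filter.Eventually.of_forall fun x => (h1.comp (by fun_prop)).aestronglyMeasurable) ?_
      ((hν.ex c).const_mul _) (ae_of_all _ fun y => (h1.comp (by fun_prop)).continuousAt)
    filter_upwards [Metric.ball_mem_nhds x0 zero_lt_one] with x hx
    refine ae_of_all _ fun y => (hb x y).trans ?_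
    have : ‖x‖ ≤ ‖x0‖ + 1 := by
      have h2 := norm_sub_norm_le x x0
      rw [mem_ball_iff_norm] at hx
      linarith
    gcongr
  · rw [← Real.norm_eq_abs]
    refine (norm_integral_le_of_norm_le ((hν.ex c).const_mul (C * Real.exp (c * ‖x‖)))
      (ae_of_all _ fun y => hb x y)).trans (le_of_eq ?_)
    rw [integral_const_mul]
    ring

end eg

theorem nice_gam (ι : Type) [Fintype ι] : Nice (gam ι) := by
  have h1 : ∀ c : ℝ, Integrable (fun z : ℝ => Real.exp (c * ‖z‖)) (gaussianReal 0 1) := fun c => by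
    refine ((integrable_exp_mul_gaussianReal c).add (integrable_exp_mul_gaussianReal (-c))).mono'
      (by fun_prop) (ae_of_all _ fun z => ?_)
    rw [Real.norm_of_nonneg (Real.exp_pos _).le, Real.norm_eq_abs, Pi.add_apply]
    rcases abs_cases z with ⟨h, _⟩ | ⟨h, _⟩
    · rw [h]
      exact le_add_of_nonneg_right (Real.exp_pos _).le
    · rw [h, mul_neg, neg_mul]
      exact le_add_of_nonneg_left (Real.exp_pos _).le
  refine ⟨inferInstance, fun c => ?_⟩
  refine (Integrable.fintype_prod fun _ : ι => h1 |c|).mono'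
    (by fun_prop) (ae_of_all _ fun z => ?_)
  rw [Real.norm_of_nonneg (Real.exp_pos _).le, ← Real.exp_sum, ← Finset.mul_sum]
  refine Real.exp_le_exp.2 (mul_le_mul (le_abs_self c) ?_ (norm_nonneg _) (abs_nonneg _))
  exact (pi_norm_le_iff_of_nonneg (Finset.sum_nonneg fun i _ => norm_nonneg _)).2 fun i =>
    Finset.single_le_sum (f := fun i => ‖z i‖) (fun i _ => norm_nonneg _) (Finset.mem_univ i)

section ops
variable {ι : Type} [Fintype ι]

theorem EG.intg {f : (ι → ℝ) → ℝ} (hf : EG f) : Integrable f (gam ι) := hf.integrable (nice_gam ι)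

theorem EG.intg2 {f : (ι → ℝ) × (ι → ℝ) → ℝ} (hf : EG f) : Integrable f ((gam ι).prod (gam ι)) :=
  hf.integrable ((nice_gam ι).prod (nice_gam ι))

/-- Coordinatewise noise: `a x + √(1 - a²) y`. -/
noncomputable def nz (a x y : ι → ℝ) : ι → ℝ := fun e => a e * x e + √(1 - a e ^ 2) * y e

/-- The smoothing operator with coordinatewise correlation `a`. -/
noncomputable def T (a : ι → ℝ) (f : (ι → ℝ) → ℝ) (x : ι → ℝ) : ℝ := ∫ y, f (nz a x y) ∂gam ι

/-- Vectors with entries in `[0,1]`. -/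
def U01 (a : ι → ℝ) : Prop := ∀ e, 0 ≤ a e ∧ a e ≤ 1

/-- `E f(x) h(x')` for `r`-correlated Gaussian vectors. -/
noncomputable def cov (r : ℝ) (f h : (ι → ℝ) → ℝ) : ℝ :=
  ∫ x, f x * T (fun _ => r) h x ∂gam ι

/-- `T (off I)` integrates out the coordinates in `I`. -/
def off [DecidableEq ι] (I : Finset ι) : ι → ℝ := fun e => if e ∈ I then 0 else 1

/-- Differentiable with partial derivatives `D e`, everything of exponential growth. -/
structure C1 (f : (ι → ℝ) → ℝ) (D : ι → (ι → ℝ) → ℝ) : Prop where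
  eg : EG f
  egD : ∀ e, EG (D e)
  der : ∀ x, HasFDerivAt f
    (∑ e, D e x • ContinuousLinearMap.proj (R := ℝ) (φ := fun _ : ι => ℝ) e) x

omit [Fintype ι] in
theorem u01_const {r : ℝ} (h0 : 0 ≤ r) (h1 : r ≤ 1) : U01 fun _ : ι => r := fun _ => ⟨h0, h1⟩

omit [Fintype ι] in
theorem u01_off [DecidableEq ι] (I : Finset ι) : U01 (off I) := fun e => by
  unfold off
  split_ifs <;> norm_num

omit [Fintype ι] in
theorem U01.mul {a b : ι → ℝ} (ha : U01 a) (hb : U01 b) : U01 (a * b) := fun e =>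
  ⟨mul_nonneg (ha e).1 (hb e).1, mul_le_one₀ (ha e).2 (hb e).1 (hb e).2⟩

omit [Fintype ι] in
theorem nz_off [DecidableEq ι] (I : Finset ι) (x y : ι → ℝ) (e : ι) :
    nz (off I) x y e = if e ∈ I then y e else x e := by
  unfold nz off
  split_ifs <;> simp

omit [Fintype ι] in
theorem nz_one (x y : ι → ℝ) : nz (fun _ => 1) x y = x := by
  funext e
  simp [nz]

omit [Fintype ι] in
theorem nz_zero (x y : ι → ℝ) : nz (fun _ => 0) x y = y := by
  funext e
  simp [nz]

theorem continuous_nz (a : ι → ℝ) : Continuous fun p : (ι → ℝ) × (ι → ℝ) => nz a p.1 p.2 := by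
  unfold nz
  fun_prop

theorem norm_nz {a : ι → ℝ} (ha : U01 a) (x y : ι → ℝ) : ‖nz a x y‖ ≤ ‖x‖ + ‖y‖ := by
  refine (pi_norm_le_iff_of_nonneg (by positivity)).2 fun e => ?_
  have h1 : √(1 - a e ^ 2) ≤ 1 := Real.sqrt_le_one.2 (by nlinarith [sq_nonneg (a e)])
  have h2 := norm_le_pi_norm x e
  have h3 := norm_le_pi_norm y e
  refine (norm_add_le _ _).trans (add_le_add ?_ ?_)
  · rw [norm_mul, Real.norm_of_nonneg (ha e).1]
    exact (mul_le_of_le_one_left (norm_nonneg _) (ha e).2).trans h2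
  · rw [norm_mul, Real.norm_of_nonneg (Real.sqrt_nonneg _)]
    exact (mul_le_of_le_one_left (norm_nonneg _) h1).trans h3

theorem EG.nz {f : (ι → ℝ) → ℝ} (hf : EG f) {a : ι → ℝ} (ha : U01 a) :
    EG fun p : (ι → ℝ) × (ι → ℝ) => f (nz a p.1 p.2) :=
  hf.comp (continuous_nz a) (a := 2) (b := 0) fun p => by
    have := norm_nz ha p.1 p.2
    linarith [norm_fst_le p, norm_snd_le p]

theorem EG.T {f : (ι → ℝ) → ℝ} (hf : EG f) {a : ι → ℝ} (ha : U01 a) : EG (T a f) :=
  (hf.nz ha).int_right (nice_gam ι)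

theorem abs_T_le {f : (ι → ℝ) → ℝ} {C : ℝ} (h : ∀ x, |f x| ≤ C) (a x : ι → ℝ) :
    |T a f x| ≤ C := by
  have := norm_integral_le_of_norm_le_const (μ := gam ι) (f := fun y => f (nz a x y)) (C := C)
    (ae_of_all _ fun y => h _)
  simpa [T] using this

theorem T_const (a : ι → ℝ) (c : ℝ) (x : ι → ℝ) : T a (fun _ => c) x = c := by simp [T]

theorem T_one (f : (ι → ℝ) → ℝ) : T (fun _ => 1) f = f := by
  funext x
  simp [T, nz_one]

theorem T_zero (f : (ι → ℝ) → ℝ) (x : ι → ℝ) : T (fun _ => 0) f x = ∫ y, f y ∂gam ι := by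
  simp [T, nz_zero]

theorem T_add {f g : (ι → ℝ) → ℝ} (hf : EG f) (hg : EG g) {a : ι → ℝ} (ha : U01 a) (x : ι → ℝ) :
    T a (fun x => f x + g x) x = T a f x + T a g x :=
  integral_add ((hf.nz ha).sec_right x).intg ((hg.nz ha).sec_right x).intg

theorem T_sub {f g : (ι → ℝ) → ℝ} (hf : EG f) (hg : EG g) {a : ι → ℝ} (ha : U01 a) (x : ι → ℝ) :
    T a (fun x => f x - g x) x = T a f x - T a g x :=
  integral_sub ((hf.nz ha).sec_right x).intg ((hg.nz ha).sec_right x).intg

theorem T_const_mul (a : ι → ℝ) (c : ℝ) (f : (ι → ℝ) → ℝ) (x : ι → ℝ) :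
    T a (fun x => c * f x) x = c * T a f x := integral_const_mul _ _

theorem T_sum {α : Type} (s : Finset α) {F : α → (ι → ℝ) → ℝ} (h : ∀ b ∈ s, EG (F b))
    {a : ι → ℝ} (ha : U01 a) (x : ι → ℝ) :
    T a (fun x => ∑ b ∈ s, F b x) x = ∑ b ∈ s, T a (F b) x :=
  integral_finset_sum s fun b hb => (((h b hb).nz ha).sec_right x).intg

theorem cov_eq_prod {r : ℝ} (h0 : 0 ≤ r) (h1 : r ≤ 1) {f h : (ι → ℝ) → ℝ} (hf : EG f)
    (hh : EG h) : cov r f h =
      ∫ p, f p.1 * h (nz (fun _ => r) p.1 p.2) ∂(gam ι).prod (gam ι) := by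
  rw [integral_prod _ (hf.fst.mul (hh.nz (u01_const h0 h1))).intg2, cov]
  simp only [T, integral_const_mul]

theorem cov_one (f h : (ι → ℝ) → ℝ) : cov 1 f h = ∫ x, f x * h x ∂gam ι := by
  simp [cov, T_one]

theorem cov_zero (f h : (ι → ℝ) → ℝ) : cov 0 f h = (∫ x, f x ∂gam ι) * ∫ x, h x ∂gam ι := by
  simp only [cov, T_zero, integral_mul_const]

/-- Bilinear expansion of `cov`. -/
theorem cov_sum_sum {α β : Type} (s : Finset α) (t : Finset β) (u : α → ℝ) (v : β → ℝ)
    {F : α → (ι → ℝ) → ℝ} {G : β → (ι → ℝ) → ℝ} (hF : ∀ a ∈ s, EG (F a))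
    (hG : ∀ b ∈ t, EG (G b)) {r : ℝ} (h0 : 0 ≤ r) (h1 : r ≤ 1) :
    cov r (fun x => ∑ a ∈ s, u a * F a x) (fun x => ∑ b ∈ t, v b * G b x) =
      ∑ a ∈ s, ∑ b ∈ t, u a * v b * cov r (F a) (G b) := by
  have hr : U01 fun _ : ι => r := u01_const h0 h1
  unfold cov
  simp only [T_sum t (fun b hb => (hG b hb).const_mul (v b)) hr, T_const_mul, Finset.sum_mul_sum]
  rw [integral_finset_sum _ fun a ha => (EG.sum t fun b hb =>
    ((hF a ha).const_mul _).mul (((hG b hb).T hr).const_mul _)).intg]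
  refine Finset.sum_congr rfl fun a ha => ?_
  rw [integral_finset_sum _ fun b hb =>
    (((hF a ha).const_mul _).mul (((hG b hb).T hr).const_mul _)).intg]
  refine Finset.sum_congr rfl fun b _ => ?_
  rw [← integral_const_mul]
  exact integral_congr_ae (ae_of_all _ fun x => by ring)

theorem cov_zero_left (r : ℝ) (h : (ι → ℝ) → ℝ) : cov r (fun _ => 0) h = 0 := by simp [cov]

theorem cov_zero_right (r : ℝ) (f : (ι → ℝ) → ℝ) : cov r f (fun _ => 0) = 0 := by
  simp [cov, T_const]

theorem cov_const_mul (r a b : ℝ) (f h : (ι → ℝ) → ℝ) :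
    cov r (fun x => a * f x) (fun x => b * h x) = a * b * cov r f h := by
  unfold cov
  simp only [T_const_mul]
  rw [← integral_const_mul]
  exact integral_congr_ae (ae_of_all _ fun x => by ring)

end ops

end Vale.Agent.P146
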