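import Vale.Agent.P146.Defs

/-! # P146: Gaussian interpolation formula for the covariance -/

namespace Vale.Agent.P146

open MeasureTheory ProbabilityTheory

namespace InterpAux

variable {ι : Type} [Fintype ι]

/-- Chain rule in the second argument of the noise map. -/
theorem c1_nz {f : (ι → ℝ) → ℝ} {D : ι → (ι → ℝ) → ℝ} (hf : C1 f D) {r : ℝ} (h0 : 0 ≤ r)
    (h1 : r ≤ 1) (z : ι → ℝ) :
    C1 (fun w => f (nz (fun _ => r) z w))
      fun e w => √(1 - r ^ 2) * D e (nz (fun _ => r) z w) := by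
  refine ⟨(hf.eg.nz (u01_const h0 h1)).sec_right z,
    fun e => (((hf.egD e).nz (u01_const h0 h1)).sec_right z).const_mul _, fun w => ?_⟩
  have hn : HasFDerivAt (fun w : ι → ℝ => nz (fun _ => r) z w)
      (√(1 - r ^ 2) • ContinuousLinearMap.id ℝ (ι → ℝ)) w := by
    have h2 : (fun w : ι → ℝ => nz (fun _ => r) z w) = fun w => r • z + √(1 - r ^ 2) • w := by
      funext w e
      simp [nz]
    rw [h2]
    exact ((hasFDerivAt_id (𝕜 := ℝ) w).const_smul √(1 - r ^ 2)).const_add _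
  refine ((hf.der _).comp w hn).congr_fderiv ?_
  ext v
  simp only [ContinuousLinearMap.comp_apply, sum_apply,
    smul_apply, ContinuousLinearMap.proj_apply, ContinuousLinearMap.id_apply,
    Pi.smul_apply, smul_eq_mul]
  exact Finset.sum_congr rfl fun e _ => by ring

/-- The key identity: rotate, integrate by parts, rotate back. -/
theorem key (h_orth : S_orth) (h_stein : S_stein) {f g : (ι → ℝ) → ℝ} {D : ι → (ι → ℝ) → ℝ}
    (hf : C1 f D) (hg : EG g) {r : ℝ} (h0 : 0 ≤ r) (h1 : r < 1) (e : ι) :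
    ∫ p, f p.1 * (g (nz (fun _ => r) p.1 p.2) * (p.1 e - r / √(1 - r ^ 2) * p.2 e))
      ∂(gam ι).prod (gam ι) = cov r (D e) g := by
  have hu : U01 fun _ : ι => r := u01_const h0 h1.le
  have hpos : 0 < 1 - r ^ 2 := by nlinarith
  set s := √(1 - r ^ 2) with hs
  have hs0 : 0 < s := Real.sqrt_pos.2 hpos
  have hs2 : s ^ 2 = 1 - r ^ 2 := Real.sq_sqrt hpos.le
  have hR := h_orth ι (fun _ => r) (fun _ => s) (fun _ => s) (fun _ => -r)
    (fun _ => by linarith) (fun _ => by linarith) (fun _ => by ring)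
  set R := fun p : (ι → ℝ) × (ι → ℝ) =>
    ((fun e => r * p.1 e + s * p.2 e), (fun e => s * p.1 e + -r * p.2 e)) with hRdef
  have hcv : ∀ F : (ι → ℝ) × (ι → ℝ) → ℝ, Continuous F →
      ∫ p, F (R p) ∂(gam ι).prod (gam ι) = ∫ p, F p ∂(gam ι).prod (gam ι) := fun F hF => by
    rw [← integral_map hR.measurable.aemeasurable hF.aestronglyMeasurable, hR.map_eq]
  have hR1 : ∀ p : (ι → ℝ) × (ι → ℝ), (R p).1 = nz (fun _ => r) p.1 p.2 := fun p => rfl
  have hR2 : ∀ p : (ι → ℝ) × (ι → ℝ), nz (fun _ => r) (R p).1 (R p).2 = p.1 := fun p => by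
    funext i
    simp only [nz, hRdef, ← hs]
    linear_combination (p.1 i) * hs2
  have e1 : EG fun q : (ι → ℝ) × (ι → ℝ) =>
      f (nz (fun _ => r) q.1 q.2) * (g q.1 * (s⁻¹ * q.2 e)) :=
    (hf.eg.nz hu).mul (hg.fst.mul ((EG.coord e).snd.const_mul _))
  have e2 : EG fun q : (ι → ℝ) × (ι → ℝ) => D e (nz (fun _ => r) q.1 q.2) * g q.1 :=
    ((hf.egD e).nz hu).mul hg.fst
  have a1 := hcv _ e1.cont
  have a2 := hcv _ e2.cont
  simp only [hR2] at a1 a2
  simp only [hR1] at a1 a2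
  rw [cov_eq_prod h0 h1.le (hf.egD e) hg, a2]
  have a3 : ∀ p : (ι → ℝ) × (ι → ℝ), s⁻¹ * (R p).2 e = p.1 e - r / s * p.2 e := fun p => by
    simp only [hRdef]
    field_simp
    ring
  simp only [a3] at a1
  rw [a1, integral_prod _ e1.intg2, integral_prod _ e2.intg2]
  refine integral_congr_ae (ae_of_all _ fun z => ?_)
  have b1 := h_stein ι _ _ e (c1_nz hf h0 h1.le z)
  rw [integral_const_mul] at b1
  have b2 : ∀ w : ι → ℝ, f (nz (fun _ => r) z w) * (g z * (s⁻¹ * w e)) =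
      (g z * s⁻¹) * (w e * f (nz (fun _ => r) z w)) := fun w => by ring
  simp only [b2]
  rw [integral_const_mul, b1, integral_mul_const, ← hs]
  field_simp

omit [Fintype ι] in
theorem hasDerivAt_nz (x y : ι → ℝ) {t : ℝ} (ht : 0 < 1 - t ^ 2) :
    HasDerivAt (fun t : ℝ => nz (fun _ => t) x y) (fun e => x e - t / √(1 - t ^ 2) * y e) t := by
  refine hasDerivAt_pi.2 fun e => ?_
  have h1 : HasDerivAt (fun t : ℝ => 1 - t ^ 2) (-(2 * t)) t := by
    simpa using (hasDerivAt_pow 2 t).const_sub 1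
  have h2 := ((hasDerivAt_id t).mul_const (x e)).add ((h1.sqrt ht.ne').mul_const (y e))
  refine h2.congr_deriv ?_
  have hs0 : 0 < √(1 - t ^ 2) := Real.sqrt_pos.2 ht
  field_simp
  ring

theorem hasDerivAt_pt {h : (ι → ℝ) → ℝ} {D : ι → (ι → ℝ) → ℝ} (hh : C1 h D) (a : ℝ)
    (x y : ι → ℝ) {t : ℝ} (ht : 0 < 1 - t ^ 2) :
    HasDerivAt (fun t : ℝ => a * h (nz (fun _ => t) x y))
      (∑ e, a * (D e (nz (fun _ => t) x y) * (x e - t / √(1 - t ^ 2) * y e))) t := by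
  have h1 := ((hh.der _).comp_hasDerivAt t (hasDerivAt_nz x y ht)).const_mul a
  refine h1.congr_deriv ?_
  simp only [sum_apply, smul_apply,
    ContinuousLinearMap.proj_apply, smul_eq_mul, Finset.mul_sum]

theorem eg_exp (c : ℝ) (hc : 0 ≤ c) :
    EG fun p : (ι → ℝ) × (ι → ℝ) => Real.exp (c * (‖p.1‖ + ‖p.2‖)) := by
  refine ⟨by fun_prop, 1, c * 2, zero_le_one, by positivity, fun p => ?_⟩
  rw [abs_of_pos (Real.exp_pos _), one_mul, mul_assoc]
  refine Real.exp_le_exp.2 (mul_le_mul_of_nonneg_left ?_ hc)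
  linarith [norm_fst_le p, norm_snd_le p]

theorem hasDerivAt_cov (h_orth : S_orth) (h_stein : S_stein) {f h : (ι → ℝ) → ℝ}
    {Df Dh : ι → (ι → ℝ) → ℝ} (hf : C1 f Df) (hh : C1 h Dh) {r : ℝ} (h0 : 0 < r) (h1 : r < 1) :
    HasDerivAt (fun t => cov t f h) (∑ e, cov r (Df e) (Dh e)) r := by
  obtain ⟨m, hrm, hm1⟩ := exists_between h1
  have hI : Set.Ioo 0 m ∈ nhds r := Ioo_mem_nhds h0 hrm
  have hm0 : 0 < m := h0.trans hrm
  have hmp : 0 < 1 - m ^ 2 := by nlinarith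
  have hsm : 0 < √(1 - m ^ 2) := Real.sqrt_pos.2 hmp
  choose C c hC hc hb using fun e => (hh.egD e).2
  have eF : ∀ t, 0 ≤ t → t ≤ 1 → EG fun p : (ι → ℝ) × (ι → ℝ) =>
      f p.1 * h (nz (fun _ => t) p.1 p.2) := fun t a b => hf.eg.fst.mul (hh.eg.nz (u01_const a b))
  have eF' : ∀ e, EG fun p : (ι → ℝ) × (ι → ℝ) =>
      f p.1 * (Dh e (nz (fun _ => r) p.1 p.2) * (p.1 e - r / √(1 - r ^ 2) * p.2 e)) := fun e =>
    hf.eg.fst.mul (((hh.egD e).nz (u01_const h0.le h1.le)).mul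
      ((EG.coord e).fst.sub ((EG.coord e).snd.const_mul _)))
  have eB : EG fun p : (ι → ℝ) × (ι → ℝ) => ∑ e, |f p.1| *
      (C e * Real.exp (c e * (‖p.1‖ + ‖p.2‖)) * (|p.1 e| + 1 / √(1 - m ^ 2) * |p.2 e|)) :=
    EG.sum _ fun e _ => hf.eg.fst.abs.mul (((eg_exp _ (hc e)).const_mul _).mul
      ((EG.coord e).fst.abs.add ((EG.coord e).snd.abs.const_mul _)))
  have hd := hasDerivAt_integral_of_dominated_loc_of_deriv_le (μ := (gam ι).prod (gam ι))
    (F := fun (t : ℝ) (p : (ι → ℝ) × (ι → ℝ)) => f p.1 * h (nz (fun _ => t) p.1 p.2))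
    (F' := fun (t : ℝ) (p : (ι → ℝ) × (ι → ℝ)) => ∑ e, f p.1 *
      (Dh e (nz (fun _ => t) p.1 p.2) * (p.1 e - t / √(1 - t ^ 2) * p.2 e)))
    (x₀ := r) hI ?_ (eF r h0.le h1.le).intg2 (EG.sum _ fun e _ => eF' e).cont.aestronglyMeasurable
    ?_ eB.intg2 ?_
  · have h2 := hd.2
    rw [integral_finsetSum _ fun e _ => (eF' e).intg2] at h2
    simp only [key h_orth h_stein hf (hh.egD _) h0.le h1] at h2
    refine h2.congr_of_eventuallyEq ?_
    filter_upwards [hI] with t ht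
    exact cov_eq_prod ht.1.le (ht.2.trans hm1).le hf.eg hh.eg
  · filter_upwards [hI] with t ht
    exact (eF t ht.1.le (ht.2.trans hm1).le).cont.aestronglyMeasurable
  · refine ae_of_all _ fun p t ht => (norm_sum_le _ _).trans (Finset.sum_le_sum fun e _ => ?_)
    rw [Real.norm_eq_abs, abs_mul, abs_mul]
    refine mul_le_mul_of_nonneg_left (mul_le_mul ((hb e _).trans ?_) ?_ (abs_nonneg _)
      (mul_nonneg (hC e) (Real.exp_pos _).le)) (abs_nonneg _)
    · exact mul_le_mul_of_nonneg_left (Real.exp_le_exp.2 (mul_le_mul_of_nonneg_left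
        (norm_nz (u01_const ht.1.le (ht.2.trans hm1).le) _ _) (hc e))) (hC e)
    · refine (abs_sub _ _).trans (add_le_add le_rfl ?_)
      rw [abs_mul]
      refine mul_le_mul_of_nonneg_right ?_ (abs_nonneg _)
      rw [abs_of_nonneg (div_nonneg ht.1.le (Real.sqrt_nonneg _))]
      refine div_le_div₀ zero_le_one (ht.2.trans hm1).le hsm (Real.sqrt_le_sqrt ?_)
      nlinarith [ht.1, ht.2]
  · refine ae_of_all _ fun p t ht => hasDerivAt_pt hh _ _ _ ?_
    nlinarith [ht.1, ht.2]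

end InterpAux

theorem interp (h_orth : S_orth) (h_stein : S_stein) (h_covcont : S_covcont) : S_interp := by
  intro ι _ f h Df Dh ρ hf hh h0 h1
  have hsub : Set.Icc 0 ρ ⊆ Set.Icc (0 : ℝ) 1 := Set.Icc_subset_Icc le_rfl h1
  have hc : ContinuousOn (fun r => ∑ e, cov r (Df e) (Dh e)) (Set.Icc 0 ρ) :=
    continuousOn_finsetSum _ fun e _ => (h_covcont ι _ _ (hf.egD e) (hh.egD e)).mono hsub
  rw [intervalIntegral.integral_eq_sub_of_hasDerivAt_of_le h0
    ((h_covcont ι f h hf.eg hh.eg).mono hsub)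
    (fun r hr => InterpAux.hasDerivAt_cov h_orth h_stein hf hh hr.1 (hr.2.trans_le h1))
    (hc.intervalIntegrable_of_Icc h0), cov_zero]

end Vale.Agent.P146
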