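import Mathlib

/-! # P146: the Sherrington-Kirkpatrick free energy -/

namespace Vale.Agent.P146

open MeasureTheory ProbabilityTheory

/-- Index pairs `i < j`. -/
abbrev Edge (n : ℕ) : Type := {p : Fin n × Fin n // p.1 < p.2}

/-- The value `±1` of a spin. -/
def spin (b : Bool) : ℝ := if b then 1 else -1

/-- `H_n(σ) = n^(-1/2) ∑_{i<j} g_{ij} σ_i σ_j`. -/
noncomputable def ham {n : ℕ} (g : Edge n → ℝ) (σ : Fin n → Bool) : ℝ :=
  (1 / √(n : ℝ)) * ∑ e : Edge n, g e * (spin (σ e.1.1) * spin (σ e.1.2))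

/-- `F_n(β) = log ∑_σ exp (β H_n(σ))`. -/
noncomputable def freeEnergy (n : ℕ) (β : ℝ) (g : Edge n → ℝ) : ℝ :=
  Real.log (∑ σ : Fin n → Bool, Real.exp (β * ham g σ))

/-- Independent standard Gaussian couplings. -/
noncomputable def disorder (n : ℕ) : Measure (Edge n → ℝ) :=
  Measure.pi fun _ => gaussianReal 0 1

end Vale.Agent.P146
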